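import Vale.Agent.P088.R2.H313.TopD

/-!
# P088, stage 3: the slope functions as families in `M₀`, the slope at `+∞`

`Nt M₀ = lim Φ'` is a continuous function of `M₀`, so every large real number is `Nt M₀`.
-/

open Set Filter Topology MeasureTheory
open scoped ContDiff

noncomputable section

namespace Vale.Agent.P088.R2.H313.Ph

variable (p : Pr)

theorem Pr.Lg.decay1 {p : Pr} {m : ℝ} (hm : p.Lg m) {u : ℝ} (h1 : p.s2 + 1 ≤ u - Real.log m)
    (h2 : 1 ≤ u - p.u3 m) : p.Nt m - p.NN m u ≤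
      (p.X * m) * (p.C2 * p.X * m + p.cq m * Real.exp (p.u3 m)) * Real.exp (-u) := by
  have hX := mul_pos p.X_pos hm.pos
  set D : ℝ := (p.X * m) * (p.C2 * p.X * m + p.cq m * Real.exp (p.u3 m)) with hD
  have hD0 : 0 < D := by
    have := p.h2
    have := p.X_pos
    have := hm.pos
    have := hm.cq_pos
    positivity
  have hR : ∀ v, u ≤ v → p.NN m v * p.RR m v ≤ D * Real.exp (-v) := by
    intro v hv
    have a1 : p.s2 + 1 ≤ v - Real.log m := by linarith
    have a2 : 1 ≤ v - p.u3 m := by linarith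
    have a3 : p.RR m v ≤ (p.C2 * p.X * m + p.cq m * Real.exp (p.u3 m)) * Real.exp (-v) := by
      have b1 := hm.Q_le_hh v
      rw [hh_right a2] at b1
      have b2 : Real.exp (-(v - p.u3 m)) = Real.exp (p.u3 m) * Real.exp (-v) := by
        rw [← Real.exp_add]; congr 1; ring
      have b3 : Real.exp (-(v - Real.log m)) = m * Real.exp (-v) := by
        rw [show -(v - Real.log m) = Real.log m + -v by ring, Real.exp_add, Real.exp_log hm.pos]
      show p.R0 (v - Real.log m) + p.Q m v ≤ _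
      rw [p.R0_right a1, b3]
      rw [b2] at b1
      linarith
    calc p.NN m v * p.RR m v ≤
          (p.X * m) * ((p.C2 * p.X * m + p.cq m * Real.exp (p.u3 m)) * Real.exp (-v)) :=
          mul_le_mul (hm.N_le v) a3 (hm.R_pos v).le hX.le
      _ = D * Real.exp (-v) := by rw [hD]; ring
  have hanti : AntitoneOn (fun v => p.NN m v + D * Real.exp (-v)) (Ici u) := by
    have hd : ∀ v, HasDerivAt (fun v => p.NN m v + D * Real.exp (-v))
        (p.NN m v * p.RR m v + D * (Real.exp (-v) * (-1))) v := fun v =>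
      (hm.N_deriv v).add (((hasDerivAt_neg v).exp).const_mul D)
    refine antitoneOn_of_deriv_nonpos (convex_Ici u)
      (fun v _ => (hd v).continuousAt.continuousWithinAt)
      (fun v _ => (hd v).differentiableAt.differentiableWithinAt) fun v hv => ?_
    rw [interior_Ici] at hv
    rw [(hd v).deriv]
    have := hR v (le_of_lt hv)
    linarith
  have : p.Nt m ≤ p.NN m u + D * Real.exp (-u) := by
    refine ciSup_le fun t => ?_
    rcases le_total t u with h | h
    · have := hm.N_mono h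
      have := mul_pos hD0 (Real.exp_pos (-u))
      linarith
    · have h2 := hanti self_mem_Ici h h
      have h3 := mul_pos hD0 (Real.exp_pos (-t))
      simp only at h2
      linarith
  linarith

/-- Continuity of `N(u)` in `log M₀`. -/
theorem Pr.NN_cont (u : ℝ) : Continuous fun s => p.NN (Real.exp s) u := by
  have h1 : Continuous fun s : ℝ => p.cq (Real.exp s) := by
    refine continuous_const.mul (Continuous.rpow_const (continuous_const.mul Real.continuous_exp)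
      fun s => Or.inl ?_)
    exact (mul_pos p.X0_pos (Real.exp_pos s)).ne'
  have h2 : Continuous fun s : ℝ => p.aa (Real.exp s) := by
    have e : (fun s : ℝ => p.aa (Real.exp s)) = fun s => s + p.s2 := by
      funext s
      show Real.log (Real.exp s) + p.s2 = _
      rw [Real.log_exp]
    rw [e]
    exact continuous_id.add continuous_const
  have h3 : Continuous fun s : ℝ => p.u3 (Real.exp s) := by
    have e : (fun s : ℝ => p.u3 (Real.exp s)) =
        fun s => Real.log p.C3 + p.be * (Real.log p.X + s) := by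
      funext s
      show Real.log p.C3 + p.be * (Real.log p.X + Real.log (Real.exp s)) = _
      rw [Real.log_exp]
    rw [e]
    exact continuous_const.add (continuous_const.mul (continuous_const.add continuous_id))
  have h4 : Continuous (Function.uncurry fun (s : ℝ) (t : ℝ) => p.Q (Real.exp s) t) := by
    show Continuous fun x : ℝ × ℝ => p.cq (Real.exp x.1) * st (x.2 - p.aa (Real.exp x.1)) *
      hh (x.2 - p.u3 (Real.exp x.1))
    exact ((h1.comp continuous_fst).mul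
      (st_smooth.continuous.comp (continuous_snd.sub (h2.comp continuous_fst)))).mul
      (hh_smooth.continuous.comp (continuous_snd.sub (h3.comp continuous_fst)))
  have h5 : Continuous fun s : ℝ => p.H1 (Real.exp s) u := by
    have := (intervalIntegral.continuous_parametric_intervalIntegral_of_continuous (a₀ := u)
      (μ := volume) h4 h2).neg
    refine this.congr fun s => ?_
    show -∫ t in u..p.aa (Real.exp s), p.Q (Real.exp s) t = _
    rw [Pr.H1, intervalIntegral.integral_symm u]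
  have h6 : Continuous fun s : ℝ => p.H0 (u - Real.log (Real.exp s)) := by
    have e : (fun s : ℝ => p.H0 (u - Real.log (Real.exp s))) = fun s => p.H0 (u - s) := by
      funext s
      rw [Real.log_exp]
    rw [e]
    exact p.H0_smooth.continuous.comp (continuous_const.sub continuous_id)
  exact Real.continuous_exp.mul (Real.continuous_exp.comp (h6.add h5))

theorem Pr.Lg.le_Nt' {p : Pr} {m : ℝ} (hm : p.Lg m) : m ≤ p.Nt m := (hm.N_ge 0).trans (hm.le_Nt 0)

/-- Continuity of `Nt`. -/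
theorem Pr.Nt_cont {Ms : ℝ} (hMs : 1 ≤ Ms) (H : ∀ m, Ms ≤ m → p.Lg m) :
    ContinuousOn p.Nt (Ici Ms) := by
  -- on compact intervals
  have key : ∀ M2, Ms ≤ M2 → ContinuousOn p.Nt (Icc Ms M2) := by
    intro M2 hM2
    have hM20 : 0 < M2 := by linarith
    set D2 : ℝ := (p.X * M2) * (p.C2 * p.X * M2 + Real.exp (p.u3 M2)) with hD2
    have hunif : TendstoUniformlyOn (fun u m => p.NN m u) p.Nt atTop (Icc Ms M2) := by
      rw [Metric.tendstoUniformlyOn_iff]
      intro ε hε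
      have t1 : Tendsto (fun u : ℝ => D2 * Real.exp (-u)) atTop (𝓝 (D2 * 0)) :=
        (Real.tendsto_exp_neg_atTop_nhds_zero).const_mul D2
      rw [mul_zero] at t1
      filter_upwards [t1.eventually_lt_const hε,
        eventually_ge_atTop (max (Real.log M2 + p.s2 + 1) (p.u3 M2 + 1))] with u hu1 hu2 m hm
      have hL : p.Lg m := H m hm.1
      have hm0 := hL.pos
      have l1 : Real.log m ≤ Real.log M2 := Real.log_le_log hm0 hm.2
      have l2 : p.u3 m ≤ p.u3 M2 := by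
        show Real.log p.C3 + p.be * (Real.log p.X + Real.log m) ≤
          Real.log p.C3 + p.be * (Real.log p.X + Real.log M2)
        have := mul_le_mul_of_nonneg_left (add_le_add_right l1 (Real.log p.X)) p.hbe.le
        linarith
      have a1 : p.s2 + 1 ≤ u - Real.log m := by
        have := (le_max_left _ _).trans hu2
        linarith
      have a2 : 1 ≤ u - p.u3 m := by
        have := (le_max_right _ _).trans hu2
        linarith
      have b1 := hL.decay1 a1 a2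
      have b2 : (p.X * m) * (p.C2 * p.X * m + p.cq m * Real.exp (p.u3 m)) ≤ D2 := by
        have c1 : p.X * m ≤ p.X * M2 := mul_le_mul_of_nonneg_left hm.2 p.X_pos.le
        have c2 : p.C2 * p.X * m ≤ p.C2 * p.X * M2 :=
          mul_le_mul_of_nonneg_left hm.2 (mul_pos p.h2 p.X_pos).le
        have c3 : p.cq m * Real.exp (p.u3 m) ≤ Real.exp (p.u3 M2) := by
          calc p.cq m * Real.exp (p.u3 m) ≤ 1 * Real.exp (p.u3 m) :=
                mul_le_mul_of_nonneg_right (by linarith [hL.cq1]) (Real.exp_pos _).le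
            _ ≤ Real.exp (p.u3 M2) := by rw [one_mul]; exact Real.exp_le_exp.2 l2
        have c4 : 0 ≤ p.C2 * p.X * m + p.cq m * Real.exp (p.u3 m) := by
          have := p.h2
          have := p.X_pos
          have := hL.cq_pos
          positivity
        exact mul_le_mul c1 (by linarith) c4 (mul_pos p.X_pos hM20).le
      have b3 := mul_le_mul_of_nonneg_right b2 (Real.exp_pos (-u)).le
      have b4 := hL.le_Nt u
      rw [Real.dist_eq, abs_of_nonneg (by linarith)]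
      linarith
    refine hunif.continuousOn (Eventually.frequently (Eventually.of_forall fun u => ?_))
    have h1 : ContinuousOn (fun m => p.NN (Real.exp (Real.log m)) u) (Icc Ms M2) :=
      (p.NN_cont u).comp_continuousOn (Real.continuousOn_log.mono fun m hm => by
        have : 0 < m := by linarith [hm.1]
        exact this.ne')
    refine h1.congr fun m hm => ?_
    have : 0 < m := by linarith [hm.1]
    show p.NN m u = p.NN (Real.exp (Real.log m)) u
    rw [Real.exp_log this]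
  intro m hm
  have h1 := key (m + 1) (by linarith [mem_Ici.1 hm]) m ⟨hm, by linarith⟩
  refine h1.mono_of_mem_nhdsWithin ?_
  rw [mem_nhdsWithin]
  exact ⟨Iio (m + 1), isOpen_Iio, by show m < m + 1; linarith, fun x hx =>
    ⟨hx.2, le_of_lt hx.1⟩⟩

theorem Pr.Nt_surj {Ms : ℝ} (hMs : 1 ≤ Ms) (H : ∀ m, Ms ≤ m → p.Lg m) {Mst : ℝ}
    (hst : Ms ≤ Mst) : ∃ ν₀ : ℝ, ∀ ν', ν₀ ≤ ν' → ∃ M0, Mst ≤ M0 ∧ p.Nt M0 = ν' := by
  refine ⟨p.Nt Mst, fun ν' hν => ?_⟩
  have hM2 : Mst ≤ max Mst ν' := le_max_left _ _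
  have hc : ContinuousOn p.Nt (Icc Mst (max Mst ν')) :=
    (p.Nt_cont hMs H).mono fun m hm => hst.trans hm.1
  have h2 : ν' ≤ p.Nt (max Mst ν') :=
    (le_max_right _ _).trans (H _ (hst.trans hM2)).le_Nt'
  obtain ⟨m, hm, h3⟩ := intermediate_value_Icc hM2 hc ⟨hν, h2⟩
  exact ⟨m, hm.1, h3⟩

section
variable {ρ κ nm ν C1 C2 C3 al be Cb M0 : ℝ} {Cd : ℕ → ℝ} {Φ : ℝ → ℝ}

theorem IsPhiU.neg (h : IsPhiU ρ κ nm ν C1 C2 C3 al be Cb Cd M0 Φ) {u : ℝ} (hu : u ≤ 0) :
    Φ u ≤ M0 * u := by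
  have hd : ∀ v, HasDerivAt (fun v => Φ v - M0 * v) (deriv Φ v - M0 * 1) v := fun v =>
    ((h.sm.differentiable (by simp)) v).hasDerivAt.sub ((hasDerivAt_id v).const_mul M0)
  have hm : Monotone fun v => Φ v - M0 * v := monotone_of_deriv_nonneg
    (fun v => (hd v).differentiableAt) fun v => by
      rw [(hd v).deriv]
      linarith [h.n1 v]
  have := hm hu
  simp only [h.ze, mul_zero, sub_zero] at this
  linarith

theorem IsPhiU.pos (h : IsPhiU ρ κ nm ν C1 C2 C3 al be Cb Cd M0 Φ) {u : ℝ} (hu : 0 ≤ u) :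
    M0 * u ≤ Φ u := by
  have hd : ∀ v, HasDerivAt (fun v => Φ v - M0 * v) (deriv Φ v - M0 * 1) v := fun v =>
    ((h.sm.differentiable (by simp)) v).hasDerivAt.sub ((hasDerivAt_id v).const_mul M0)
  have hm : Monotone fun v => Φ v - M0 * v := monotone_of_deriv_nonneg
    (fun v => (hd v).differentiableAt) fun v => by
      rw [(hd v).deriv]
      linarith [h.n1 v]
  have := hm hu
  simp only [h.ze, mul_zero, sub_zero] at this
  linarith

/-- `N(u) ≤ M₀ + Cb e^u`. -/
theorem IsPhiU.n3 (h : IsPhiU ρ κ nm ν C1 C2 C3 al be Cb Cd M0 Φ) (u : ℝ) :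
    deriv Φ u ≤ M0 + Cb * Real.exp u := by
  have hs1 : ContDiff ℝ ∞ (deriv Φ) := (contDiff_infty_iff_deriv.1 h.sm).2
  have hd1 : ∀ v, HasDerivAt Φ (deriv Φ v) v := fun v =>
    ((h.sm.differentiable (by simp)) v).hasDerivAt
  have hd2 : ∀ v, HasDerivAt (deriv Φ) (deriv (deriv Φ) v) v := fun v =>
    ((hs1.differentiable (by simp)) v).hasDerivAt
  by_contra hc
  push Not at hc
  set δ := deriv Φ u - M0 - Cb * Real.exp u with hδ
  have hδ0 : 0 < δ := by rw [hδ]; linarith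
  -- `N v ≥ M₀ + δ` for `v ≤ u`
  have hanti : Antitone fun v => deriv Φ v - Cb * Real.exp v := by
    have hd : ∀ v, HasDerivAt (fun v => deriv Φ v - Cb * Real.exp v)
        (deriv (deriv Φ) v - Cb * Real.exp v) v := fun v =>
      (hd2 v).sub ((Real.hasDerivAt_exp v).const_mul Cb)
    exact antitone_of_deriv_nonpos (fun v => (hd v).differentiableAt) fun v => by
      rw [(hd v).deriv]
      linarith [h.k2 v]
  have hCb : 0 < Cb := by
    have h1 := h.k0 u
    have h2 := h.k2 u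
    have h3 : 0 < Cb * Real.exp u := lt_of_lt_of_le h1 h2
    exact (pos_iff_pos_of_mul_pos h3).2 (Real.exp_pos u)
  have hN : ∀ v ≤ u, M0 + δ ≤ deriv Φ v := by
    intro v hv
    have h1 := hanti hv
    simp only at h1
    have h2 := mul_pos hCb (Real.exp_pos v)
    rw [hδ]
    linarith
  -- contradiction with `lo`
  have hm : MonotoneOn (fun v => Φ v - (M0 + δ) * v) (Iic u) := by
    have hd : ∀ v, HasDerivAt (fun v => Φ v - (M0 + δ) * v) (deriv Φ v - (M0 + δ) * 1) v :=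
      fun v => (hd1 v).sub ((hasDerivAt_id v).const_mul (M0 + δ))
    refine monotoneOn_of_deriv_nonneg (convex_Iic u)
      (fun v _ => (hd v).continuousAt.continuousWithinAt)
      (fun v _ => (hd v).differentiableAt.differentiableWithinAt) fun v hv => ?_
    have hv1 : v ∈ Iic u := interior_subset hv
    have hv' := hN v hv1
    rw [(hd v).deriv]
    linarith
  set B := Φ u - (M0 + δ) * u with hB
  -- at `v` very negative
  set v := min u (-(B + Cb + 1) / δ) with hv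
  have hvu : v ≤ u := by rw [hv]; exact min_le_left _ _
  have h1 := hm hvu self_mem_Iic hvu
  simp only at h1
  have h2 := h.lo v
  have h3 : δ * v ≤ -(B + Cb + 1) := by
    have h4 : v ≤ -(B + Cb + 1) / δ := by rw [hv]; exact min_le_right _ _
    have h5 := mul_le_mul_of_nonneg_left h4 hδ0.le
    rw [mul_div_cancel₀ _ hδ0.ne'] at h5
    exact h5
  linarith

end

end Vale.Agent.P088.R2.H313.Ph

namespace Vale.Agent.P088.R2.H313.Tp

open Vale.Agent.P088.R2.H313.Ph Vale.Agent.P088.R2.H313.Mu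

/-- **All one-variable functions of the weight**, as families in `M₀`; the constants of `Φ` do not
depend on `Cs`, `del`. -/
theorem exists_all : ∃ Cm : ℕ → ℝ, (∀ j, 0 ≤ Cm j) ∧
    ∀ {ρ κ nm ν C1 C2 C3 al be f2 : ℝ}, 0 < ρ → ρ < 1 → 0 < κ → 0 < nm → 0 < ν →
      0 < C1 → 0 < C2 → 0 < C3 → κ ≤ ρ * nm → ν ≤ nm → C2 * ν ≤ ρ / 40 → 0 < al → al < 1 →
      1 < be → ρ + 1 / 20 ≤ f2 / 2 →
      ∃ (Ma Cb Ctop : ℝ) (Cd Ct : ℕ → ℝ) (Φ : ℝ → ℝ → ℝ) (Nt : ℝ → ℝ),
        1 ≤ Ma ∧ 0 < Cb ∧ 0 < Ctop ∧ (∀ j, 0 ≤ Cd j) ∧ (∀ j, 0 ≤ Ct j) ∧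
        ContinuousOn Nt (Ici Ma) ∧
        (∀ Mst, Ma ≤ Mst → ∃ ν₀ : ℝ, ∀ ν', ν₀ ≤ ν' → ∃ M0, Mst ≤ M0 ∧ Nt M0 = ν') ∧
        (∀ M0, Ma ≤ M0 → IsPhiU ρ κ nm ν C1 C2 C3 al be Cb Cd M0 (Φ M0) ∧
          M0 ≤ Nt M0 ∧ Nt M0 ≤ Cb * M0 ∧
          ∃ B : ℝ, ∀ u, 0 ≤ Nt M0 - deriv (Φ M0) u ∧
            Nt M0 - deriv (Φ M0) u ≤ B * Real.exp (-u)) ∧
        (∀ L, f2 ≤ L → ∃ CL : ℕ → ℝ, (∀ j, 0 ≤ CL j) ∧ ∀ M0, Ma ≤ M0 → ∃ U : ℝ, 4 ≤ U ∧
          ∀ t a b, U ≤ t → t + 1 ≤ a → a + 1 ≤ b →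
            ∃ Ψ : ℝ → ℝ, IsTop f2 L t a b Ctop Ct CL M0 (Φ M0) Ψ) ∧
        ∀ Cs del : ℝ, 1 ≤ Cs → 0 < del → ∃ (Ms c : ℝ) (μ : ℝ → ℝ → ℝ), Ma ≤ Ms ∧
          Real.exp 100 ≤ Ms ∧ 0 < c ∧ ∀ M0, Ms ≤ M0 →
            IsMu Cs del Cm M0 (μ M0) ∧ b0 del M0 ≤ 1 / 8 ∧ (∀ s, |μ M0 s| ≤ 1 / 8) ∧
            (∀ u, Real.exp u ≤ 8 * Real.exp 1 ^ 2 * Cs * deriv (Φ M0) u →
              c * Real.exp u ≤ deriv (deriv (Φ M0)) u) ∧
            (∀ u, 4 * deriv (Φ M0) u ^ (13 / 5 : ℝ) ≤ M0 ^ (261 / 100 : ℝ)) := by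
  obtain ⟨Cm, hCm, H⟩ := exists_mu
  refine ⟨Cm, hCm, ?_⟩
  intro ρ κ nm ν C1 C2 C3 al be f2 hρ hρ1 hκ hnm hν h1 h2 h3 hκn hνn hc hal hal1 hbe hf2
  obtain ⟨p, Ma, Cb, Cd, hpρ, hMa, hCb, hCd, hX, HΦ⟩ := exists_phiU_aux hρ hρ1 hκ hnm hν h1 h2 h3
    hκn hνn hc hal hal1 (by linarith : 0 < be)
  obtain ⟨Ctop, Ct, hCtop, hCt, HT⟩ := top_aux p (f2 := f2) (by rw [hpρ]; exact hf2)
  refine ⟨Ma, Cb, Ctop, Cd, Ct, fun M0 => p.PP M0, p.Nt, hMa, hCb, hCtop, hCd, hCt, ?_, ?_, ?_,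
    ?_, ?_⟩
  · exact p.Nt_cont hMa fun m hm => (HΦ m hm).1
  · intro Mst hst
    exact p.Nt_surj hMa (fun m hm => (HΦ m hm).1) hst
  · intro M0 a1
    obtain ⟨hm, hΦ⟩ := HΦ M0 a1
    have hMp : 0 < M0 := hm.pos
    have e1 : deriv (p.PP M0) = p.NN M0 := funext fun u => (p.PP_deriv M0 u).deriv
    refine ⟨hΦ, hm.le_Nt', ?_, ?_⟩
    · exact hm.Nt_le.trans (mul_le_mul_of_nonneg_right hX hMp.le)
    · obtain ⟨B, hB⟩ := hm.decay
      refine ⟨B, fun u => ?_⟩
      show 0 ≤ p.Nt M0 - deriv (p.PP M0) u ∧ p.Nt M0 - deriv (p.PP M0) u ≤ _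
      rw [e1]
      exact ⟨by linarith [hm.le_Nt u], hB u⟩
  · intro L hL
    obtain ⟨CL, hCL, H2⟩ := HT L hL
    exact ⟨CL, hCL, fun M0 hM0 => H2 M0 (HΦ M0 hM0).1⟩
  · intro Cs del hCs hdel
    obtain ⟨Mb, hMb, Hμ⟩ := H Cs del hCs hdel
    choose! μ hμ using Hμ
    obtain ⟨Mc, HMc⟩ := b0_small del (by norm_num : (0 : ℝ) < 1 / 8)
    obtain ⟨Me, c, hc0, HMe⟩ := low (Cd := Cd) (Cb := Cb) (nm := nm) (al := al) hρ hκ hν h1 h2 h3
      hbe (A := 8 * Real.exp 1 ^ 2 * Cs) (by positivity)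
    obtain ⟨Mf, HMf⟩ := four_le Cb
    refine ⟨max Ma (max Mb (max Mc (max Me (max Mf (Real.exp 100))))), c, μ, le_max_left _ _, ?_,
      hc0, fun M0 hM0 => ?_⟩
    · exact (le_max_right _ _).trans ((le_max_right _ _).trans ((le_max_right _ _).trans
        ((le_max_right _ _).trans (le_max_right _ _))))
    · simp only [max_le_iff] at hM0
      obtain ⟨a1, a2, a3, a4, a6, a5⟩ := hM0
      obtain ⟨hm, hΦ⟩ := HΦ M0 a1
      obtain ⟨b1, b2⟩ := HMc M0 a3
      have hMp : 0 < M0 := lt_of_lt_of_le (Real.exp_pos _) a5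
      refine ⟨hμ M0 a2, b1, fun s => ?_, fun u hu => HMe M0 a4 _ hΦ u hu,
        fun u => HMf M0 a6 _ (hMp.le.trans (hΦ.n1 u)) (hΦ.n2 u)⟩
      have h5 := (hμ M0 a2).bd s
      rw [abs_of_pos hdel] at b2
      have h6 : 0 ≤ del * Real.log M0 ^ (-(1 / 2) : ℝ) := by
        have := Real.rpow_nonneg (Real.log_nonneg hm.1) (-(1 / 2) : ℝ)
        positivity
      nlinarith

end Vale.Agent.P088.R2.H313.Tp
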