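import Vale.Agent.P088.R2.H551.B.Spec
import Vale.Agent.P088.H589.KEnA
import Vale.Agent.P088.H109.Hdy

/-!
# P088, row JB-EN: the energy estimate for quasimodes, pairs, general base
-/

open MeasureTheory Set Filter Topology
open scoped ContDiff Matrix

noncomputable section

namespace Vale.Agent.P088.R2.H313

open Vale.Agent.P088.LR Vale.Agent.P088.LR.B Vale.Agent.P088.LR.CF Vale.Agent.P088.LR.U
  Vale.Agent.P088.LR.H158 Vale.Agent.P088.LR.K Vale.Agent.P088.H292.UP Vale.Agent.P088.H589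

variable {n N : ℕ}

/-- Coercivity and Hardy's inequality for one pair near `(1, 0)`. -/
theorem coerH {n : ℕ} (N : ℕ) (ρ : V n → ℝ) (hn : 3 ≤ n) (hρ : Dom ρ) :
    ∃ a₀ κ M : ℝ, 0 < a₀ ∧ n * a₀ ≤ 1 / 2 ∧ 0 < κ ∧ 0 < M ∧ (∀ x ∈ Om ρ, ρ x ^ 2 ≤ M) ∧
    ∀ (t : MF n) (A : Cn n N), SmM t → SmU A → (∀ x ∈ Om ρ, ∀ i j, |t x i j - dl i j| ≤ a₀) →
    (∀ x ∈ Om ρ, ∀ i α β, ‖A i x α β‖ ≤ a₀) → ∀ w ψ : V n → Fin N → ℂ, ContDiff ℝ ∞ w →
    ContDiff ℝ ∞ ψ → (∀ x, w x = fun l => ((ρ x : ℝ) : ℂ) * ψ x l) →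
    (∫ x in Om ρ, H589.sq (fun i => cd A i w x)) + (∫ x in Om ρ, s2 (ψ x)) ≤
      κ * ‖ea (Om ρ) t A w w‖ := by
  obtain ⟨hO, hcore, hfr, -, -, -⟩ := Vale.Agent.P088.H873.topo ρ hρ
  have hb : Bornology.IsBounded (Om ρ) := bounded_core.subset hcore
  obtain ⟨H, hH0, hH1⟩ := Vale.Agent.P088.H109.Hdy.hdy ρ hn hρ
  obtain ⟨M₀, hM₀⟩ := hb.isCompact_closure.exists_bound_of_continuousOn
    (f := ρ) hρ.sm.continuous.continuousOn
  set M : ℝ := |M₀| + 1 with hMd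
  have hM0 : 0 < M := by positivity
  have hM' : ∀ x ∈ Om ρ, ρ x ^ 2 ≤ M ^ 2 := fun x hx => by
    have h1 := hM₀ x (subset_closure hx)
    rw [Real.norm_eq_abs] at h1
    rw [← sq_abs (ρ x)]
    refine pow_le_pow_left₀ (abs_nonneg _) ?_ 2
    have := le_abs_self M₀
    linarith
  have hn1 : (1 : ℝ) ≤ n := by exact_mod_cast (by omega : 1 ≤ n)
  set T : ℝ := 4 * H * (n * N ^ 2 * M ^ 2) with hT
  have hT0 : 0 ≤ T := by positivity
  set a₀ : ℝ := 1 / (2 * n * (1 + T)) with ha₀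
  have ha0 : 0 < a₀ := by positivity
  have hna : n * a₀ ≤ 1 / 2 := by
    rw [ha₀, mul_one_div, div_le_div_iff₀ (by positivity) (by norm_num)]
    nlinarith
  have ha1 : a₀ ≤ 1 := by nlinarith
  have hTa : T * a₀ ^ 2 ≤ 1 := by
    have h1 : T * a₀ ≤ 1 := by
      rw [ha₀, mul_one_div, div_le_one (by positivity)]
      nlinarith
    nlinarith
  refine ⟨a₀, (1 + 4 * H) * 2, M ^ 2, ha0, hna, by positivity, by positivity, hM', ?_⟩
  intro t A st sA ht1 hA2 w ψ sw sψ hwψ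
  have ht3 : ∀ x ∈ Om ρ, f2 (t x - 1) ≤ 1 / 4 := fun x hx => by
    have h1 : f2 (t x - 1) ≤ (n * a₀) ^ 2 := f2_bd fun i j => by
      rw [Matrix.sub_apply]
      exact ht1 x hx i j
    have h2 : (n * a₀) ^ 2 ≤ (1 / 2) ^ 2 := pow_le_pow_left₀ (by positivity) hna 2
    linarith
  have hm : ∀ x ∈ Om ρ, m2 (fun i => A i x) ≤ n * N ^ 2 * a₀ ^ 2 := fun x hx =>
    m2_bd fun i a b => hA2 x hx i a b
  have hws : ∀ x, s2 (w x) = ρ x ^ 2 * s2 (ψ x) := fun x => by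
    rw [hwψ x]
    unfold s2
    rw [Finset.mul_sum]
    refine Finset.sum_congr rfl fun l _ => ?_
    rw [norm_mul, mul_pow, Complex.norm_real, Real.norm_eq_abs, sq_abs]
  set IQ : ℝ := ∫ x in Om ρ, H589.sq (fun i => cd A i w x) with hIQ
  set Iψ : ℝ := ∫ x in Om ρ, s2 (ψ x) with hIψ
  have iQ := intR hb (cont_sq sA sw)
  have iψ := intR hb (cont_s2 sψ)
  have IQ0 : 0 ≤ IQ := integral_nonneg fun x => sq_nn _
  -- coercivity
  have k1 : IQ ≤ 2 * ‖ea (Om ρ) t A w w‖ := by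
    have c1 := qf_cont' st sA sw sw
    have h1 : (ea (Om ρ) t A w w).re =
        ∫ x in Om ρ, (qf (t x) (fun i => cd A i w x) (fun i => cd A i w x)).re := by
      rw [ea_eq]
      exact (integral_re (𝕜 := ℂ) (intOn hb c1)).symm
    have h2 : IQ ≤ 2 * (ea (Om ρ) t A w w).re := by
      rw [h1, ← integral_const_mul]
      refine setIntegral_mono_on iQ (intR hb ((Complex.continuous_re.comp c1).const_mul 2))
        hO.measurableSet fun x hx => coer (ht3 x hx) _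
    exact h2.trans (mul_le_mul_of_nonneg_left (Complex.re_le_norm _) (by norm_num))
  -- Hardy
  have k2 : Iψ ≤ 4 * H * IQ := by
    have h1 : Iψ = ∑ l, ∫ x in Om ρ, ‖ψ x l‖ ^ 2 := by
      rw [hIψ]
      unfold s2
      exact integral_finsetSum _ fun l _ =>
        intR hb (((continuous_pi_iff.1 sψ.continuous) l).norm.pow 2)
    have cg : ∀ l, Continuous fun x => ∑ i, ‖pd i (fun y => w y l) x‖ ^ 2 := fun l =>
      continuous_finsetSum _ fun i _ =>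
        (H158.contDiff_pd (contDiff_pi.1 sw l) i).continuous.norm.pow 2
    have h2 : ∀ l, ∫ x in Om ρ, ‖ψ x l‖ ^ 2 ≤
        H * ∫ x in Om ρ, ∑ i, ‖pd i (fun y => w y l) x‖ ^ 2 := fun l => by
      have h3 := hH1 (fun x => ψ x l) (contDiff_pi.1 sψ l)
      have h4 : (fun y => ((ρ y : ℝ) : ℂ) * ψ y l) = fun y => w y l := by
        funext y
        rw [hwψ y]
      rw [h4] at h3
      exact h3
    have h3 : Iψ ≤ H * ∫ x in Om ρ, ∑ l, ∑ i, ‖pd i (fun y => w y l) x‖ ^ 2 := by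
      rw [h1, integral_finsetSum _ fun l _ => intR hb (cg l), Finset.mul_sum]
      exact Finset.sum_le_sum fun l _ => h2 l
    have h4 : ∫ x in Om ρ, ∑ l, ∑ i, ‖pd i (fun y => w y l) x‖ ^ 2 ≤
        2 * IQ + 2 * (n * N ^ 2 * M ^ 2 * a₀ ^ 2) * Iψ := by
      rw [hIQ, hIψ, ← integral_const_mul, ← integral_const_mul,
        ← integral_add (iQ.const_mul 2) (iψ.const_mul _)]
      refine setIntegral_mono_on (intR hb (continuous_finsetSum _ fun l _ => cg l))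
        ((iQ.const_mul 2).add (iψ.const_mul _)) hO.measurableSet fun x hx => ?_
      refine (grad_le (A := A) sw x).trans ?_
      have h5 : m2 (fun i => A i x) * s2 (w x) ≤ n * N ^ 2 * M ^ 2 * a₀ ^ 2 * s2 (ψ x) := by
        rw [hws x]
        have h6 := s2_nonneg (ψ x)
        calc m2 (fun i => A i x) * (ρ x ^ 2 * s2 (ψ x))
            ≤ (n * N ^ 2 * a₀ ^ 2) * (M ^ 2 * s2 (ψ x)) :=
              mul_le_mul (hm x hx) (mul_le_mul_of_nonneg_right (hM' x hx) h6)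
                (by positivity) (by positivity)
          _ = _ := by ring
      show _ ≤ 2 * H589.sq (fun i => cd A i w x) + 2 * (n * N ^ 2 * M ^ 2 * a₀ ^ 2) * s2 (ψ x)
      linarith
    have Iψ0 : 0 ≤ Iψ := integral_nonneg fun x => s2_nonneg _
    have h5 : H * (2 * (n * N ^ 2 * M ^ 2 * a₀ ^ 2) * Iψ) = T * a₀ ^ 2 / 2 * Iψ := by
      rw [hT]; ring
    have h6 : Iψ ≤ 2 * H * IQ + T * a₀ ^ 2 / 2 * Iψ := by
      rw [← h5]
      refine h3.trans ((mul_le_mul_of_nonneg_left h4 hH0.le).trans (le_of_eq ?_))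
      ring
    nlinarith
  have : IQ + Iψ ≤ (1 + 4 * H) * IQ := by linarith
  refine this.trans ?_
  rw [mul_assoc]
  exact mul_le_mul_of_nonneg_left k1 (by positivity)

/-- The right hand side of the equation against a test section `w = ρ ψ`. -/
theorem rhs_le {n N : ℕ} {ρ : V n → ℝ} (hO : IsOpen (Om ρ)) (hb : Bornology.IsBounded (Om ρ))
    {M : ℝ} (hM : 0 < M) (hM' : ∀ x ∈ Om ρ, ρ x ^ 2 ≤ M) {f w ψ : V n → Fin N → ℂ}
    (sf : ContDiff ℝ ∞ f) (sw : ContDiff ℝ ∞ w) (sψ : ContDiff ℝ ∞ ψ)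
    (hws : ∀ x, s2 (w x) = ρ x ^ 2 * s2 (ψ x)) {δ : ℝ} (hδ : 0 < δ) :
    ‖∫ x in Om ρ, f x ⬝ᵥ star (w x)‖ ≤ δ * (∫ x in Om ρ, s2 (ψ x)) +
      M / (4 * δ) * ∫ x in Om ρ, s2 (f x) := by
  have cf : Continuous fun x => f x ⬝ᵥ star (w x) := by
    unfold dotProduct
    refine continuous_finsetSum _ fun b _ => ?_
    exact ((continuous_pi_iff.1 sf.continuous) b).mul
      (continuous_star.comp ((continuous_pi_iff.1 sw.continuous) b))
  have iψ := intR hb (cont_s2 sψ)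
  have iF := intR hb (cont_s2 sf)
  refine (norm_integral_le_integral_norm _).trans ?_
  rw [← integral_const_mul, ← integral_const_mul, ← integral_add (iψ.const_mul _) (iF.const_mul _)]
  refine setIntegral_mono_on (intR hb cf.norm) ((iψ.const_mul _).add (iF.const_mul _))
    hO.measurableSet fun x hx => ?_
  have h1 := dot_le (f x) (w x)
  have nψ := s2_nonneg (ψ x)
  have nf := s2_nonneg (f x)
  have h2 : ‖f x ⬝ᵥ star (w x)‖ ^ 2 ≤ (M * s2 (f x)) * s2 (ψ x) := by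
    refine h1.trans ?_
    rw [hws x]
    have := mul_le_mul_of_nonneg_right (hM' x hx) nψ
    calc s2 (f x) * (ρ x ^ 2 * s2 (ψ x)) ≤ s2 (f x) * (M * s2 (ψ x)) :=
          mul_le_mul_of_nonneg_left this nf
      _ = _ := by ring
  have h3 := young (δ := 2 * δ) (norm_nonneg _) (by positivity) nψ (by positivity) h2
  calc ‖f x ⬝ᵥ star (w x)‖ ≤ 2 * δ / 2 * s2 (ψ x) + 1 / (2 * (2 * δ)) * (M * s2 (f x)) := h3
    _ = _ := by
      field_simp
      ring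

theorem rowEN : PJ.Bd.RowEN := by
  intro n N ρ hn hρ
  obtain ⟨hO, hcore, hfr, -, -, -⟩ := Vale.Agent.P088.H873.topo ρ hρ
  have hb : Bornology.IsBounded (Om ρ) := bounded_core.subset hcore
  obtain ⟨a₀, κ, M, ha0, hna, hκ, hM0, hM', hK⟩ := coerH N ρ hn hρ
  have hn1 : (1 : ℝ) ≤ n := by exact_mod_cast (by omega : 1 ≤ n)
  have ha1 : a₀ ≤ 1 := by nlinarith
  set δ : ℝ := 1 / (4 * κ) with hδ'
  have hδ : 0 < δ := by positivity
  refine ⟨a₀, 2 * (2 * n ^ 2 / δ) + 2 * (M / (4 * δ)) + 2 * (M / (4 * δ)), ha0, by positivity, ?_⟩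
  intro s t A₁ A ss st sss tss sA₁ sA hs1 ht1 hA1 hA2 hdat u su
  -- the solutions
  obtain ⟨u₀, su₀, hu₀u, hu₀⟩ := hdat.2 u su
  obtain ⟨v, sv, hvu₀, hv, hE⟩ := hdat.1.2 u₀ su₀ hu₀
  set w : V n → Fin N → ℂ := fun x => u x - v x with hw
  set φ : V n → Fin N → ℂ := fun x => u x - u₀ x with hφ
  have sw : ContDiff ℝ ∞ w := su.sub sv
  have sφ : ContDiff ℝ ∞ φ := su.sub su₀
  have w0 : ∀ x ∈ frontier (Om ρ), w x = 0 := fun x hx => by
    show u x - v x = 0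
    rw [hvu₀ x hx, hu₀u x hx, sub_self]
  have φ0 : ∀ x ∈ frontier (Om ρ), φ x = 0 := fun x hx => by
    show u x - u₀ x = 0
    rw [hu₀u x hx, sub_self]
  obtain ⟨ψ, sψ, hψ⟩ := hadV hρ sw fun x hx => w0 x (by rw [hfr]; exact hx)
  obtain ⟨θ, sθ, hθ⟩ := hadV hρ sφ fun x hx => φ0 x (by rw [hfr]; exact hx)
  have hws : ∀ {w ψ : V n → Fin N → ℂ}, (∀ x, w x = fun l => ((ρ x : ℝ) : ℂ) * ψ x l) →
      ∀ x, s2 (w x) = ρ x ^ 2 * s2 (ψ x) := fun {w ψ} hwψ x => by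
    rw [hwψ x]
    unfold s2
    rw [Finset.mul_sum]
    refine Finset.sum_congr rfl fun l _ => ?_
    rw [norm_mul, mul_pow, Complex.norm_real, Real.norm_eq_abs, sq_abs]
  -- the identities
  have e1 : ea (Om ρ) t A u u - ea (Om ρ) t A v v = ea (Om ρ) t A w w := by
    have a1 : ea (Om ρ) t A w w = ea (Om ρ) t A w u - ea (Om ρ) t A w v :=
      ea_sub_right hb st sA sw su sv
    have a2 : ea (Om ρ) t A w v = 0 := wk2 hO hb st tss sA sv sw hv w0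
    have a3 : ea (Om ρ) t A w u = ea (Om ρ) t A u u - ea (Om ρ) t A v u :=
      ea_sub_left hb st sA su sv su
    have a4 : ea (Om ρ) t A v w = ea (Om ρ) t A v u - ea (Om ρ) t A v v :=
      ea_sub_right hb st sA sv su sv
    have a5 : ea (Om ρ) t A v w = 0 := wk1 hO hb st tss sA sv sw hv w0
    rw [a5] at a4
    rw [a1, a2, a3]
    linear_combination (-1 : ℂ) * a4
  have e1' : ea (Om ρ) s A₁ u u - ea (Om ρ) s A₁ u₀ u₀ = ea (Om ρ) s A₁ φ φ := by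
    have a1 : ea (Om ρ) s A₁ φ φ = ea (Om ρ) s A₁ φ u - ea (Om ρ) s A₁ φ u₀ :=
      ea_sub_right hb ss sA₁ sφ su su₀
    have a2 : ea (Om ρ) s A₁ φ u₀ = 0 := wk2 hO hb ss sss sA₁ su₀ sφ hu₀ φ0
    have a3 : ea (Om ρ) s A₁ φ u = ea (Om ρ) s A₁ u u - ea (Om ρ) s A₁ u₀ u :=
      ea_sub_left hb ss sA₁ su su₀ su
    have a4 : ea (Om ρ) s A₁ u₀ φ = ea (Om ρ) s A₁ u₀ u - ea (Om ρ) s A₁ u₀ u₀ :=
      ea_sub_right hb ss sA₁ su₀ su su₀
    have a5 : ea (Om ρ) s A₁ u₀ φ = 0 := wk1 hO hb ss sss sA₁ su₀ sφ hu₀ φ0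
    rw [a5] at a4
    rw [a1, a2, a3]
    linear_combination (-1 : ℂ) * a4
  have e2 : ea (Om ρ) t A w w = (ea (Om ρ) t A u w - ea (Om ρ) s A₁ u w) -
      ∫ x in Om ρ, lav s A₁ u x ⬝ᵥ star (w x) := by
    have a1 : ea (Om ρ) t A w w = ea (Om ρ) t A u w - ea (Om ρ) t A v w :=
      ea_sub_left hb st sA su sv sw
    have a2 : ea (Om ρ) t A v w = 0 := wk1 hO hb st tss sA sv sw hv w0
    have a3 : ea (Om ρ) s A₁ u w = -∫ x in Om ρ, lav s A₁ u x ⬝ᵥ star (w x) :=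
      ea_LA hb ss sA₁ hO sss su sw w0
    rw [a1, a2, a3]
    ring
  have e2' : ea (Om ρ) s A₁ φ φ = -∫ x in Om ρ, lav s A₁ u x ⬝ᵥ star (φ x) := by
    have a1 : ea (Om ρ) s A₁ φ φ = ea (Om ρ) s A₁ u φ - ea (Om ρ) s A₁ u₀ φ :=
      ea_sub_left hb ss sA₁ su su₀ sφ
    have a2 : ea (Om ρ) s A₁ u₀ φ = 0 := wk1 hO hb ss sss sA₁ su₀ sφ hu₀ φ0
    have a3 : ea (Om ρ) s A₁ u φ = -∫ x in Om ρ, lav s A₁ u x ⬝ᵥ star (φ x) :=
      ea_LA hb ss sA₁ hO sss su sφ φ0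
    rw [a1, a2, a3]
    ring
  -- integrals
  set R : V n → ℝ := fun x =>
    ((∑ i, ∑ j, |t x i j - s x i j| ^ 2) * ∑ j, ∑ l, ‖cd A₁ j u x l‖ ^ 2 +
      (∑ i, ∑ α, ∑ β, ‖A i x α β - A₁ i x α β‖ ^ 2) *
        ((∑ l, ‖u x l‖ ^ 2) + ρ x ^ 2 * ∑ j, ∑ l, ‖cd A₁ j u x l‖ ^ 2)) with hR
  have cR : Continuous R := by
    have c1 : Continuous fun x => ∑ i, ∑ j, |t x i j - s x i j| ^ 2 :=
      continuous_finsetSum _ fun i _ => continuous_finsetSum _ fun j _ =>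
        (((st i j).continuous.sub (ss i j).continuous).abs).pow 2
    have c2 : Continuous fun x => ∑ i, ∑ α, ∑ β, ‖A i x α β - A₁ i x α β‖ ^ 2 :=
      continuous_finsetSum _ fun i _ => continuous_finsetSum _ fun α _ =>
        continuous_finsetSum _ fun β _ =>
          (((sA.1 i α β).continuous.sub (sA₁.1 i α β).continuous).norm).pow 2
    exact (c1.mul (cont_sq sA₁ su)).add (c2.mul ((cont_s2 su).add
      ((hρ.sm.continuous.pow 2).mul (cont_sq sA₁ su))))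
  have hbd : ∀ {t : MF n}, (∀ x ∈ Om ρ, ∀ i j, |t x i j - dl i j| ≤ a₀) →
      ∀ x ∈ Om ρ, f2 (t x) ≤ (n * 2) ^ 2 := fun {t} ht1 x hx => f2_bd fun i j => by
    have h1 := ht1 x hx i j
    have h2 : |dl i j| ≤ 1 := by
      unfold dl
      rw [Matrix.one_apply]
      split_ifs <;> simp
    have := abs_sub_abs_le_abs_sub (t x i j) (dl i j)
    linarith
  have sL : ContDiff ℝ ∞ (lav s A₁ u) := contDiff_lav hO hb ss sss sA₁ su
  set IQ : ℝ := ∫ x in Om ρ, H589.sq (fun i => cd A i w x) with hIQ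
  set Iψ : ℝ := ∫ x in Om ρ, s2 (ψ x) with hIψ
  set Jθ : ℝ := ∫ x in Om ρ, s2 (θ x) with hJθ
  set JQ : ℝ := ∫ x in Om ρ, H589.sq (fun i => cd A₁ i φ x) with hJQ
  set IR : ℝ := ∫ x in Om ρ, R x with hIR
  set IL : ℝ := ∫ x in Om ρ, ∑ l, ‖lav s A₁ u x l‖ ^ 2 with hIL
  have hIL' : IL = ∫ x in Om ρ, s2 (lav s A₁ u x) := rfl
  have iQ := intR hb (cont_sq sA sw)
  have iψ := intR hb (cont_s2 sψ)
  have iR := intR hb cR
  have iQψ : IntegrableOn (fun x => H589.sq (fun i => cd A i w x) + s2 (ψ x)) (Om ρ) :=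
    intR hb ((cont_sq sA sw).add (cont_s2 sψ))
  have IQ0 : 0 ≤ IQ := integral_nonneg fun x => sq_nn _
  have JQ0 : 0 ≤ JQ := integral_nonneg fun x => sq_nn _
  have Iψ0 : 0 ≤ Iψ := integral_nonneg fun x => s2_nonneg _
  have Jθ0 : 0 ≤ Jθ := integral_nonneg fun x => s2_nonneg _
  have IL0 : 0 ≤ IL := by rw [hIL']; exact integral_nonneg fun x => s2_nonneg _
  have IR0 : 0 ≤ IR := integral_nonneg fun x => by
    show 0 ≤ R x
    rw [hR]
    positivity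
  have k1 : IQ + Iψ ≤ κ * ‖ea (Om ρ) t A w w‖ := hK t A st sA ht1 hA2 w ψ sw sψ hψ
  have k1' : JQ + Jθ ≤ κ * ‖ea (Om ρ) s A₁ φ φ‖ := hK s A₁ ss sA₁ hs1 hA1 φ θ sφ sθ hθ
  -- first estimate
  have c1 := qf_cont' st sA su sw
  have c2 := qf_cont' ss sA₁ su sw
  have k3 : ‖ea (Om ρ) t A u w - ea (Om ρ) s A₁ u w‖ ≤ δ * (IQ + Iψ) + 2 * n ^ 2 / δ * IR := by
    have h1 : ea (Om ρ) t A u w - ea (Om ρ) s A₁ u w = ∫ x in Om ρ,
        (qf (t x) (fun i => cd A i u x) (fun i => cd A i w x) -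
          qf (s x) (fun i => cd A₁ i u x) (fun i => cd A₁ i w x)) := by
      rw [ea_eq, ea_eq, ← integral_sub (intOn hb c1) (intOn hb c2)]
    rw [h1]
    refine (norm_integral_le_integral_norm _).trans ?_
    have h2 : δ * (IQ + Iψ) + 2 * n ^ 2 / δ * IR = ∫ x in Om ρ,
        (δ * (H589.sq (fun i => cd A i w x) + s2 (ψ x)) + 2 * n ^ 2 / δ * R x) := by
      rw [integral_add (iQψ.const_mul δ) (iR.const_mul _), integral_const_mul,
        integral_const_mul, integral_add iQ iψ]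
    rw [h2]
    refine setIntegral_mono_on (intR hb (c1.sub c2).norm)
      ((iQψ.const_mul δ).add (iR.const_mul _)) hO.measurableSet fun x hx => ?_
    have h3 := ptw (by omega : 1 ≤ n) hδ (hbd ht1 x hx) (hbd hs1 x hx) (fun i => cd A₁ i u x)
      (fun i => cd A i w x) (fun i => A i x - A₁ i x) (u x) (w x) (ψ x) (hws hψ x).le
    have h4 : (fun i => cd A₁ i u x + (A i x - A₁ i x) *ᵥ u x) = fun i => cd A i u x := by
      funext i
      rw [← cd_diff]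
    have h5 : (fun j => cd A j w x - (A j x - A₁ j x) *ᵥ w x) = fun j => cd A₁ j w x := by
      funext j
      rw [cd_diff A A₁]
      abel
    rw [h4, h5] at h3
    exact h3
  have k4 := rhs_le hO hb hM0 hM' sL sw sψ (hws hψ) hδ
  have k4' := rhs_le hO hb hM0 hM' sL sφ sθ (hws hθ) hδ
  rw [← hIL'] at k4 k4'
  have k5 : ‖ea (Om ρ) t A w w‖ ≤ 2 * (2 * n ^ 2 / δ) * IR + 2 * (M / (4 * δ)) * IL := by
    have h1 : ‖ea (Om ρ) t A w w‖ ≤ ‖ea (Om ρ) t A u w - ea (Om ρ) s A₁ u w‖ +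
        ‖∫ x in Om ρ, lav s A₁ u x ⬝ᵥ star (w x)‖ := by
      conv_lhs => rw [e2]
      exact norm_sub_le _ _
    have h2 : δ * (IQ + Iψ) + δ * Iψ ≤ 1 / 2 * ‖ea (Om ρ) t A w w‖ := by
      have h3 : δ * (IQ + Iψ) + δ * Iψ ≤ 2 * δ * (κ * ‖ea (Om ρ) t A w w‖) := by nlinarith
      refine h3.trans (le_of_eq ?_)
      rw [hδ']
      field_simp
      ring
    linarith
  have k5' : ‖ea (Om ρ) s A₁ φ φ‖ ≤ 2 * (M / (4 * δ)) * IL := by
    have h1 : ‖ea (Om ρ) s A₁ φ φ‖ = ‖∫ x in Om ρ, lav s A₁ u x ⬝ᵥ star (φ x)‖ := by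
      conv_lhs => rw [e2']
      exact norm_neg _
    have h2 : δ * Jθ ≤ 1 / 2 * ‖ea (Om ρ) s A₁ φ φ‖ := by
      have h3 : δ * Jθ ≤ 2 * δ * (κ * ‖ea (Om ρ) s A₁ φ φ‖) := by nlinarith
      refine h3.trans (le_of_eq ?_)
      rw [hδ']
      field_simp
      ring
    linarith
  have e3 : ea (Om ρ) t A u u - ea (Om ρ) s A₁ u u =
      ea (Om ρ) t A w w - ea (Om ρ) s A₁ φ φ := by
    rw [← e1, ← e1', ← hE]
    ring
  rw [e3]
  refine (norm_sub_le _ _).trans ?_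
  show _ ≤ (2 * (2 * n ^ 2 / δ) + 2 * (M / (4 * δ)) + 2 * (M / (4 * δ))) * (IR + IL)
  have p1 : 0 ≤ (2 * (M / (4 * δ)) + 2 * (M / (4 * δ))) * IR := by positivity
  have p2 : 0 ≤ 2 * (2 * n ^ 2 / δ) * IL := by positivity
  nlinarith

end Vale.Agent.P088.R2.H313
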