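import Vale.Agent.P088.R2.H313.PhiA

/-!
# P088, stage 3, row MU: the correction of the level (part A, the normalised derivative)

`T a s = st (s - s₀) (1 - (s / s₀) ^ (-3/2))`, smooth, monotone, values in `[0, 1)`, zero for
`s ≤ s₀`; all its derivatives are bounded uniformly in `s₀ ≥ 4`.
-/

open Set Filter Topology MeasureTheory
open scoped ContDiff

noncomputable section

namespace Vale.Agent.P088.R2.H313.Mu

open Vale.Agent.P088.R2.H313.Ph

/-- `y = s` for `s ≥ 1`, `y ≥ 1/2`. -/
def yy (s : ℝ) : ℝ := st (2 * s - 1) * (s - 1 / 2) + 1 / 2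

theorem yy_smooth : ContDiff ℝ ∞ yy :=
  ((st_smooth.comp ((contDiff_const.mul contDiff_id).sub contDiff_const)).mul
    (contDiff_id.sub contDiff_const)).add contDiff_const

theorem yy_ge (s : ℝ) : 1 / 2 ≤ yy s := by
  rcases le_or_gt s (1 / 2) with h | h
  · rw [yy, st_zero (by linarith)]
    simp
  · have := mul_nonneg (st_nonneg (2 * s - 1)) (sub_nonneg.2 h.le)
    rw [yy]
    linarith

theorem yy_pos (s : ℝ) : 0 < yy s := lt_of_lt_of_le (by norm_num) (yy_ge s)

theorem yy_eq {s : ℝ} (h : 1 ≤ s) : yy s = s := by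
  rw [yy, st_one (by linarith)]
  ring

theorem yy_left {s : ℝ} (h : s ≤ 1 / 2) : yy s = 1 / 2 := by
  rw [yy, st_zero (by linarith)]
  ring

/-- `F = s ^ (-3/2)` for `s ≥ 1`. -/
def FF (s : ℝ) : ℝ := yy s ^ (-(3 / 2) : ℝ)

theorem FF_smooth : ContDiff ℝ ∞ FF :=
  yy_smooth.rpow_const_of_ne fun s => (yy_pos s).ne'

theorem FF_pos (s : ℝ) : 0 < FF s := Real.rpow_pos_of_pos (yy_pos s) _

theorem FF_eq {s : ℝ} (h : 1 ≤ s) : FF s = s ^ (-(3 / 2) : ℝ) := by rw [FF, yy_eq h]

/-- The iterated derivatives of a power. -/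
theorem iter_rpow (r x : ℝ) (k : ℕ) :
    iteratedDeriv k (fun x : ℝ => x ^ r) x = (descPochhammer ℝ k).eval r * x ^ (r - k) := by
  rw [iteratedDeriv_eq_iterate]
  exact Real.iter_deriv_rpow_const r x k

theorem iteratedDeriv_congr_at {f g : ℝ → ℝ} {x : ℝ} (h : f =ᶠ[𝓝 x] g) (k : ℕ) :
    iteratedDeriv k f x = iteratedDeriv k g x := (h.iteratedDeriv_eq k)

theorem FF_iter {s : ℝ} (h : 1 < s) (k : ℕ) :
    iteratedDeriv k FF s = (descPochhammer ℝ k).eval (-(3 / 2) : ℝ) * s ^ (-(3 / 2) - k : ℝ) := by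
  rw [← iter_rpow]
  refine iteratedDeriv_congr_at ?_ k
  filter_upwards [lt_mem_nhds h] with t ht
  exact FF_eq ht.le

theorem FF_bd : Bd (fun _ : Unit => FF) fun _ => FF := by
  refine bd_self' FF_smooth (p := 1 / 2) (q := 1) FF_pos (fun k => ?_) fun k => ?_
  · rcases k with _ | k
    · exact ⟨1, fun s _ => by
        rw [iteratedDeriv_zero, abs_of_pos (FF_pos s), one_mul]⟩
    · refine ⟨0, fun s hs => ?_⟩
      have h1 : FF =ᶠ[𝓝 s] fun _ => (1 / 2 : ℝ) ^ (-(3 / 2) : ℝ) := by
        filter_upwards [gt_mem_nhds hs] with t ht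
        rw [FF, yy_left ht.le]
      rw [iteratedDeriv_congr_at h1, iteratedDeriv_const]
      simp
  · refine ⟨|(descPochhammer ℝ k).eval (-(3 / 2) : ℝ)|, fun s hs => ?_⟩
    rw [FF_iter hs, abs_mul, FF_eq hs.le]
    refine mul_le_mul_of_nonneg_left ?_ (abs_nonneg _)
    rw [abs_of_pos (Real.rpow_pos_of_pos (by linarith) _)]
    exact Real.rpow_le_rpow_of_exponent_le hs.le (by
      have : (0 : ℝ) ≤ k := Nat.cast_nonneg k
      linarith)

/-- The index set: `a = (s_w, s₀)`. -/
structure Ix where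
  w : ℝ
  z : ℝ
  h1 : w + 1 ≤ z
  h2 : 4 ≤ z

/-- `s₀ ^ (3/2) * F s * st (s - s₀)`. -/
def G0 (a : Ix) (s : ℝ) : ℝ := a.z ^ (3 / 2 : ℝ) * FF s * st (s - a.z)

theorem G0_zero {a : Ix} {s : ℝ} (h : s ≤ a.z) : G0 a s = 0 := by
  rw [G0, st_zero (by linarith), mul_zero]

theorem G0_bd : Bd (fun (_ : Ix) (_ : ℝ) => (1 : ℝ)) G0 := by
  have b1 : Bd (fun (a : Ix) (s : ℝ) => a.z ^ (3 / 2 : ℝ) * FF s)
      fun a s => a.z ^ (3 / 2 : ℝ) * FF s := by
    refine ⟨fun a => contDiff_const.mul FF_smooth, fun k => ?_⟩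
    obtain ⟨C, hC, h⟩ := FF_bd.2 k
    refine ⟨C, hC, fun a s => ?_⟩
    have hz : 0 < a.z ^ (3 / 2 : ℝ) := Real.rpow_pos_of_pos (by linarith [a.h2]) _
    rw [iteratedDeriv_const_mul_field, abs_mul, abs_of_pos hz]
    calc a.z ^ (3 / 2 : ℝ) * |iteratedDeriv k FF s| ≤ a.z ^ (3 / 2 : ℝ) * (C * FF s) :=
          mul_le_mul_of_nonneg_left (h () s) hz.le
      _ = C * (a.z ^ (3 / 2 : ℝ) * FF s) := by ring
  have b2 : Bd (fun (_ : Ix) (_ : ℝ) => (1 : ℝ)) fun a s => st (s - a.z) :=
    st_bd.shift fun a : Ix => a.z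
  have b3 := b1.mul b2
  refine ⟨b3.1, fun k => ?_⟩
  obtain ⟨C, hC, h⟩ := b3.2 k
  refine ⟨C, hC, fun a s => ?_⟩
  have hsm : Continuous (iteratedDeriv k (G0 a)) :=
    (b3.1 a).continuous_iteratedDeriv k (by exact_mod_cast le_top)
  rcases lt_or_ge s a.z with hs | hs
  · have h1 : G0 a =ᶠ[𝓝 s] fun _ => (0 : ℝ) := by
      filter_upwards [gt_mem_nhds hs] with t ht
      exact G0_zero ht.le
    rw [iteratedDeriv_congr_at h1, iteratedDeriv_const]
    simp [hC]
  · refine (h a s).trans (mul_le_mul_of_nonneg_left ?_ hC)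
    have hz : 0 < a.z := by linarith [a.h2]
    show a.z ^ (3 / 2 : ℝ) * FF s ≤ 1
    rw [FF_eq (by linarith [a.h2]), Real.rpow_neg (by linarith), ← div_eq_mul_inv,
      div_le_one (Real.rpow_pos_of_pos (by linarith) _)]
    exact Real.rpow_le_rpow hz.le hs (by norm_num)

/-- `T`. -/
def TT (a : Ix) (s : ℝ) : ℝ := st (s - a.z) - G0 a s

theorem TT_eq (a : Ix) (s : ℝ) : TT a s = st (s - a.z) * (1 - a.z ^ (3 / 2 : ℝ) * FF s) := by
  rw [TT, G0]
  ring

theorem TT_bd : Bd (fun (_ : Ix) (_ : ℝ) => (1 : ℝ)) TT := by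
  have b2 : Bd (fun (_ : Ix) (_ : ℝ) => (1 : ℝ)) fun a s => st (s - a.z) :=
    st_bd.shift fun a : Ix => a.z
  have b3 : Bd (fun (_ : Ix) (_ : ℝ) => (1 : ℝ)) fun a s => G0 a s * (-1) :=
    G0_bd.mul (Bd.const (c := fun _ => (-1 : ℝ)) (C := 1) fun _ => by simp)
  have b4 := b2.add b3
  have e : TT = fun a s => st (s - a.z) + G0 a s * (-1) := by
    funext a s
    rw [TT]
    ring
  rw [e]
  exact b4

theorem TT_zero {a : Ix} {s : ℝ} (h : s ≤ a.z) : TT a s = 0 := by
  rw [TT, G0_zero h, st_zero (by linarith), sub_zero]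

theorem zF_le {a : Ix} {s : ℝ} (h : a.z ≤ s) : a.z ^ (3 / 2 : ℝ) * FF s ≤ 1 := by
  have hz : 0 < a.z := by linarith [a.h2]
  rw [FF_eq (by linarith [a.h2]), Real.rpow_neg (by linarith), ← div_eq_mul_inv,
    div_le_one (Real.rpow_pos_of_pos (by linarith) _)]
  exact Real.rpow_le_rpow hz.le h (by norm_num)

theorem TT_nonneg (a : Ix) (s : ℝ) : 0 ≤ TT a s := by
  rcases le_total s a.z with h | h
  · rw [TT_zero h]
  · rw [TT_eq]
    exact mul_nonneg (st_nonneg _) (sub_nonneg.2 (zF_le h))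

theorem TT_le (a : Ix) (s : ℝ) : TT a s ≤ 1 := by
  rw [TT_eq]
  have hz : 0 < a.z := by linarith [a.h2]
  have h1 : 0 < a.z ^ (3 / 2 : ℝ) * FF s := mul_pos (Real.rpow_pos_of_pos hz _) (FF_pos s)
  calc st (s - a.z) * (1 - a.z ^ (3 / 2 : ℝ) * FF s) ≤ st (s - a.z) * 1 :=
        mul_le_mul_of_nonneg_left (by linarith) (st_nonneg _)
    _ ≤ 1 := by rw [mul_one]; exact st_le_one _

theorem TT_mono (a : Ix) : Monotone (TT a) := by
  intro s t hst
  rcases le_total s a.z with h | h
  · rw [TT_zero h]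
    exact TT_nonneg a t
  · have ht : a.z ≤ t := h.trans hst
    have hz : 0 < a.z := by linarith [a.h2]
    rw [TT_eq, TT_eq]
    refine mul_le_mul (Real.smoothTransition.monotone (by linarith)) ?_
      (sub_nonneg.2 (zF_le h)) (st_nonneg _)
    have : FF t ≤ FF s := by
      rw [FF_eq (by linarith [a.h2]), FF_eq (by linarith [a.h2])]
      exact Real.rpow_le_rpow_of_nonpos (by linarith) hst (by norm_num)
    have := mul_le_mul_of_nonneg_left this (Real.rpow_pos_of_pos hz (3 / 2 : ℝ)).le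
    linarith

theorem TT_smooth (a : Ix) : ContDiff ℝ ∞ (TT a) := TT_bd.1 a

theorem TT_right {a : Ix} {s : ℝ} (h : a.z + 1 ≤ s) :
    TT a s = 1 - a.z ^ (3 / 2 : ℝ) * s ^ (-(3 / 2) : ℝ) := by
  rw [TT_eq, st_one (by linarith), one_mul, FF_eq (by linarith [a.h2])]

/-- A nonnegative function with bounded second derivative: `f' ² ≤ 2 M f`. -/
theorem sq_deriv_le {f : ℝ → ℝ} (hf : ContDiff ℝ 2 f) (h0 : ∀ x, 0 ≤ f x) {M : ℝ} (hM : 0 ≤ M)
    (h2 : ∀ x, deriv (deriv f) x ≤ M) (x : ℝ) : deriv f x ^ 2 ≤ 2 * M * f x := by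
  have hd : Differentiable ℝ f := hf.differentiable (by norm_num)
  have hd1 : ContDiff ℝ 1 (deriv f) := by
    have := (contDiff_succ_iff_deriv (n := 1) (f := f)).1 (by norm_num; exact hf)
    exact this.2.2
  have hd2 : Differentiable ℝ (deriv f) := hd1.differentiable (by norm_num)
  -- the function `G`
  have key : ∀ h : ℝ, f (x + h) ≤ f x + deriv f x * h + M / 2 * h ^ 2 := by
    let g : ℝ → ℝ := fun h => f x + deriv f x * h + M / 2 * h ^ 2 - f (x + h)
    have hg : ∀ h, HasDerivAt g (deriv f x + M * h - deriv f (x + h)) h := by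
      intro h
      have a1 : HasDerivAt (fun h : ℝ => f (x + h)) (deriv f (x + h)) h := by
        simpa using (hd (x + h)).hasDerivAt.comp_const_add x h
      have a2 : HasDerivAt (fun h : ℝ => f x + deriv f x * h + M / 2 * h ^ 2)
          (deriv f x + M * h) h := by
        have b1 : HasDerivAt (fun h : ℝ => f x + deriv f x * h) (deriv f x) h := by
          simpa using ((hasDerivAt_id h).const_mul (deriv f x)).const_add (f x)
        have b2 : HasDerivAt (fun h : ℝ => M / 2 * h ^ 2) (M * h) h := by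
          have := (hasDerivAt_pow 2 h).const_mul (M / 2)
          refine this.congr_deriv ?_
          simp
          ring
        exact b1.add b2
      exact a2.sub a1
    have hq : ∀ h, HasDerivAt (fun h => deriv f x + M * h - deriv f (x + h))
        (M - deriv (deriv f) (x + h)) h := by
      intro h
      have a1 : HasDerivAt (fun h : ℝ => deriv f (x + h)) (deriv (deriv f) (x + h)) h := by
        simpa using (hd2 (x + h)).hasDerivAt.comp_const_add x h
      have b1 : HasDerivAt (fun h : ℝ => deriv f x + M * h) M h := by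
        simpa using ((hasDerivAt_id h).const_mul M).const_add (deriv f x)
      exact b1.sub a1
    have hmono : Monotone fun h => deriv f x + M * h - deriv f (x + h) := by
      refine monotone_of_deriv_nonneg (fun h => (hq h).differentiableAt) fun h => ?_
      rw [(hq h).deriv]
      linarith [h2 (x + h)]
    have hdg : ∀ h, deriv g h = deriv f x + M * h - deriv f (x + h) := fun h => (hg h).deriv
    intro h
    have hg0 : g 0 = 0 := by simp [g]
    have : 0 ≤ g h := by
      rcases le_total 0 h with hh | hh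
      · have hm : MonotoneOn g (Ici 0) := by
          refine monotoneOn_of_deriv_nonneg (convex_Ici 0)
            (fun h _ => (hg h).continuousAt.continuousWithinAt)
            (fun h _ => (hg h).differentiableAt.differentiableWithinAt) fun h hh => ?_
          rw [interior_Ici] at hh
          rw [hdg]
          have := hmono (le_of_lt hh)
          simpa using this
        have := hm (self_mem_Ici) hh hh
        rwa [hg0] at this
      · have hm : AntitoneOn g (Iic 0) := by
          refine antitoneOn_of_deriv_nonpos (convex_Iic 0)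
            (fun h _ => (hg h).continuousAt.continuousWithinAt)
            (fun h _ => (hg h).differentiableAt.differentiableWithinAt) fun h hh => ?_
          rw [interior_Iic] at hh
          rw [hdg]
          have := hmono (le_of_lt hh)
          simpa using this
        have := hm hh (self_mem_Iic) hh
        rwa [hg0] at this
    simp only [g] at this
    linarith
  rcases hM.eq_or_lt with hM0 | hM0
  · subst hM0
    have hz : deriv f x = 0 := by
      by_contra hne
      have := key (-(f x + 1) / deriv f x)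
      have h3 := h0 (x + -(f x + 1) / deriv f x)
      have h4 : deriv f x * (-(f x + 1) / deriv f x) = -(f x + 1) := by field_simp
      rw [h4] at this
      linarith
    rw [hz]
    simp
  · have h3 := key (-(deriv f x) / M)
    have h4 := h0 (x + -(deriv f x) / M)
    have h5 : deriv f x * (-(deriv f x) / M) = -(deriv f x ^ 2) / M := by ring
    have h6 : M / 2 * (-(deriv f x) / M) ^ 2 = deriv f x ^ 2 / M / 2 := by
      field_simp
    rw [h5, h6] at h3
    have h7 : deriv f x ^ 2 / M / 2 ≤ f x := by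
      have : -(deriv f x ^ 2) / M = -(deriv f x ^ 2 / M) := by ring
      rw [this] at h3
      linarith
    rw [div_div, div_le_iff₀ (by positivity)] at h7
    linarith

end Vale.Agent.P088.R2.H313.Mu
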