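import Vale.Agent.P088.R2.H313.MuA

/-!
# P088, stage 3, row MU: the correction `μ` of the level (part B)
-/

open Set Filter Topology MeasureTheory
open scoped ContDiff

noncomputable section

namespace Vale.Agent.P088.R2.H313.Mu

open Vale.Agent.P088.R2.H313.Ph

/-- `D = st (s - s_w) (1 - T)`, so `μ' = - β D`. -/
def DD (a : Ix) (s : ℝ) : ℝ := (1 - TT a s) * st (s - a.w)

theorem DD_bd : Bd (fun (_ : Ix) (_ : ℝ) => (1 : ℝ)) DD := by
  have b1 : Bd (fun (_ : Ix) (_ : ℝ) => (1 : ℝ)) fun a s => (1 : ℝ) + TT a s * (-1) :=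
    (Bd.const (c := fun _ => (1 : ℝ)) (C := 1) fun _ => by simp).add
      (TT_bd.mul (Bd.const (c := fun _ => (-1 : ℝ)) (C := 1) fun _ => by simp))
  have b2 : Bd (fun (_ : Ix) (_ : ℝ) => (1 : ℝ)) fun a s => st (s - a.w) :=
    st_bd.shift fun a : Ix => a.w
  have b3 := b1.mul b2
  have e : DD = fun a s => (1 + TT a s * (-1)) * st (s - a.w) := by
    funext a s
    rw [DD]
    ring
  rw [e]
  exact b3

theorem DD_smooth (a : Ix) : ContDiff ℝ ∞ (DD a) := DD_bd.1 a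

theorem DD_nonneg (a : Ix) (s : ℝ) : 0 ≤ DD a s :=
  mul_nonneg (sub_nonneg.2 (TT_le a s)) (st_nonneg _)

theorem DD_le (a : Ix) (s : ℝ) : DD a s ≤ 1 := by
  rw [DD]
  calc (1 - TT a s) * st (s - a.w) ≤ (1 - TT a s) * 1 :=
        mul_le_mul_of_nonneg_left (st_le_one _) (sub_nonneg.2 (TT_le a s))
    _ ≤ 1 := by linarith [TT_nonneg a s]

theorem DD_zero {a : Ix} {s : ℝ} (h : s ≤ a.w) : DD a s = 0 := by
  rw [DD, st_zero (by linarith), mul_zero]

theorem DD_mid {a : Ix} {s : ℝ} (h : a.w + 1 ≤ s) : DD a s = 1 - TT a s := by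
  rw [DD, st_one (by linarith), mul_one]

/-- `M = ∫ D`, `μ = - β M`. -/
def MM (a : Ix) (s : ℝ) : ℝ := ∫ t in a.w..s, DD a t

theorem MM_deriv (a : Ix) (s : ℝ) : HasDerivAt (MM a) (DD a s) s :=
  intervalIntegral.integral_hasDerivAt_right
    ((DD_smooth a).continuous.intervalIntegrable _ _)
    ((DD_smooth a).continuous.stronglyMeasurableAtFilter _ _)
    (DD_smooth a).continuous.continuousAt

theorem MM_smooth (a : Ix) : ContDiff ℝ ∞ (MM a) := by
  rw [contDiff_infty_iff_deriv]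
  refine ⟨fun s => (MM_deriv a s).differentiableAt, ?_⟩
  have : deriv (MM a) = DD a := funext fun s => (MM_deriv a s).deriv
  rw [this]
  exact DD_smooth a

theorem MM_mono (a : Ix) : Monotone (MM a) :=
  monotone_of_deriv_nonneg (fun s => (MM_deriv a s).differentiableAt) fun s => by
    rw [(MM_deriv a s).deriv]
    exact DD_nonneg a s

theorem MM_w (a : Ix) : MM a a.w = 0 := by simp [MM]

theorem MM_zero {a : Ix} {s : ℝ} (h : s ≤ a.w) : MM a s = 0 := by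
  rw [MM, intervalIntegral.integral_symm, neg_eq_zero]
  have : ∀ t ∈ uIcc s a.w, DD a t = 0 := by
    intro t ht
    rw [uIcc_of_le h] at ht
    exact DD_zero ht.2
  rw [intervalIntegral.integral_congr (g := fun _ => (0 : ℝ)) this]
  simp

theorem MM_nonneg (a : Ix) (s : ℝ) : 0 ≤ MM a s := by
  rcases le_total s a.w with h | h
  · rw [MM_zero h]
  · rw [← MM_w a]
    exact MM_mono a h

/-- `M ≤ 4 s₀`. -/
theorem MM_le {a : Ix} (hw : 0 ≤ a.w) (s : ℝ) : MM a s ≤ 4 * a.z := by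
  have hz := a.h2
  have h1 : ∀ s, a.w ≤ s → MM a s ≤ s - a.w := by
    intro s hs
    have hm : MonotoneOn (fun s => s - a.w - MM a s) (Ici a.w) := by
      refine monotoneOn_of_deriv_nonneg (convex_Ici _) ?_ ?_ ?_
      · exact fun x _ => (((hasDerivAt_id x).sub_const a.w).sub
          (MM_deriv a x)).continuousAt.continuousWithinAt
      · exact fun x _ => (((hasDerivAt_id x).sub_const a.w).sub
          (MM_deriv a x)).differentiableAt.differentiableWithinAt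
      · intro x _
        have : deriv (fun s => s - a.w - MM a s) x = 1 - DD a x :=
          (((hasDerivAt_id x).sub_const a.w).sub (MM_deriv a x)).deriv
        rw [this]
        linarith [DD_le a x]
    have := hm self_mem_Ici hs hs
    simp only [MM_w] at this
    linarith
  rcases le_total s (a.z + 1) with h | h
  · have h2 : MM a (a.z + 1) ≤ a.z + 1 - a.w := h1 _ (by linarith [a.h1])
    have := MM_mono a h
    linarith
  · -- the tail
    have h2 : MM a (a.z + 1) ≤ a.z + 1 - a.w := h1 _ (by linarith [a.h1])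
    have hz0 : 0 < a.z := by linarith
    -- `M + 2 z^{3/2} s^{-1/2}` is constant on the tail
    have hanti : AntitoneOn (fun s => MM a s + 2 * a.z ^ (3 / 2 : ℝ) * s ^ (-(1 / 2) : ℝ))
        (Ici (a.z + 1)) := by
      have hd : ∀ x, a.z + 1 ≤ x → HasDerivAt
          (fun s => MM a s + 2 * a.z ^ (3 / 2 : ℝ) * s ^ (-(1 / 2) : ℝ))
          (DD a x + 2 * a.z ^ (3 / 2 : ℝ) * ((-(1 / 2) : ℝ) * x ^ (-(1 / 2) - 1 : ℝ))) x := by
        intro x hx
        exact (MM_deriv a x).add ((Real.hasDerivAt_rpow_const (Or.inl (by linarith))).const_mul _)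
      refine antitoneOn_of_deriv_nonpos (convex_Ici _)
        (fun x hx => (hd x hx).continuousAt.continuousWithinAt)
        (fun x hx => ((hd x (interior_subset hx)).differentiableAt).differentiableWithinAt)
        fun x hx => ?_
      have hx' : a.z + 1 ≤ x := interior_subset hx
      rw [(hd x hx').deriv, DD_mid (by linarith [a.h1]), TT_right hx']
      have e : (-(1 / 2) - 1 : ℝ) = -(3 / 2) := by norm_num
      rw [e]
      apply le_of_eq
      ring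
    have h3 := hanti self_mem_Ici h h
    simp only at h3
    have h4 : 0 ≤ 2 * a.z ^ (3 / 2 : ℝ) * s ^ (-(1 / 2) : ℝ) := by
      have := Real.rpow_nonneg hz0.le (3 / 2 : ℝ)
      have := Real.rpow_nonneg (by linarith : 0 ≤ s) (-(1 / 2) : ℝ)
      positivity
    have h5 : a.z ^ (3 / 2 : ℝ) * (a.z + 1) ^ (-(1 / 2) : ℝ) ≤ a.z := by
      calc a.z ^ (3 / 2 : ℝ) * (a.z + 1) ^ (-(1 / 2) : ℝ)
          ≤ a.z ^ (3 / 2 : ℝ) * a.z ^ (-(1 / 2) : ℝ) :=
            mul_le_mul_of_nonneg_left (Real.rpow_le_rpow_of_nonpos hz0 (by linarith) (by norm_num))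
              (Real.rpow_nonneg hz0.le _)
        _ = a.z := by
          rw [← Real.rpow_add hz0]
          norm_num
    nlinarith

/-- `s_w = (1/2) log (Cs M₀)`. -/
def sw (Cs M0 : ℝ) : ℝ := 1 / 2 * Real.log (Cs * M0)
/-- `s₀ = (131/100) log M₀`, i.e. `e^{2 s₀} = M₀^{2.62}`. -/
def sz (M0 : ℝ) : ℝ := 131 / 100 * Real.log M0
/-- `β₀ = del (log M₀)^(-3/2)`. -/
def b0 (del M0 : ℝ) : ℝ := del * Real.log M0 ^ (-(3 / 2) : ℝ)
/-- `d = del (131/100)^(3/2)`. -/
def dl (del : ℝ) : ℝ := del * (131 / 100 : ℝ) ^ (3 / 2 : ℝ)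

/-- The correction `μ` of the level. -/
structure IsMu (Cs del : ℝ) (Cd : ℕ → ℝ) (M0 : ℝ) (μ : ℝ → ℝ) : Prop where
  sm : ContDiff ℝ ∞ μ
  ze : ∀ s ≤ sw Cs M0, μ s = 0
  d1 : ∀ s, deriv μ s ≤ 0
  d2 : ∀ s, -(b0 del M0) ≤ deriv μ s
  af : ∀ s, sw Cs M0 + 1 ≤ s → s ≤ sz M0 → deriv μ s = -(b0 del M0)
  cv : ∀ s, sw Cs M0 + 1 ≤ s → 0 ≤ deriv (deriv μ) s
  p1 : ∀ s, sz M0 + 1 ≤ s → deriv μ s = -(dl del * s ^ (-(3 / 2) : ℝ))
  p2 : ∀ s, sz M0 + 1 ≤ s → deriv (deriv μ) s = 3 / 2 * dl del * s ^ (-(5 / 2) : ℝ)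
  bd : ∀ s, |μ s| ≤ 6 * del * Real.log M0 ^ (-(1 / 2) : ℝ)
  bj : ∀ (j : ℕ) s, |iteratedDeriv (j + 1) μ s| ≤ Cd j * b0 del M0
  br : ∀ (j : ℕ) s, sz M0 + 1 ≤ s →
    |iteratedDeriv (j + 2) μ s| ≤ Cd j * (deriv (deriv μ) s / s ^ j)
  sq : ∀ s, sw Cs M0 + 1 ≤ s → iteratedDeriv 3 μ s ^ 2 ≤ Cd 3 * b0 del M0 * deriv (deriv μ) s
  hk : ∀ s s', sz M0 + 1 ≤ s → sz M0 + 1 ≤ s' → |s - s'| ≤ 1 →
    deriv (deriv μ) s ≤ 2 * deriv (deriv μ) s'

end Vale.Agent.P088.R2.H313.Mu
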