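import Vale.Agent.P088.R2.H313.MuB

/-!
# P088, stage 3, row MU: existence of the correction `μ`
-/

open Set Filter Topology MeasureTheory
open scoped ContDiff

noncomputable section

namespace Vale.Agent.P088.R2.H313.Mu

open Vale.Agent.P088.R2.H313.Ph

theorem iter_Ici {f g : ℝ → ℝ} (hf : ContDiff ℝ ∞ f) (hg : ContDiff ℝ ∞ g) {c : ℝ}
    (h : ∀ s, c ≤ s → f s = g s) (k : ℕ) {s : ℝ} (hs : c ≤ s) :
    iteratedDeriv k f s = iteratedDeriv k g s := by
  have h1 : EqOn (iteratedDeriv k f) (iteratedDeriv k g) (Ioi c) := by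
    intro t ht
    refine iteratedDeriv_congr_at ?_ k
    filter_upwards [lt_mem_nhds ht] with u hu
    exact h u hu.le
  have h2 : EqOn (iteratedDeriv k f) (iteratedDeriv k g) (Ici c) :=
    h1.of_subset_closure
      (hf.continuous_iteratedDeriv k (by exact_mod_cast le_top)).continuousOn
      (hg.continuous_iteratedDeriv k (by exact_mod_cast le_top)).continuousOn
      Ioi_subset_Ici_self (by rw [closure_Ioi])
  exact h2 hs

theorem log_rpow_pos {M0 : ℝ} (h : 1 < M0) (r : ℝ) : 0 < Real.log M0 ^ r :=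
  Real.rpow_pos_of_pos (Real.log_pos h) r

theorem b0_dl {del M0 : ℝ} (h : 1 < M0) : b0 del M0 * sz M0 ^ (3 / 2 : ℝ) = dl del := by
  have hl := Real.log_pos h
  rw [b0, sz, dl, Real.mul_rpow (by norm_num) hl.le]
  have : Real.log M0 ^ (-(3 / 2) : ℝ) * Real.log M0 ^ (3 / 2 : ℝ) = 1 := by
    rw [← Real.rpow_add hl]
    norm_num
  linear_combination (del * (131 / 100 : ℝ) ^ (3 / 2 : ℝ)) * this

/-- **Row MU.** -/
theorem exists_mu : ∃ Cd : ℕ → ℝ, (∀ j, 0 ≤ Cd j) ∧ ∀ Cs del : ℝ, 1 ≤ Cs → 0 < del →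
    ∃ Ms : ℝ, 1 ≤ Ms ∧ ∀ M0, Ms ≤ M0 → ∃ μ : ℝ → ℝ, IsMu Cs del Cd M0 μ := by
  choose C1 hC1 H1 using DD_bd.2
  choose C2 hC2 H2 using TT_bd.2
  refine ⟨fun j => C1 j + |(descPochhammer ℝ (j + 1)).eval (-(3 / 2) : ℝ)| + 2 * C2 3,
    fun j => by have := hC1 j; have := hC2 3; positivity, fun Cs del hCs hdel => ?_⟩
  refine ⟨Real.exp (4 + Real.log Cs), Real.one_le_exp (by
    have := Real.log_nonneg hCs
    linarith), fun M0 hM0 => ?_⟩
  have hlC := Real.log_nonneg hCs
  have hM1 : 1 < M0 := lt_of_lt_of_le (by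
    rw [← Real.exp_zero]
    exact Real.exp_lt_exp.2 (by linarith)) hM0
  have hlM : 4 + Real.log Cs ≤ Real.log M0 := by
    rw [Real.le_log_iff_exp_le (by linarith)]
    exact hM0
  have hsw : sw Cs M0 = 1 / 2 * (Real.log Cs + Real.log M0) := by
    rw [sw, Real.log_mul (by linarith) (by linarith)]
  let a : Ix := ⟨sw Cs M0, sz M0, by rw [hsw, sz]; linarith, by rw [sz]; linarith⟩
  have haw : 0 ≤ a.w := by show 0 ≤ sw Cs M0; rw [hsw]; linarith
  have haz : a.z = sz M0 := rfl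
  set β := b0 del M0 with hβ
  have hβ0 : 0 < β := mul_pos hdel (log_rpow_pos hM1 _)
  have hdz : β * a.z ^ (3 / 2 : ℝ) = dl del := b0_dl hM1
  have hz0 : 0 < a.z := by linarith [a.h2]
  have hdl0 : 0 < dl del := by rw [← hdz]; exact mul_pos hβ0 (Real.rpow_pos_of_pos hz0 _)
  let μ : ℝ → ℝ := fun s => -β * MM a s
  have hd : ∀ s, HasDerivAt μ (-β * DD a s) s := fun s => (MM_deriv a s).const_mul (-β)
  have hde : deriv μ = fun s => -β * DD a s := funext fun s => (hd s).deriv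
  have hsm : ContDiff ℝ ∞ μ := contDiff_const.mul (MM_smooth a)
  have hsm1 : ContDiff ℝ ∞ (deriv μ) := (contDiff_infty_iff_deriv.1 hsm).2
  -- the two models of `μ'`
  have m1 : ∀ s, a.w + 1 ≤ s → deriv μ s = β * (TT a s - 1) := by
    intro s hs
    rw [hde]
    show -β * DD a s = _
    rw [DD_mid hs]
    ring
  have m2 : ∀ s, a.z + 1 ≤ s → deriv μ s = -(dl del) * FF s := by
    intro s hs
    rw [m1 s (by linarith [a.h1]), TT_right hs, FF_eq (by linarith [a.h2]), ← hdz]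
    ring
  have s1 : ContDiff ℝ ∞ fun s => β * (TT a s - 1) :=
    contDiff_const.mul ((TT_smooth a).sub contDiff_const)
  have s2 : ContDiff ℝ ∞ fun s => -(dl del) * FF s := contDiff_const.mul FF_smooth
  have i1 : ∀ k s, a.w + 1 ≤ s → iteratedDeriv (k + 1) (deriv μ) s =
      β * iteratedDeriv (k + 1) (TT a) s := by
    intro k s hs
    rw [iter_Ici hsm1 s1 m1 (k + 1) hs, iteratedDeriv_const_mul_field]
    congr 1
    rw [iteratedDeriv_succ', iteratedDeriv_succ']
    congr 1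
    funext t
    exact deriv_sub_const (f := TT a) (x := t) (1 : ℝ)
  have i2 : ∀ k s, a.z + 1 ≤ s → iteratedDeriv k (deriv μ) s =
      -(dl del) * ((descPochhammer ℝ k).eval (-(3 / 2) : ℝ) * s ^ (-(3 / 2) - k : ℝ)) := by
    intro k s hs
    rw [iter_Ici hsm1 s2 m2 k hs, iteratedDeriv_const_mul_field, FF_iter (by linarith [a.h2])]
  have q2 : ∀ s, a.z + 1 ≤ s → deriv (deriv μ) s = 3 / 2 * dl del * s ^ (-(5 / 2) : ℝ) := by
    intro s hs
    have := i2 1 s hs
    rw [iteratedDeriv_one] at this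
    rw [this, descPochhammer_one, Polynomial.eval_X]
    have e : (-(3 / 2) - (1 : ℕ) : ℝ) = -(5 / 2) := by norm_num
    rw [e]
    ring
  refine ⟨μ, hsm, ?_, ?_, ?_, ?_, ?_, ?_, q2, ?_, ?_, ?_, ?_, ?_⟩
  · intro s hs
    show -β * MM a s = 0
    rw [MM_zero hs, mul_zero]
  · intro s
    rw [hde]
    show -β * DD a s ≤ 0
    nlinarith [mul_nonneg hβ0.le (DD_nonneg a s)]
  · intro s
    rw [hde]
    show -β ≤ -β * DD a s
    nlinarith [DD_le a s]
  · intro s hs hs'
    rw [m1 s hs, TT_zero hs']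
    ring
  · intro s hs
    have := i1 0 s hs
    rw [zero_add, iteratedDeriv_one, iteratedDeriv_one] at this
    rw [this]
    exact mul_nonneg hβ0.le (TT_mono a).deriv_nonneg
  · intro s hs
    rw [m2 s hs, FF_eq (by have := a.h2; linarith)]
    ring
  · intro s
    show |-β * MM a s| ≤ _
    rw [abs_mul, abs_neg, abs_of_pos hβ0, abs_of_nonneg (MM_nonneg a s)]
    calc β * MM a s ≤ β * (4 * a.z) := mul_le_mul_of_nonneg_left (MM_le haw s) hβ0.le
      _ ≤ 6 * del * Real.log M0 ^ (-(1 / 2) : ℝ) := by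
        have hl := Real.log_pos hM1
        have e : Real.log M0 ^ (-(1 / 2) : ℝ) = Real.log M0 ^ (-(3 / 2) : ℝ) * Real.log M0 := by
          have := Real.rpow_add hl (-(3 / 2) : ℝ) 1
          rw [Real.rpow_one] at this
          rw [← this]
          norm_num
        rw [e, haz, hβ, b0, sz]
        have : 0 ≤ del * (Real.log M0 ^ (-(3 / 2) : ℝ) * Real.log M0) := by
          have := (log_rpow_pos hM1 (-(3 / 2) : ℝ)).le
          positivity
        nlinarith
  · intro j s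
    rw [iteratedDeriv_succ', hde, iteratedDeriv_const_mul_field, abs_mul, abs_neg,
      abs_of_pos hβ0, mul_comm]
    refine mul_le_mul_of_nonneg_right ?_ hβ0.le
    have h1 := H1 j a s
    have h2 := abs_nonneg ((descPochhammer ℝ (j + 1)).eval (-(3 / 2) : ℝ))
    have h3 := hC2 3
    show |iteratedDeriv j (DD a) s| ≤ _
    linarith
  · intro j s hs
    have hs0 : 0 < s := by have := a.h2; linarith
    rw [iteratedDeriv_succ', i2 (j + 1) s hs, q2 s hs]
    rw [abs_mul, abs_mul, abs_neg, abs_of_pos hdl0, abs_of_pos (Real.rpow_pos_of_pos hs0 _)]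
    have e : s ^ (-(3 / 2) - ((j + 1 : ℕ) : ℝ) : ℝ) = s ^ (-(5 / 2) : ℝ) / s ^ j := by
      rw [← Real.rpow_natCast s j, ← Real.rpow_sub hs0]
      congr 1
      push_cast
      ring
    rw [e]
    have h4 : 0 < s ^ (-(5 / 2) : ℝ) / s ^ j := by
      have := Real.rpow_pos_of_pos hs0 (-(5 / 2) : ℝ)
      positivity
    have h1 := hC1 j
    have h2 := abs_nonneg ((descPochhammer ℝ (j + 1)).eval (-(3 / 2) : ℝ))
    have h3 := hC2 3
    have h5 : 0 < dl del * (s ^ (-(5 / 2) : ℝ) / s ^ j) := mul_pos hdl0 h4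
    show _ ≤ (C1 j + |(descPochhammer ℝ (j + 1)).eval (-(3 / 2) : ℝ)| + 2 * C2 3) *
      (3 / 2 * dl del * s ^ (-(5 / 2) : ℝ) / s ^ j)
    have e2 : 3 / 2 * dl del * s ^ (-(5 / 2) : ℝ) / s ^ j =
        3 / 2 * (dl del * (s ^ (-(5 / 2) : ℝ) / s ^ j)) := by ring
    rw [e2]
    nlinarith [mul_nonneg h1 h5.le, mul_nonneg h2 h5.le, mul_nonneg h3 h5.le]
  · intro s hs
    have j0 := i1 0 s hs
    have j1 := i1 1 s hs
    rw [zero_add, iteratedDeriv_one, iteratedDeriv_one] at j0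
    have e3 : iteratedDeriv 3 μ s = β * deriv (deriv (deriv (TT a))) s * 0 +
        β * deriv (deriv (TT a)) s := by
      have : iteratedDeriv 3 μ s = iteratedDeriv 2 (deriv μ) s := by
        rw [iteratedDeriv_succ']
      rw [this]
      have j2 : iteratedDeriv 2 (deriv μ) s = β * iteratedDeriv 2 (TT a) s := j1
      rw [j2, iteratedDeriv_succ', iteratedDeriv_one]
      ring
    rw [e3, j0, mul_zero, zero_add]
    have hT1 : ContDiff ℝ ∞ (deriv (TT a)) := (contDiff_infty_iff_deriv.1 (TT_smooth a)).2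
    have hsq := sq_deriv_le (f := deriv (TT a)) (contDiff_infty.1 hT1 2)
      (fun x => (TT_mono a).deriv_nonneg) (hC2 3) (fun x => by
        have := H2 3 a x
        have e : iteratedDeriv 3 (TT a) x = deriv (deriv (deriv (TT a))) x := by
          rw [iteratedDeriv_succ', iteratedDeriv_succ', iteratedDeriv_one]
        rw [e, mul_one] at this
        exact (le_abs_self _).trans this) s
    have h1 := hC1 3
    have h2 := abs_nonneg ((descPochhammer ℝ (3 + 1)).eval (-(3 / 2) : ℝ))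
    have h3 := hC2 3
    have h6 : 0 ≤ deriv (TT a) s := (TT_mono a).deriv_nonneg
    calc (β * deriv (deriv (TT a)) s) ^ 2 = β ^ 2 * deriv (deriv (TT a)) s ^ 2 := by ring
      _ ≤ β ^ 2 * (2 * C2 3 * deriv (TT a) s) := mul_le_mul_of_nonneg_left hsq (by positivity)
      _ ≤ (C1 3 + |(descPochhammer ℝ (3 + 1)).eval (-(3 / 2) : ℝ)| + 2 * C2 3) * β *
          (β * deriv (TT a) s) := by
        have h7 : 0 ≤ β ^ 2 * deriv (TT a) s := by positivity
        nlinarith [mul_nonneg h1 h7, mul_nonneg h2 h7]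
  · intro s s' hs hs' hss
    rw [q2 s hs, q2 s' hs']
    have hz4 := a.h2
    have hs0 : 5 ≤ s := by linarith
    have hs0' : 5 ≤ s' := by linarith
    have h1 : s' ≤ 6 / 5 * s := by
      have := (abs_le.1 hss).1
      linarith
    have h2 : s ^ (-(5 / 2) : ℝ) ≤ 2 * s' ^ (-(5 / 2) : ℝ) := by
      have h3 : s' ^ (5 / 2 : ℝ) ≤ 2 * s ^ (5 / 2 : ℝ) := by
        calc s' ^ (5 / 2 : ℝ) ≤ (6 / 5 * s) ^ (5 / 2 : ℝ) :=
              Real.rpow_le_rpow (by linarith) h1 (by norm_num)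
          _ = (6 / 5 : ℝ) ^ (5 / 2 : ℝ) * s ^ (5 / 2 : ℝ) :=
              Real.mul_rpow (by norm_num) (by linarith)
          _ ≤ 2 * s ^ (5 / 2 : ℝ) := by
            refine mul_le_mul_of_nonneg_right ?_ (Real.rpow_nonneg (by linarith) _)
            calc (6 / 5 : ℝ) ^ (5 / 2 : ℝ) ≤ (6 / 5 : ℝ) ^ (3 : ℝ) :=
                  Real.rpow_le_rpow_of_exponent_le (by norm_num) (by norm_num)
              _ ≤ 2 := by norm_num
      have p1 := Real.rpow_pos_of_pos (by linarith : 0 < s) (5 / 2 : ℝ)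
      have p2 := Real.rpow_pos_of_pos (by linarith : 0 < s') (5 / 2 : ℝ)
      rw [Real.rpow_neg (by linarith), Real.rpow_neg (by linarith), ← div_eq_mul_inv,
        inv_eq_one_div, div_le_div_iff₀ p1 p2]
      linarith
    have := mul_le_mul_of_nonneg_left h2 (by positivity : 0 ≤ 3 / 2 * dl del)
    linarith

end Vale.Agent.P088.R2.H313.Mu
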