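import Vale.Agent.P088.R2.H313.PhiD

/-!
# P088, stage 3, row PHI: the slope in the variable `u`, `E = e^u`
-/

open Set Filter Topology MeasureTheory
open scoped ContDiff

noncomputable section

namespace Vale.Agent.P088.R2.H313.Ph

/-- The slope `Φ(u)`: `N = Φ'`, `K = Φ''`, `E = e^u`. -/
structure IsPhiU (ρ κ nm ν C1 C2 C3 al be Cb : ℝ) (Cd : ℕ → ℝ) (M0 : ℝ) (Φ : ℝ → ℝ) : Prop where
  sm : ContDiff ℝ ∞ Φ
  ze : Φ 0 = 0
  lo : ∀ u, M0 * u - Cb ≤ Φ u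
  n1 : ∀ u, M0 ≤ deriv Φ u
  n2 : ∀ u, deriv Φ u ≤ Cb * M0
  k0 : ∀ u, 0 < deriv (deriv Φ) u
  k1 : ∀ u, deriv (deriv Φ) u ≤ (ρ + 1 / 20) * deriv Φ u
  k2 : ∀ u, deriv (deriv Φ) u ≤ Cb * Real.exp u
  k3 : ∀ u, deriv (deriv Φ) u ≤ Cb * (deriv Φ u ^ 2 / Real.exp u + deriv Φ u ^ al)
  kd : ∀ j u, |iteratedDeriv (j + 2) Φ u| ≤ Cd j * deriv (deriv Φ) u
  p0 : ∀ u, nm * Real.exp u ≤ deriv Φ u → κ * Real.exp u ≤ deriv (deriv Φ) u
  p1 : ∀ u, ν * Real.exp u ≤ deriv Φ u → deriv Φ u ≤ nm * Real.exp u →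
    deriv (deriv Φ) u = ρ * deriv Φ u
  p2 : ∀ u, deriv Φ u ≤ ν * Real.exp u → Real.exp u ≤ C3 * deriv Φ u ^ be →
    C2 * deriv Φ u ^ 2 / Real.exp u + C1 * deriv Φ u ^ al ≤ deriv (deriv Φ) u
  p3 : ∀ u, deriv Φ u ≤ ν / 8 * Real.exp u →
    deriv (deriv Φ) u ≤ 4 * C2 * deriv Φ u ^ 2 / Real.exp u + 4 * C1 * deriv Φ u ^ al
  an : StrictAnti fun u => deriv Φ u / Real.exp u
  dc : ∃ Nt B : ℝ, 0 < Nt ∧ Nt ≤ Cb * M0 ∧
    ∀ u, 0 ≤ Nt - deriv Φ u ∧ Nt - deriv Φ u ≤ B * Real.exp (-u)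

theorem half_deriv (u : ℝ) : HasDerivAt (fun u : ℝ => (1 / 2) * u) (1 / 2) u := by
  simpa using (hasDerivAt_id u).const_mul (1 / 2 : ℝ)

/-- The passage from `l` to `u`. -/
theorem IsPhi.toU {ρ κ nm ν C1 C2 C3 al be Cb M0 : ℝ} {Cd : ℕ → ℝ} {φ : ℝ → ℝ} (hCb : 0 < Cb)
    (hCd : ∀ j, 0 ≤ Cd j) (hM00 : 0 < M0)
    (hφ : IsPhi ρ (2 * κ) nm ν (2 * C1) (2 * C2) C3 al be Cb Cd M0 φ) :
    IsPhiU ρ κ nm ν C1 C2 C3 al be (2 * Cb) (fun j => 4 * Cd j) M0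
      fun u => 2 * φ ((1 / 2) * u) := by
  have d1 : deriv (fun u => 2 * φ ((1 / 2) * u)) = fun u => deriv φ ((1 / 2) * u) := by
    funext u
    have h := (((hφ.sm.differentiable (by simp) ((1 / 2) * u)).hasDerivAt.comp u
      (half_deriv u)).const_mul 2).deriv
    refine h.trans ?_
    ring
  have hsm1 : ContDiff ℝ ∞ (deriv φ) := (contDiff_infty_iff_deriv.1 hφ.sm).2
  have d2 : deriv (deriv (fun u => 2 * φ ((1 / 2) * u))) =
      fun u => deriv (deriv φ) ((1 / 2) * u) / 2 := by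
    rw [d1]
    funext u
    have h := ((hsm1.differentiable (by simp) ((1 / 2) * u)).hasDerivAt.comp u
      (half_deriv u)).deriv
    refine h.trans ?_
    ring
  have hE : ∀ u : ℝ, Real.exp (2 * ((1 / 2) * u)) = Real.exp u := fun u => by
    congr 1; ring
  refine ⟨?_, ?_, ?_, ?_, ?_, ?_, ?_, ?_, ?_, ?_, ?_, ?_, ?_, ?_, ?_, ?_⟩
  · exact contDiff_const.mul (hφ.sm.comp (contDiff_const.mul contDiff_id))
  · show 2 * φ ((1 / 2) * 0) = 0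
    rw [mul_zero, hφ.ze, mul_zero]
  · intro u
    have := hφ.lo ((1 / 2) * u)
    show _ ≤ 2 * φ ((1 / 2) * u)
    linarith
  · intro u
    rw [d1]
    exact hφ.n1 _
  · intro u
    rw [d1]
    have := hφ.n2 ((1 / 2) * u)
    have h4 := mul_pos hCb hM00
    show deriv φ ((1 / 2) * u) ≤ _
    linarith
  · intro u
    rw [d2]
    have := hφ.k0 ((1 / 2) * u)
    show 0 < deriv (deriv φ) ((1 / 2) * u) / 2
    linarith
  · intro u
    rw [d2, d1]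
    have := hφ.k1 ((1 / 2) * u)
    show deriv (deriv φ) ((1 / 2) * u) / 2 ≤ (ρ + 1 / 20) * deriv φ ((1 / 2) * u)
    linarith
  · intro u
    rw [d2]
    have := hφ.k2 ((1 / 2) * u)
    rw [hE] at this
    have h4 := mul_pos hCb (Real.exp_pos u)
    show deriv (deriv φ) ((1 / 2) * u) / 2 ≤ _
    linarith
  · intro u
    rw [d2, d1]
    have := hφ.k3 ((1 / 2) * u)
    rw [hE] at this
    have hN : 0 < deriv φ ((1 / 2) * u) := lt_of_lt_of_le hM00 (hφ.n1 _)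
    have h4 : 0 ≤ Cb * (deriv φ ((1 / 2) * u) ^ 2 / Real.exp u + deriv φ ((1 / 2) * u) ^ al) := by
      have := Real.rpow_nonneg hN.le al
      positivity
    show deriv (deriv φ) ((1 / 2) * u) / 2 ≤
      2 * Cb * (deriv φ ((1 / 2) * u) ^ 2 / Real.exp u + deriv φ ((1 / 2) * u) ^ al)
    linarith
  · intro j u
    rw [d2]
    have e1 : iteratedDeriv (j + 2) (fun u => 2 * φ ((1 / 2) * u)) u =
        2 * ((1 / 2) ^ (j + 2) * iteratedDeriv (j + 2) φ ((1 / 2) * u)) := by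
      have hs : ContDiff ℝ ∞ fun u => φ ((1 / 2) * u) :=
        hφ.sm.comp (contDiff_const.mul contDiff_id)
      rw [iteratedDeriv_const_mul _ ((contDiff_infty.1 hs (j + 2)).contDiffAt)]
      congr 1
      exact congrFun (iteratedDeriv_comp_const_mul (contDiff_infty.1 hφ.sm (j + 2))
        (1 / 2 : ℝ)) u
    have h4 := hφ.kd j ((1 / 2) * u)
    have h5 : ((1 / 2 : ℝ)) ^ (j + 2) ≤ 1 := pow_le_one₀ (by norm_num) (by norm_num)
    have h6 : 0 ≤ ((1 / 2 : ℝ)) ^ (j + 2) := by positivity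
    rw [e1, abs_mul, abs_mul, abs_of_nonneg h6, abs_two]
    have h7 := abs_nonneg (iteratedDeriv (j + 2) φ ((1 / 2) * u))
    show _ ≤ 4 * Cd j * (deriv (deriv φ) ((1 / 2) * u) / 2)
    nlinarith
  · intro u
    rw [d2, d1]
    intro h
    have := hφ.p0 ((1 / 2) * u) (by rw [hE]; exact h)
    rw [hE] at this
    show _ ≤ deriv (deriv φ) ((1 / 2) * u) / 2
    linarith
  · intro u
    rw [d2, d1]
    intro h h'
    have := hφ.p1 ((1 / 2) * u) (by rw [hE]; exact h) (by rw [hE]; exact h')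
    show deriv (deriv φ) ((1 / 2) * u) / 2 = ρ * deriv φ ((1 / 2) * u)
    linarith
  · intro u
    rw [d2, d1]
    intro h h'
    have := hφ.p2 ((1 / 2) * u) (by rw [hE]; exact h) (by rw [hE]; exact h')
    rw [hE] at this
    show C2 * deriv φ ((1 / 2) * u) ^ 2 / Real.exp u + C1 * deriv φ ((1 / 2) * u) ^ al ≤
      deriv (deriv φ) ((1 / 2) * u) / 2
    have e : 2 * C2 * deriv φ ((1 / 2) * u) ^ 2 / Real.exp u =
      2 * (C2 * deriv φ ((1 / 2) * u) ^ 2 / Real.exp u) := by ring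
    rw [e] at this
    linarith
  · intro u
    rw [d2, d1]
    intro h
    have := hφ.p3 ((1 / 2) * u) (by rw [hE]; exact h)
    rw [hE] at this
    show deriv (deriv φ) ((1 / 2) * u) / 2 ≤
      4 * C2 * deriv φ ((1 / 2) * u) ^ 2 / Real.exp u + 4 * C1 * deriv φ ((1 / 2) * u) ^ al
    have e : 4 * (2 * C2) * deriv φ ((1 / 2) * u) ^ 2 / Real.exp u =
      2 * (4 * C2 * deriv φ ((1 / 2) * u) ^ 2 / Real.exp u) := by ring
    rw [e] at this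
    linarith
  · rw [d1]
    intro u v huv
    have := hφ.an (show (1 / 2) * u < (1 / 2) * v by linarith)
    simp only [hE] at this
    exact this
  · obtain ⟨Nt, B, hNt, hNt1, hd⟩ := hφ.dc
    refine ⟨Nt, B, hNt, ?_, fun u => ?_⟩
    · have h4 := mul_pos hCb hM00
      linarith
    · rw [d1]
      have := hd ((1 / 2) * u)
      have e : -(2 * ((1 / 2) * u)) = -u := by ring
      rw [e] at this
      exact this

/-- The explicit function: `2 φ(u/2) = ∫₀ᵘ N`. -/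
theorem Pr.ph_eq (p : Pr) (a : p.La) : (fun u => 2 * p.ph a ((1 / 2) * u)) = p.PP a.1 := by
  funext u
  show 2 * (1 / 2 * p.PP a.1 (2 * ((1 / 2) * u))) = p.PP a.1 u
  rw [show 2 * ((1 / 2) * u) = u by ring]
  ring

/-- **Row PHI in the variable `u`**, with the explicit function. -/
theorem exists_phiU_aux {ρ κ nm ν C1 C2 C3 al be : ℝ} (hρ : 0 < ρ) (hρ1 : ρ < 1) (hκ : 0 < κ)
    (hnm : 0 < nm) (hν : 0 < ν) (h1 : 0 < C1) (h2 : 0 < C2) (h3 : 0 < C3)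
    (hκn : κ ≤ ρ * nm) (hνn : ν ≤ nm) (hc : C2 * ν ≤ ρ / 40) (hal : 0 < al) (hal1 : al < 1)
    (hbe : 0 < be) :
    ∃ (p : Pr) (Ms Cb : ℝ) (Cd : ℕ → ℝ), p.ρ = ρ ∧ 1 ≤ Ms ∧ 0 < Cb ∧ (∀ j, 0 ≤ Cd j) ∧
      p.X ≤ Cb ∧ ∀ M0, Ms ≤ M0 → p.Lg M0 ∧
        IsPhiU ρ κ nm ν C1 C2 C3 al be Cb Cd M0 (p.PP M0) := by
  obtain ⟨p, Ms, Cb, Cd, b1, -, -, -, hMs, hCb, hCd, hX, H⟩ := exists_phi_aux (κ := 2 * κ)
    (C1 := 2 * C1) (C2 := 2 * C2)
    hρ hρ1 (by positivity) hnm hν (by positivity) (by positivity) h3 (by linarith) hνn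
    (by linarith) hal hal1 hbe
  refine ⟨p, Ms, 2 * Cb, fun j => 4 * Cd j, b1, hMs, by positivity, fun j => by
    have := hCd j
    positivity, by linarith, fun M0 hM0 => ?_⟩
  obtain ⟨hm, hφ⟩ := H M0 hM0
  have h := hφ.toU hCb hCd (by linarith)
  rw [p.ph_eq ⟨M0, hm⟩] at h
  exact ⟨hm, h⟩

/-- **Row PHI in the variable `u`.** -/
theorem exists_phiU {ρ κ nm ν C1 C2 C3 al be : ℝ} (hρ : 0 < ρ) (hρ1 : ρ < 1) (hκ : 0 < κ)
    (hnm : 0 < nm) (hν : 0 < ν) (h1 : 0 < C1) (h2 : 0 < C2) (h3 : 0 < C3)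
    (hκn : κ ≤ ρ * nm) (hνn : ν ≤ nm) (hc : C2 * ν ≤ ρ / 40) (hal : 0 < al) (hal1 : al < 1)
    (hbe : 0 < be) :
    ∃ (Ms Cb : ℝ) (Cd : ℕ → ℝ), 1 ≤ Ms ∧ 0 < Cb ∧ (∀ j, 0 ≤ Cd j) ∧
      ∀ M0, Ms ≤ M0 → ∃ Φ : ℝ → ℝ, IsPhiU ρ κ nm ν C1 C2 C3 al be Cb Cd M0 Φ := by
  obtain ⟨p, Ms, Cb, Cd, -, a1, a2, a3, -, H⟩ := exists_phiU_aux hρ hρ1 hκ hnm hν h1 h2 h3
    hκn hνn hc hal hal1 hbe
  exact ⟨Ms, Cb, Cd, a1, a2, a3, fun M0 hM0 => ⟨_, (H M0 hM0).2⟩⟩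

end Vale.Agent.P088.R2.H313.Ph
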