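import Vale.Agent.P088.R2.H313.MuC
import Vale.Agent.P088.R2.H313.PhiE

/-!
# P088, stage 3, rows PHI and MU together
-/

open Set Filter Topology MeasureTheory
open scoped ContDiff

noncomputable section

namespace Vale.Agent.P088.R2.H313.Mu

open Vale.Agent.P088.R2.H313.Ph

variable {Cs del M0 : ℝ} {Cd : ℕ → ℝ} {μ : ℝ → ℝ}

theorem IsMu.nonpos (h : IsMu Cs del Cd M0 μ) (s : ℝ) : μ s ≤ 0 := by
  have hanti : Antitone μ := by
    refine antitone_of_deriv_nonpos (h.sm.differentiable (by simp)) h.d1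
  rcases le_total s (sw Cs M0) with hs | hs
  · rw [h.ze s hs]
  · rw [← h.ze (sw Cs M0) le_rfl]
    exact hanti hs

/-- `E = e^{2 s + 2 μ(s)} ≥ M₀^{2.64}` implies `s ≥ s₀ + 1` (power law). -/
theorem IsMu.far (h : IsMu Cs del Cd M0 μ) (hM : Real.exp 100 ≤ M0) {s : ℝ}
    (hs : M0 ^ (264 / 100 : ℝ) ≤ Real.exp (2 * s + 2 * μ s)) : sz M0 + 1 ≤ s := by
  have h0 : 0 < M0 := lt_of_lt_of_le (Real.exp_pos _) hM
  have hl : 100 ≤ Real.log M0 := by rwa [Real.le_log_iff_exp_le h0]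
  have h1 := Real.log_le_log (Real.rpow_pos_of_pos h0 _) hs
  rw [Real.log_rpow h0, Real.log_exp] at h1
  have h2 := h.nonpos s
  rw [sz]
  linarith

/-- `E = e^{2 s + 2 μ(s)} ≤ M₀^{2.61}` implies `s ≤ s₀` (affine range). -/
theorem IsMu.aff (hM : Real.exp 100 ≤ M0) (hμ : ∀ s, |μ s| ≤ 1 / 8) {s : ℝ}
    (hs : Real.exp (2 * s + 2 * μ s) ≤ M0 ^ (261 / 100 : ℝ)) : s ≤ sz M0 := by
  have h0 : 0 < M0 := lt_of_lt_of_le (Real.exp_pos _) hM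
  have hl : 100 ≤ Real.log M0 := by rwa [Real.le_log_iff_exp_le h0]
  have h1 := Real.log_le_log (Real.exp_pos _) hs
  rw [Real.log_rpow h0, Real.log_exp] at h1
  have h2 := (abs_le.1 (hμ s)).1
  rw [sz]
  linarith

/-- `4 N^{2.6} ≤ M₀^{2.61}`. -/
theorem four_le (Cb : ℝ) : ∃ Ms : ℝ, ∀ M0, Ms ≤ M0 → ∀ N : ℝ, 0 ≤ N → N ≤ Cb * M0 →
    4 * N ^ (13 / 5 : ℝ) ≤ M0 ^ (261 / 100 : ℝ) := by
  obtain ⟨Ms, hMs⟩ := eventually_atTop.1
    ((tendsto_rpow_atTop (by norm_num : (0 : ℝ) < 1 / 100)).eventually_ge_atTop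
      (4 * |Cb| ^ (13 / 5 : ℝ)))
  refine ⟨max Ms 1, fun M0 hM0 N hN hN' => ?_⟩
  have h1 : 0 < M0 := lt_of_lt_of_le one_pos ((le_max_right _ _).trans hM0)
  have h2 := hMs M0 ((le_max_left _ _).trans hM0)
  have h3 : N ≤ |Cb| * M0 := hN'.trans (mul_le_mul_of_nonneg_right (le_abs_self _) h1.le)
  calc 4 * N ^ (13 / 5 : ℝ) ≤ 4 * (|Cb| * M0) ^ (13 / 5 : ℝ) :=
        mul_le_mul_of_nonneg_left (Real.rpow_le_rpow hN h3 (by norm_num)) (by norm_num)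
    _ = 4 * |Cb| ^ (13 / 5 : ℝ) * M0 ^ (13 / 5 : ℝ) := by
      rw [Real.mul_rpow (abs_nonneg _) h1.le]
      ring
    _ ≤ M0 ^ (1 / 100 : ℝ) * M0 ^ (13 / 5 : ℝ) :=
      mul_le_mul_of_nonneg_right h2 (Real.rpow_nonneg h1.le _)
    _ = M0 ^ (261 / 100 : ℝ) := by
      rw [← Real.rpow_add h1]
      norm_num

/-- `s + μ(s)` is increasing (slope at least `1 - β₀`). -/
theorem IsMu.mono (h : IsMu Cs del Cd M0 μ) (hb : b0 del M0 ≤ 1) :
    Monotone fun s => s + μ s := by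
  have hd : Differentiable ℝ μ := h.sm.differentiable (by simp)
  refine monotone_of_deriv_nonneg (differentiable_id.add hd) fun s => ?_
  have : deriv (fun s => s + μ s) s = 1 + deriv μ s :=
    ((hasDerivAt_id s).add (hd s).hasDerivAt).deriv
  rw [this]
  linarith [h.d2 s]

/-- `E < Cs M₀` implies `s ≤ s_w` (so `μ(s) = 0`). -/
theorem IsMu.near (h : IsMu Cs del Cd M0 μ) (hb : b0 del M0 ≤ 1) (hM : 0 < Cs * M0) {s : ℝ}
    (hs : Real.exp (2 * s + 2 * μ s) < Cs * M0) : s ≤ sw Cs M0 := by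
  by_contra hc
  push Not at hc
  have h1 := h.mono hb hc.le
  simp only at h1
  rw [h.ze _ le_rfl, add_zero] at h1
  have h2 : 2 * sw Cs M0 ≤ 2 * s + 2 * μ s := by linarith
  have h3 : Real.exp (2 * sw Cs M0) = Cs * M0 := by
    rw [sw]
    have : 2 * (1 / 2 * Real.log (Cs * M0)) = Real.log (Cs * M0) := by ring
    rw [this, Real.exp_log hM]
  have := Real.exp_le_exp.2 h2
  rw [h3] at this
  linarith

theorem b0_small (del : ℝ) {η : ℝ} (hη : 0 < η) : ∃ Ms : ℝ, ∀ M0, Ms ≤ M0 → b0 del M0 ≤ η ∧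
    8 * |del| * Real.log M0 ^ (-(1 / 2) : ℝ) ≤ η := by
  have t1 : Tendsto (fun M0 : ℝ => del * Real.log M0 ^ (-(3 / 2) : ℝ)) atTop (𝓝 (del * 0)) :=
    ((tendsto_rpow_neg_atTop (by norm_num : (0 : ℝ) < 3 / 2)).comp
      Real.tendsto_log_atTop).const_mul del
  have t2 : Tendsto (fun M0 : ℝ => 8 * |del| * Real.log M0 ^ (-(1 / 2) : ℝ)) atTop
      (𝓝 (8 * |del| * 0)) :=
    ((tendsto_rpow_neg_atTop (by norm_num : (0 : ℝ) < 1 / 2)).comp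
      Real.tendsto_log_atTop).const_mul _
  rw [mul_zero] at t1 t2
  have := (t1.eventually_le_const hη).and (t2.eventually_le_const hη)
  obtain ⟨Ms, h⟩ := eventually_atTop.1 this
  exact ⟨Ms, fun M0 hM0 => h M0 hM0⟩

/-- The gain `μ''(s) e^{τ s}` is large for `s ≥ s₀ + 1`. -/
theorem gain (Cs : ℝ) {del : ℝ} (hdel : 0 < del) (Cd : ℕ → ℝ) {τ : ℝ} (hτ : 0 < τ) (C : ℝ) :
    ∃ Ms : ℝ, ∀ M0, Ms ≤ M0 → ∀ μ, IsMu Cs del Cd M0 μ → ∀ s, sz M0 + 1 ≤ s →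
      C ≤ deriv (deriv μ) s * Real.exp (τ * s) := by
  have hdl : 0 < 3 / 2 * dl del := by
    rw [dl]
    positivity
  have t1 : Tendsto (fun s : ℝ => Real.exp (τ * s) / s ^ (5 / 2 : ℝ)) atTop atTop :=
    tendsto_exp_mul_div_rpow_atTop (5 / 2) τ hτ
  obtain ⟨S, hS⟩ := eventually_atTop.1 (t1.eventually_ge_atTop (C / (3 / 2 * dl del)))
  obtain ⟨Ms, hMs⟩ := eventually_atTop.1 (Real.tendsto_log_atTop.eventually_ge_atTop (max S 1))
  refine ⟨Ms, fun M0 hM0 μ h s hs => ?_⟩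
  have hl := hMs M0 hM0
  have hl1 : S ≤ Real.log M0 := (le_max_left _ _).trans hl
  have hl2 : 1 ≤ Real.log M0 := (le_max_right _ _).trans hl
  have hs1 : Real.log M0 ≤ s := by
    rw [sz] at hs
    linarith
  have h1 := hS s (hl1.trans hs1)
  rw [h.p2 s hs, Real.rpow_neg (by linarith)]
  rw [div_le_iff₀ hdl] at h1
  calc C ≤ Real.exp (τ * s) / s ^ (5 / 2 : ℝ) * (3 / 2 * dl del) := h1
    _ = 3 / 2 * dl del * (s ^ (5 / 2 : ℝ))⁻¹ * Real.exp (τ * s) := by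
      rw [div_eq_mul_inv]
      ring

/-- `K ≥ c(A) E` where `E ≤ A N`. -/
theorem low {ρ κ nm ν C1 C2 C3 al be Cb : ℝ} {Cd : ℕ → ℝ} (hρ : 0 < ρ) (hκ : 0 < κ)
    (hν : 0 < ν) (h1 : 0 < C1) (h2 : 0 < C2) (h3 : 0 < C3) (hbe : 1 < be) {A : ℝ} (hA : 0 < A) :
    ∃ Ms c : ℝ, 0 < c ∧ ∀ M0, Ms ≤ M0 → ∀ Φ, IsPhiU ρ κ nm ν C1 C2 C3 al be Cb Cd M0 Φ →
      ∀ u, Real.exp u ≤ A * deriv Φ u → c * Real.exp u ≤ deriv (deriv Φ) u := by
  obtain ⟨Ms, hMs⟩ := eventually_atTop.1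
    ((tendsto_rpow_atTop (by linarith : 0 < be - 1)).eventually_ge_atTop (A / C3))
  refine ⟨max Ms 1, min κ (min (ρ * ν) (C2 / A ^ 2)), by positivity, fun M0 hM0 Φ h u hu => ?_⟩
  have hE := Real.exp_pos u
  have hM1 : 1 ≤ M0 := (le_max_right _ _).trans hM0
  have hN1 : M0 ≤ deriv Φ u := h.n1 u
  have hN : 0 < deriv Φ u := by linarith
  rcases le_total (nm * Real.exp u) (deriv Φ u) with a | a
  · exact (mul_le_mul_of_nonneg_right (min_le_left _ _) hE.le).trans (h.p0 u a)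
  · rcases le_total (ν * Real.exp u) (deriv Φ u) with b | b
    · rw [h.p1 u b a]
      calc min κ (min (ρ * ν) (C2 / A ^ 2)) * Real.exp u ≤ (ρ * ν) * Real.exp u :=
            mul_le_mul_of_nonneg_right ((min_le_right _ _).trans (min_le_left _ _)) hE.le
        _ = ρ * (ν * Real.exp u) := by ring
        _ ≤ ρ * deriv Φ u := mul_le_mul_of_nonneg_left b hρ.le
    · have hE3 : Real.exp u ≤ C3 * deriv Φ u ^ be := by
        have h4 : A / C3 ≤ deriv Φ u ^ (be - 1) :=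
          hMs _ ((le_max_left _ _).trans (hM0.trans hN1))
        rw [div_le_iff₀ h3] at h4
        have h5 : deriv Φ u ^ be = deriv Φ u ^ (be - 1) * deriv Φ u := by
          have := Real.rpow_add hN (be - 1) 1
          rw [Real.rpow_one] at this
          rw [← this]
          congr 1
          ring
        rw [h5]
        calc Real.exp u ≤ A * deriv Φ u := hu
          _ ≤ deriv Φ u ^ (be - 1) * C3 * deriv Φ u := mul_le_mul_of_nonneg_right h4 hN.le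
          _ = C3 * (deriv Φ u ^ (be - 1) * deriv Φ u) := by ring
      have h6 := h.p2 u b hE3
      have h7 : 0 ≤ C1 * deriv Φ u ^ al := by
        have := Real.rpow_nonneg hN.le al
        positivity
      have h8 : C2 / A ^ 2 * Real.exp u ≤ C2 * deriv Φ u ^ 2 / Real.exp u := by
        rw [div_mul_eq_mul_div, div_le_div_iff₀ (by positivity) hE]
        have h9 : Real.exp u ^ 2 ≤ A ^ 2 * deriv Φ u ^ 2 := by
          rw [← mul_pow]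
          exact pow_le_pow_left₀ hE.le hu 2
        nlinarith [mul_le_mul_of_nonneg_left h9 h2.le]
      calc min κ (min (ρ * ν) (C2 / A ^ 2)) * Real.exp u ≤ C2 / A ^ 2 * Real.exp u :=
            mul_le_mul_of_nonneg_right ((min_le_right _ _).trans (min_le_right _ _)) hE.le
        _ ≤ C2 * deriv Φ u ^ 2 / Real.exp u := h8
        _ ≤ _ := by linarith

/-- **Rows PHI and MU.** -/
theorem exists_slope : ∃ Cm : ℕ → ℝ, (∀ j, 0 ≤ Cm j) ∧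
    ∀ {ρ κ nm ν C1 C2 C3 al be Cs del : ℝ}, 0 < ρ → ρ < 1 → 0 < κ → 0 < nm → 0 < ν →
      0 < C1 → 0 < C2 → 0 < C3 → κ ≤ ρ * nm → ν ≤ nm → C2 * ν ≤ ρ / 40 → 0 < al → al < 1 →
      1 < be → 1 ≤ Cs → 0 < del →
      ∃ (Ms Cb c : ℝ) (Cd : ℕ → ℝ), Real.exp 100 ≤ Ms ∧ 0 < Cb ∧ (∀ j, 0 ≤ Cd j) ∧ 0 < c ∧
        ∀ M0, Ms ≤ M0 → ∃ Φ μ : ℝ → ℝ, IsPhiU ρ κ nm ν C1 C2 C3 al be Cb Cd M0 Φ ∧
          IsMu Cs del Cm M0 μ ∧ b0 del M0 ≤ 1 / 8 ∧ (∀ s, |μ s| ≤ 1 / 8) ∧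
          (∀ u, Real.exp u ≤ 8 * Real.exp 1 ^ 2 * Cs * deriv Φ u →
            c * Real.exp u ≤ deriv (deriv Φ) u) ∧
          (∀ u, 4 * deriv Φ u ^ (13 / 5 : ℝ) ≤ M0 ^ (261 / 100 : ℝ)) := by
  obtain ⟨Cm, hCm, H⟩ := exists_mu
  refine ⟨Cm, hCm, ?_⟩
  intro ρ κ nm ν C1 C2 C3 al be Cs del hρ hρ1 hκ hnm hν h1 h2 h3 hκn hνn hc hal hal1 hbe hCs hdel
  obtain ⟨Ma, Cb, Cd, hMa, hCb, hCd, HΦ⟩ := exists_phiU hρ hρ1 hκ hnm hν h1 h2 h3 hκn hνn hc hal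
    hal1 (by linarith : 0 < be)
  obtain ⟨Mb, hMb, Hμ⟩ := H Cs del hCs hdel
  obtain ⟨Mc, HMc⟩ := b0_small del (by norm_num : (0 : ℝ) < 1 / 8)
  obtain ⟨Me, c, hc0, HMe⟩ := low (Cd := Cd) (Cb := Cb) (nm := nm) (al := al) hρ hκ hν h1 h2 h3 hbe
    (A := 8 * Real.exp 1 ^ 2 * Cs) (by positivity)
  obtain ⟨Mf, HMf⟩ := four_le Cb
  refine ⟨max Ma (max Mb (max Mc (max Me (max Mf (Real.exp 100))))), Cb, c, Cd, ?_, hCb, hCd, hc0,
    fun M0 hM0 => ?_⟩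
  · exact (le_max_right _ _).trans ((le_max_right _ _).trans ((le_max_right _ _).trans
      ((le_max_right _ _).trans (le_max_right _ _))))
  · simp only [max_le_iff] at hM0
    obtain ⟨a1, a2, a3, a4, a6, a5⟩ := hM0
    obtain ⟨Φ, hΦ⟩ := HΦ M0 a1
    obtain ⟨μ, hμ⟩ := Hμ M0 a2
    obtain ⟨b1, b2⟩ := HMc M0 a3
    have hMp : 0 < M0 := lt_of_lt_of_le (Real.exp_pos _) a5
    refine ⟨Φ, μ, hΦ, hμ, b1, fun s => ?_, fun u hu => HMe M0 a4 Φ hΦ u hu,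
      fun u => HMf M0 a6 _ (hMp.le.trans (hΦ.n1 u)) (hΦ.n2 u)⟩
    have h5 := hμ.bd s
    rw [abs_of_pos hdel] at b2
    have h6 : 0 ≤ del * Real.log M0 ^ (-(1 / 2) : ℝ) := by
      have := Real.rpow_nonneg (Real.log_nonneg (by
        have := Real.one_le_exp (by norm_num : (0 : ℝ) ≤ 100)
        linarith : (1 : ℝ) ≤ M0)) (-(1 / 2) : ℝ)
      positivity
    nlinarith

end Vale.Agent.P088.R2.H313.Mu
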