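import Vale.Agent.P088.R2.H313.MuD

/-!
# P088, stage 3: the correction `μ` cut off at the top of the reverse pass

`muR μ₁ ur s = μ₁ s · cr ur s`, `cr = 1` for `2 s ≤ ur - 4`, `cr = 0` for `2 s ≥ ur`.
-/

open Set Filter Topology MeasureTheory
open scoped ContDiff

noncomputable section

namespace Vale.Agent.P088.R2.H313.Mu

open Vale.Agent.P088.R2.H313.Ph

/-- The cut-off: `1` for `2 s ≤ ur - 4`, `0` for `2 s ≥ ur`. -/
def cr (ur s : ℝ) : ℝ := 1 - st ((2 * s - ur) / 4 + 1)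

/-- The correction used in the weight. -/
def muR (μ : ℝ → ℝ) (ur s : ℝ) : ℝ := μ s * cr ur s

/-- `b₁ = del (log M₀)^(-1/2)`. -/
def b1 (del M0 : ℝ) : ℝ := del * Real.log M0 ^ (-(1 / 2) : ℝ)

theorem cr_smooth (ur : ℝ) : ContDiff ℝ ∞ (cr ur) :=
  contDiff_const.sub (st_smooth.comp ((((contDiff_const.mul contDiff_id).sub
    contDiff_const).div_const 4).add contDiff_const))

theorem cr_one {ur s : ℝ} (h : 2 * s ≤ ur - 4) : cr ur s = 1 := by
  rw [cr, st_zero (by linarith), sub_zero]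

theorem cr_zero {ur s : ℝ} (h : ur ≤ 2 * s) : cr ur s = 0 := by
  rw [cr, st_one (by linarith), sub_self]

theorem cr_nonneg (ur s : ℝ) : 0 ≤ cr ur s := sub_nonneg.2 (st_le_one _)

theorem cr_le (ur s : ℝ) : cr ur s ≤ 1 := by
  have := st_nonneg ((2 * s - ur) / 4 + 1)
  rw [cr]
  linarith

/-- The cut-off for `ur = 0`. -/
def c0 (x : ℝ) : ℝ := 1 - st (x / 2 + 1)

theorem c0_smooth : ContDiff ℝ ∞ c0 :=
  contDiff_const.sub (st_smooth.comp ((contDiff_id.div_const 2).add contDiff_const))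

theorem cr_eq (ur s : ℝ) : cr ur s = c0 (s - ur / 2) := by
  rw [cr, c0]
  congr 2
  ring

theorem c0_bd : Bd (fun _ : Unit => fun _ => (1 : ℝ)) fun _ => c0 := by
  refine ⟨fun _ => c0_smooth, fun k => ?_⟩
  have hc : Continuous (iteratedDeriv k c0) :=
    (c0_smooth.continuous_iteratedDeriv k (by exact_mod_cast le_top))
  obtain ⟨A, hA⟩ := (isCompact_Icc (a := (-2 : ℝ)) (b := 0)).exists_bound_of_continuousOn
    hc.continuousOn
  refine ⟨1 + |A|, by positivity, fun _ s => ?_⟩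
  have hA0 := abs_nonneg A
  rcases lt_or_ge s (-2) with hs | hs
  · have : c0 =ᶠ[𝓝 s] fun _ => (1 : ℝ) := by
      filter_upwards [Iio_mem_nhds hs] with y hy
      rw [c0, st_zero (by linarith [(show y < -2 from hy)]), sub_zero]
    rw [this.iteratedDeriv_eq, iteratedDeriv_const]
    split_ifs <;> simp <;> linarith
  · rcases lt_or_ge 0 s with hs' | hs'
    · have : c0 =ᶠ[𝓝 s] fun _ => (0 : ℝ) := by
        filter_upwards [Ioi_mem_nhds hs'] with y hy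
        rw [c0, st_one (by linarith [(show 0 < y from hy)]), sub_self]
      rw [this.iteratedDeriv_eq, iteratedDeriv_const]
      split_ifs <;> simp <;> linarith
    · have a1 := hA s ⟨hs, hs'⟩
      rw [Real.norm_eq_abs] at a1
      have := le_abs_self A
      linarith

theorem cr_bd {Λ : Type*} (t : Λ → ℝ) : Bd (fun (_ : Λ) (_ : ℝ) => (1 : ℝ)) fun a => cr (t a) := by
  have h := c0_bd.shift fun a : Λ => t a / 2
  have e : (fun a => cr (t a)) = fun (a : Λ) u => c0 (u - t a / 2) := by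
    funext a u
    exact cr_eq _ _
  rw [e]
  exact h

/-- The properties of the correction `μ` used in the weight (`μ = muR μ₁ ur`). -/
structure IsMuR (Cs del : ℝ) (Cd CR : ℕ → ℝ) (M0 ur : ℝ) (μ₁ μ : ℝ → ℝ) : Prop where
  mu1 : IsMu Cs del Cd M0 μ₁
  sm : ContDiff ℝ ∞ μ
  ze : ∀ s ≤ sw Cs M0, μ s = 0
  zej : ∀ (j : ℕ), ∀ s ≤ sw Cs M0, iteratedDeriv j μ s = 0
  eq : ∀ s, 2 * s ≤ ur - 4 → μ s = μ₁ s
  eqj : ∀ (j : ℕ) s, 2 * s ≤ ur - 4 → iteratedDeriv j μ s = iteratedDeriv j μ₁ s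
  zr : ∀ s, ur ≤ 2 * s → μ s = 0
  zrj : ∀ (j : ℕ) s, ur ≤ 2 * s → iteratedDeriv j μ s = 0
  np : ∀ s, μ s ≤ 0
  ge : ∀ s, μ₁ s ≤ μ s
  bd : ∀ (j : ℕ) s, |iteratedDeriv j μ s| ≤ CR j * b1 del M0
  cv : ∀ s, sw Cs M0 + 1 ≤ s → 2 * s ≤ ur - 4 → 0 ≤ deriv (deriv μ) s
  cn : ∀ s, -(CR 2 * b1 del M0) ≤ deriv (deriv μ) s
  ng : ∀ s, deriv (deriv μ) s < 0 →
    (sw Cs M0 < s ∧ s < sw Cs M0 + 1) ∨ (ur - 4 < 2 * s ∧ 2 * s < ur)

theorem iter_Iic {f g : ℝ → ℝ} (hf : ContDiff ℝ ∞ f) (hg : ContDiff ℝ ∞ g) {c : ℝ}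
    (h : ∀ s, s ≤ c → f s = g s) (k : ℕ) {s : ℝ} (hs : s ≤ c) :
    iteratedDeriv k f s = iteratedDeriv k g s := by
  have h1 : EqOn (iteratedDeriv k f) (iteratedDeriv k g) (Iio c) := by
    intro t ht
    refine iteratedDeriv_congr_at ?_ k
    filter_upwards [gt_mem_nhds ht] with u hu
    exact h u hu.le
  have h2 : EqOn (iteratedDeriv k f) (iteratedDeriv k g) (Iic c) :=
    h1.of_subset_closure
      (hf.continuous_iteratedDeriv k (by exact_mod_cast le_top)).continuousOn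
      (hg.continuous_iteratedDeriv k (by exact_mod_cast le_top)).continuousOn
      Iio_subset_Iic_self (by rw [closure_Iio])
  exact h2 hs

theorem iter_zero (k : ℕ) (s : ℝ) : iteratedDeriv k (fun _ : ℝ => (0 : ℝ)) s = 0 := by
  rw [iteratedDeriv_const]
  split_ifs <;> rfl

theorem iter_two (f : ℝ → ℝ) (s : ℝ) : iteratedDeriv 2 f s = deriv (deriv f) s := by
  rw [iteratedDeriv_succ', iteratedDeriv_one]

theorem b0_le_b1 {del M0 : ℝ} (hdel : 0 < del) (hM : Real.exp 1 ≤ M0) : b0 del M0 ≤ b1 del M0 := by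
  have hM0 : 0 < M0 := lt_of_lt_of_le (Real.exp_pos _) hM
  have hl : 1 ≤ Real.log M0 := by rwa [Real.le_log_iff_exp_le hM0]
  rw [b0, b1]
  exact mul_le_mul_of_nonneg_left (Real.rpow_le_rpow_of_exponent_le hl (by norm_num)) hdel.le

theorem b1_pos {del M0 : ℝ} (hdel : 0 < del) (hM : Real.exp 1 ≤ M0) : 0 < b1 del M0 := by
  have hM0 : 0 < M0 := lt_of_lt_of_le (Real.exp_pos _) hM
  have hl : 1 ≤ Real.log M0 := by rwa [Real.le_log_iff_exp_le hM0]
  exact mul_pos hdel (Real.rpow_pos_of_pos (by linarith) _)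

/-- Index set of all corrections. -/
structure IxR (Cd : ℕ → ℝ) where
  Cs : ℝ
  del : ℝ
  M0 : ℝ
  ur : ℝ
  μ : ℝ → ℝ
  hdel : 0 < del
  hM : Real.exp 1 ≤ M0
  h : IsMu Cs del Cd M0 μ

/-- **The correction cut off at the top of the reverse pass.** -/
theorem ex_muR (Cd : ℕ → ℝ) (hCd : ∀ j, 0 ≤ Cd j) : ∃ CR : ℕ → ℝ, (∀ j, 0 ≤ CR j) ∧
    ∀ {Cs del M0 : ℝ} (ur : ℝ) {μ₁ : ℝ → ℝ}, 0 < del → Real.exp 1 ≤ M0 →
      IsMu Cs del Cd M0 μ₁ → IsMuR Cs del Cd CR M0 ur μ₁ (muR μ₁ ur) := by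
  have b2 : Bd (fun (a : IxR Cd) (_ : ℝ) => b1 a.del a.M0) fun a => a.μ := by
    refine ⟨fun a => a.h.sm, fun k => ?_⟩
    rcases k with _ | k
    · refine ⟨6, by norm_num, fun a u => ?_⟩
      rw [iteratedDeriv_zero]
      show |a.μ u| ≤ 6 * (a.del * Real.log a.M0 ^ (-(1 / 2) : ℝ))
      have := a.h.bd u
      linarith
    · refine ⟨Cd k, hCd k, fun a u => ?_⟩
      exact (a.h.bj k u).trans (mul_le_mul_of_nonneg_left (b0_le_b1 a.hdel a.hM) (hCd k))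
  have b3 := b2.mul (cr_bd fun a : IxR Cd => a.ur)
  choose CR hCR H using b3.2
  refine ⟨CR, hCR, ?_⟩
  intro Cs del M0 ur μ₁ hdel hM h
  have hsm : ContDiff ℝ ∞ (muR μ₁ ur) := h.sm.mul (cr_smooth ur)
  have hbd : ∀ (j : ℕ) s, |iteratedDeriv j (muR μ₁ ur) s| ≤ CR j * b1 del M0 :=
    fun j s => H j ⟨Cs, del, M0, ur, μ₁, hdel, hM, h⟩ s
  have hze : ∀ s ≤ sw Cs M0, muR μ₁ ur s = 0 := fun s hs => by rw [muR, h.ze s hs, zero_mul]
  have hzr : ∀ s, ur ≤ 2 * s → muR μ₁ ur s = 0 := fun s hs => by rw [muR, cr_zero hs, mul_zero]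
  have heq : ∀ s, 2 * s ≤ ur - 4 → muR μ₁ ur s = μ₁ s := fun s hs => by
    rw [muR, cr_one hs, mul_one]
  have hzej : ∀ (j : ℕ), ∀ s ≤ sw Cs M0, iteratedDeriv j (muR μ₁ ur) s = 0 := fun j s hs => by
    rw [iter_Iic hsm contDiff_const (g := fun _ => (0 : ℝ)) hze j hs, iter_zero]
  have hzrj : ∀ (j : ℕ) s, ur ≤ 2 * s → iteratedDeriv j (muR μ₁ ur) s = 0 := fun j s hs => by
    rw [iter_Ici hsm contDiff_const (g := fun _ => (0 : ℝ)) (c := ur / 2)
      (fun t ht => hzr t (by linarith)) j (by linarith), iter_zero]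
  have heqj : ∀ (j : ℕ) s, 2 * s ≤ ur - 4 →
      iteratedDeriv j (muR μ₁ ur) s = iteratedDeriv j μ₁ s := fun j s hs =>
    iter_Iic hsm h.sm (c := (ur - 4) / 2) (fun t ht => heq t (by linarith)) j (by linarith)
  have hcv : ∀ s, sw Cs M0 + 1 ≤ s → 2 * s ≤ ur - 4 → 0 ≤ deriv (deriv (muR μ₁ ur)) s := by
    intro s hs hs'
    have := heqj 2 s hs'
    rw [iter_two, iter_two] at this
    rw [this]
    exact h.cv s hs
  refine ⟨h, hsm, hze, hzej, heq, heqj, hzr, hzrj, fun s => ?_, fun s => ?_, hbd, hcv,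
    fun s => ?_, fun s hs => ?_⟩
  · exact mul_nonpos_of_nonpos_of_nonneg (h.nonpos s) (cr_nonneg _ _)
  · have h1 := h.nonpos s
    have h2 := cr_le ur s
    show μ₁ s ≤ μ₁ s * cr ur s
    nlinarith
  · have := (abs_le.1 (hbd 2 s)).1
    rwa [iter_two] at this
  · by_contra hc
    push Not at hc
    obtain ⟨c1, c2⟩ := hc
    rcases le_or_gt s (sw Cs M0) with a | a
    · have := hzej 2 s a
      rw [iter_two] at this
      linarith
    · have a2 := c1 a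
      rcases le_or_gt (2 * s) (ur - 4) with b | b
      · linarith [hcv s a2 b]
      · have := hzrj 2 s (c2 b)
        rw [iter_two] at this
        linarith

variable {Cs del M0 ur : ℝ} {Cd CR : ℕ → ℝ} {μ₁ μ : ℝ → ℝ}

theorem IsMuR.abs_le' (h : IsMuR Cs del Cd CR M0 ur μ₁ μ) {b : ℝ} (hb : ∀ s, |μ₁ s| ≤ b) (s : ℝ) :
    |μ s| ≤ b := by
  rw [abs_of_nonpos (h.np s)]
  have h1 := (abs_le.1 (hb s)).1
  linarith [h.ge s]

/-- `s + μ(s)` is increasing. -/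
theorem IsMuR.mono (h : IsMuR Cs del Cd CR M0 ur μ₁ μ) (hb : CR 1 * b1 del M0 ≤ 1) :
    Monotone fun s => s + μ s := by
  have hd : Differentiable ℝ μ := h.sm.differentiable (by simp)
  refine monotone_of_deriv_nonneg (differentiable_id.add hd) fun s => ?_
  have : deriv (fun s => s + μ s) s = 1 + deriv μ s :=
    ((hasDerivAt_id s).add (hd s).hasDerivAt).deriv
  rw [this]
  have := (abs_le.1 (h.bd 1 s)).1
  rw [iteratedDeriv_one] at this
  linarith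

/-- `E < Cs M₀` implies `s ≤ s_w` (so `μ(s) = 0`). -/
theorem IsMuR.near (h : IsMuR Cs del Cd CR M0 ur μ₁ μ) (hb : CR 1 * b1 del M0 ≤ 1)
    (hM : 0 < Cs * M0) {s : ℝ} (hs : Real.exp (2 * s + 2 * μ s) < Cs * M0) : s ≤ sw Cs M0 := by
  by_contra hc
  push Not at hc
  have h1 := h.mono hb hc.le
  simp only at h1
  rw [h.ze _ le_rfl, add_zero] at h1
  have h2 : 2 * sw Cs M0 ≤ 2 * s + 2 * μ s := by linarith
  have h3 : Real.exp (2 * sw Cs M0) = Cs * M0 := by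
    rw [sw]
    have : 2 * (1 / 2 * Real.log (Cs * M0)) = Real.log (Cs * M0) := by ring
    rw [this, Real.exp_log hM]
  have := Real.exp_le_exp.2 h2
  rw [h3] at this
  linarith

/-- `b₁` is small for large `M₀`. -/
theorem b1_small (del : ℝ) {η : ℝ} (hη : 0 < η) : ∃ Ms : ℝ, ∀ M0, Ms ≤ M0 → b1 del M0 ≤ η := by
  have t1 : Tendsto (fun M0 : ℝ => del * Real.log M0 ^ (-(1 / 2) : ℝ)) atTop (𝓝 (del * 0)) :=
    ((tendsto_rpow_neg_atTop (by norm_num : (0 : ℝ) < 1 / 2)).comp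
      Real.tendsto_log_atTop).const_mul del
  rw [mul_zero] at t1
  obtain ⟨Ms, h⟩ := eventually_atTop.1 (t1.eventually_le_const hη)
  exact ⟨Ms, fun M0 hM0 => h M0 hM0⟩

end Vale.Agent.P088.R2.H313.Mu
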