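import Vale.Agent.P088.R2.H313.MuR

/-!
# P088, stage 3: the correction `μ` cut off between the levels `l₀ + R / 2` and `l₀ + R`
-/

open Set Filter Topology MeasureTheory
open scoped ContDiff

noncomputable section

namespace Vale.Agent.P088.R2.H313.Mu

open Vale.Agent.P088.R2.H313.Ph

/-- The cut-off. -/
def cT (l0 R s : ℝ) : ℝ := 1 - Real.smoothTransition (2 * ((s - l0) / R) - 1)

/-- The cut-off for `l₀ = 0`, `R = 1`. -/
def cU (t : ℝ) : ℝ := 1 - st (2 * t - 1)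

theorem cU_smooth : ContDiff ℝ ∞ cU :=
  contDiff_const.sub (st_smooth.comp ((contDiff_const.mul contDiff_id).sub contDiff_const))

theorem cU_bd : Bd (fun _ : Unit => fun _ => (1 : ℝ)) fun _ => cU := by
  refine ⟨fun _ => cU_smooth, fun k => ?_⟩
  have hc : Continuous (iteratedDeriv k cU) :=
    (cU_smooth.continuous_iteratedDeriv k (by exact_mod_cast le_top))
  obtain ⟨A, hA⟩ := (isCompact_Icc (a := (0 : ℝ)) (b := 2)).exists_bound_of_continuousOn
    hc.continuousOn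
  refine ⟨1 + |A|, by positivity, fun _ s => ?_⟩
  have hA0 := abs_nonneg A
  rcases lt_or_ge s 0 with hs | hs
  · have : cU =ᶠ[𝓝 s] fun _ => (1 : ℝ) := by
      filter_upwards [Iio_mem_nhds hs] with y hy
      rw [cU, st_zero (by linarith [(show y < 0 from hy)]), sub_zero]
    rw [this.iteratedDeriv_eq, iteratedDeriv_const]
    split_ifs <;> simp <;> linarith
  · rcases lt_or_ge 2 s with hs' | hs'
    · have : cU =ᶠ[𝓝 s] fun _ => (0 : ℝ) := by
        filter_upwards [Ioi_mem_nhds hs'] with y hy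
        rw [cU, st_one (by linarith [(show 2 < y from hy)]), sub_self]
      rw [this.iteratedDeriv_eq, iteratedDeriv_const]
      split_ifs <;> simp <;> linarith
    · have a1 := hA s ⟨hs, hs'⟩
      rw [Real.norm_eq_abs] at a1
      have := le_abs_self A
      linarith

theorem cT_eq (l0 R : ℝ) : cT l0 R = fun s => cU (R⁻¹ * (s - l0)) := by
  funext s
  rw [cT, cU, st]
  congr 3
  rw [div_eq_inv_mul]

theorem cT_smooth (l0 R : ℝ) : ContDiff ℝ ∞ (cT l0 R) := by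
  rw [cT_eq]
  exact cU_smooth.comp (contDiff_const.mul (contDiff_id.sub contDiff_const))

theorem cT_bd : ∃ A : ℕ → ℝ, (∀ j, 0 ≤ A j) ∧ ∀ l0 R : ℝ, 0 < R → ∀ (j : ℕ) s,
    |iteratedDeriv j (cT l0 R) s| ≤ A j * (1 / R) ^ j := by
  choose A hA H using cU_bd.2
  refine ⟨A, hA, fun l0 R hR j s => ?_⟩
  have e1 : iteratedDeriv j (cT l0 R) s = iteratedDeriv j (fun t => cU (R⁻¹ * t)) (s - l0) := by
    rw [cT_eq]
    exact iteratedDeriv_shift j (fun t => cU (R⁻¹ * t)) l0 s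
  rw [e1, iteratedDeriv_comp_const_mul (cU_smooth.of_le (by exact_mod_cast le_top)), abs_mul,
    abs_of_pos (by positivity : 0 < R⁻¹ ^ j), mul_comm, one_div]
  refine mul_le_mul_of_nonneg_right ?_ (by positivity)
  have := H j () (R⁻¹ * (s - l0))
  rwa [mul_one] at this

variable {Cs del M0 : ℝ} {Cd : ℕ → ℝ} {μ : ℝ → ℝ}

/-- The derivatives in the power range. -/
theorem IsMu.pw (h : IsMu Cs del Cd M0 μ) (hdel : 0 ≤ del) (hC : ∀ j, 0 ≤ Cd j) (hM : 1 ≤ M0)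
    (j : ℕ) {s : ℝ} (hs : sz M0 + 1 ≤ s) : |iteratedDeriv (j + 1) μ s| ≤
      (1 + 3 / 2 * Cd (j - 1)) * dl del * (s ^ (-(1 / 2) : ℝ) * (1 / s) ^ (j + 1)) := by
  have hz : 0 ≤ sz M0 := mul_nonneg (by norm_num) (Real.log_nonneg hM)
  have hs0 : 0 < s := by linarith
  have hd : 0 ≤ dl del := mul_nonneg hdel (by positivity)
  have e1 : s ^ (-(3 / 2) : ℝ) = s ^ (-(1 / 2) : ℝ) * (1 / s) := by
    have := Real.rpow_add hs0 (-(1 / 2) : ℝ) (-1)
    rw [Real.rpow_neg_one] at this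
    rw [one_div s, ← this]
    norm_num
  have e2 : s ^ (-(5 / 2) : ℝ) = s ^ (-(1 / 2) : ℝ) * (1 / s) ^ 2 := by
    have h1 := Real.rpow_add hs0 (-(1 / 2) : ℝ) (-2)
    have h2 : s ^ (-2 : ℝ) = (1 / s) ^ 2 := by
      rw [Real.rpow_neg hs0.le, one_div, inv_pow]
      norm_num
    rw [h2] at h1
    rw [← h1]
    norm_num
  have hp : 0 < s ^ (-(1 / 2) : ℝ) := Real.rpow_pos_of_pos hs0 _
  rcases j with _ | j
  · rw [zero_add, iteratedDeriv_one, h.p1 s hs, abs_neg, abs_of_nonneg (mul_nonneg hd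
      (Real.rpow_nonneg hs0.le _)), pow_one, e1]
    have h0 := hC (0 - 1)
    have : 0 ≤ dl del * (s ^ (-(1 / 2) : ℝ) * (1 / s)) := by positivity
    nlinarith [mul_nonneg h0 this]
  · refine (h.br j s hs).trans ?_
    rw [h.p2 s hs, e2]
    have h0 := hC j
    have e3 : 3 / 2 * dl del * (s ^ (-(1 / 2) : ℝ) * (1 / s) ^ 2) / s ^ j =
        3 / 2 * (dl del * (s ^ (-(1 / 2) : ℝ) * (1 / s) ^ (j + 1 + 1))) := by
      rw [div_eq_mul_one_div, ← one_div_pow, add_assoc, pow_add]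
      ring
    rw [e3, show j + 1 - 1 = j from rfl]
    have : 0 ≤ dl del * (s ^ (-(1 / 2) : ℝ) * (1 / s) ^ (j + 1 + 1)) := by positivity
    nlinarith [mul_nonneg h0 this]

/-- The derivatives of the product in the range `s ≥ R / 2`. -/
theorem ex_muT (Cd : ℕ → ℝ) (hCd : ∀ j, 0 ≤ Cd j) : ∃ D : ℕ → ℝ, (∀ j, 0 ≤ D j) ∧
    ∀ {Cs del M0 : ℝ} {μ : ℝ → ℝ}, 0 < del → 1 ≤ M0 → IsMu Cs del Cd M0 μ →
      ∀ l0 R s : ℝ, 0 ≤ l0 → 1 ≤ R → sz M0 + 1 ≤ R / 2 →
        del * R ^ (-(1 / 2) : ℝ) ≤ b1 del M0 → l0 + R / 2 ≤ s → ∀ j : ℕ,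
        |iteratedDeriv j (fun s => μ s * cT l0 R s) s| ≤ D j * (1 / R) ^ j * b1 del M0 := by
  obtain ⟨A, hA, HA⟩ := cT_bd
  -- the constants of `μ`
  set B : ℕ → ℝ := fun i => 6 + (1 + 3 / 2 * Cd (i - 1 - 1)) * (131 / 100 : ℝ) ^ (3 / 2 : ℝ) *
    (2 * 2 ^ i) with hB
  have hB0 : ∀ i, 0 ≤ B i := fun i => by
    have := hCd (i - 1 - 1)
    rw [hB]
    positivity
  refine ⟨fun j => ∑ i ∈ Finset.range (j + 1), (j.choose i : ℝ) * (B i * A (j - i)),
    fun j => Finset.sum_nonneg fun i _ => mul_nonneg (Nat.cast_nonneg _)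
      (mul_nonneg (hB0 i) (hA _)), ?_⟩
  intro Cs del M0 μ hdel hM h l0 R s hl hR hz hb hs j
  have hR0 : 0 < R := by linarith
  have hs1 : R / 2 ≤ s := by linarith
  have hs0 : 0 < s := by linarith
  have hbm : 0 ≤ b1 del M0 := (mul_nonneg hdel.le (Real.rpow_nonneg hR0.le _)).trans hb
  have hμ : ∀ i : ℕ, |iteratedDeriv i μ s| ≤ B i * (1 / R) ^ i * b1 del M0 := by
    intro i
    have hk : 0 ≤ (1 + 3 / 2 * Cd (i - 1 - 1)) * (131 / 100 : ℝ) ^ (3 / 2 : ℝ) * (2 * 2 ^ i) := by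
      have := hCd (i - 1 - 1)
      positivity
    rcases i with _ | i
    · rw [iteratedDeriv_zero, pow_zero, mul_one]
      have h1 := h.bd s
      have h2 : |μ s| ≤ 6 * b1 del M0 := by
        rw [b1]
        linarith
      have : B 0 = 6 + (1 + 3 / 2 * Cd (0 - 1 - 1)) * (131 / 100 : ℝ) ^ (3 / 2 : ℝ) *
        (2 * 2 ^ 0) := rfl
      rw [this]
      nlinarith [mul_nonneg hk hbm]
    · have h1 := h.pw hdel.le hCd hM i (s := s) (by linarith)
      have h2 : s ^ (-(1 / 2) : ℝ) ≤ 2 * R ^ (-(1 / 2) : ℝ) := by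
        calc s ^ (-(1 / 2) : ℝ) ≤ (R / 2) ^ (-(1 / 2) : ℝ) :=
              Real.rpow_le_rpow_of_nonpos (by linarith) hs1 (by norm_num)
          _ = R ^ (-(1 / 2) : ℝ) * 2 ^ (1 / 2 : ℝ) := by
              rw [Real.div_rpow hR0.le (by norm_num), Real.rpow_neg (by norm_num : (0 : ℝ) ≤ 2),
                div_inv_eq_mul]
          _ ≤ R ^ (-(1 / 2) : ℝ) * 2 := by
              refine mul_le_mul_of_nonneg_left ?_ (Real.rpow_nonneg hR0.le _)
              calc (2 : ℝ) ^ (1 / 2 : ℝ) ≤ 2 ^ (1 : ℝ) :=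
                    Real.rpow_le_rpow_of_exponent_le (by norm_num) (by norm_num)
                _ = 2 := Real.rpow_one 2
          _ = 2 * R ^ (-(1 / 2) : ℝ) := by ring
      have h3 : (1 / s) ^ (i + 1) ≤ 2 ^ (i + 1) * (1 / R) ^ (i + 1) := by
        rw [← mul_pow]
        refine pow_le_pow_left₀ (by positivity) ?_ _
        rw [mul_one_div, div_le_div_iff₀ hs0 hR0]
        linarith
      have h4 : s ^ (-(1 / 2) : ℝ) * (1 / s) ^ (i + 1) ≤
          2 * R ^ (-(1 / 2) : ℝ) * (2 ^ (i + 1) * (1 / R) ^ (i + 1)) :=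
        mul_le_mul h2 h3 (by positivity) (by positivity)
      have hc := hCd (i - 1)
      have h5 : 0 ≤ (1 + 3 / 2 * Cd (i - 1)) * dl del := by
        have : 0 ≤ dl del := mul_nonneg hdel.le (by positivity)
        positivity
      calc |iteratedDeriv (i + 1) μ s| ≤ _ := h1
        _ ≤ (1 + 3 / 2 * Cd (i - 1)) * dl del *
            (2 * R ^ (-(1 / 2) : ℝ) * (2 ^ (i + 1) * (1 / R) ^ (i + 1))) :=
          mul_le_mul_of_nonneg_left h4 h5
        _ = (1 + 3 / 2 * Cd (i - 1)) * (131 / 100 : ℝ) ^ (3 / 2 : ℝ) * (2 * 2 ^ (i + 1)) *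
            (1 / R) ^ (i + 1) * (del * R ^ (-(1 / 2) : ℝ)) := by
          rw [dl]
          ring
        _ ≤ (1 + 3 / 2 * Cd (i - 1)) * (131 / 100 : ℝ) ^ (3 / 2 : ℝ) * (2 * 2 ^ (i + 1)) *
            (1 / R) ^ (i + 1) * b1 del M0 :=
          mul_le_mul_of_nonneg_left hb (by positivity)
        _ ≤ B (i + 1) * (1 / R) ^ (i + 1) * b1 del M0 := by
          have e : B (i + 1) = 6 + (1 + 3 / 2 * Cd (i - 1)) * (131 / 100 : ℝ) ^ (3 / 2 : ℝ) *
            (2 * 2 ^ (i + 1)) := rfl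
          rw [e]
          have : 0 ≤ (1 / R) ^ (i + 1) * b1 del M0 := by positivity
          nlinarith
  have hc : ContDiff ℝ ∞ (cT l0 R) := cT_smooth l0 R
  have hmul : iteratedDeriv j (fun s => μ s * cT l0 R s) s =
      ∑ i ∈ Finset.range (j + 1), (j.choose i : ℝ) * iteratedDeriv i μ s *
        iteratedDeriv (j - i) (cT l0 R) s :=
    iteratedDeriv_mul (h.sm.contDiffAt.of_le (by exact_mod_cast le_top))
      (hc.contDiffAt.of_le (by exact_mod_cast le_top))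
  rw [hmul]
  refine (Finset.abs_sum_le_sum_abs _ _).trans ?_
  rw [Finset.sum_mul, Finset.sum_mul]
  refine Finset.sum_le_sum fun i hi => ?_
  have hij : i ≤ j := by
    have := Finset.mem_range.1 hi
    omega
  rw [abs_mul, abs_mul, abs_of_nonneg (Nat.cast_nonneg _ : (0 : ℝ) ≤ (j.choose i : ℝ))]
  have e : (1 / R) ^ j = (1 / R) ^ i * (1 / R) ^ (j - i) := by
    rw [← pow_add]
    congr 1
    omega
  calc (j.choose i : ℝ) * |iteratedDeriv i μ s| * |iteratedDeriv (j - i) (cT l0 R) s|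
      ≤ (j.choose i : ℝ) * (B i * (1 / R) ^ i * b1 del M0) * (A (j - i) * (1 / R) ^ (j - i)) :=
        mul_le_mul (mul_le_mul_of_nonneg_left (hμ i) (Nat.cast_nonneg _)) (HA l0 R hR0 _ _)
          (abs_nonneg _) (mul_nonneg (Nat.cast_nonneg _) (mul_nonneg (mul_nonneg (hB0 i)
            (by positivity)) hbm))
    _ = _ := by
      rw [e]
      ring

end Vale.Agent.P088.R2.H313.Mu
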