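import Mathlib

/-!
# P088, stage 3, row PHI: families with relative derivative bounds
-/

open Set Filter Topology MeasureTheory
open scoped ContDiff

noncomputable section

namespace Vale.Agent.P088.R2.H313.Ph

variable {Λ : Type*}

/-- The derivatives of all orders of the functions `f a` are bounded by constants (independent of
`a`) times `w a`. -/
def Bd (w f : Λ → ℝ → ℝ) : Prop :=
  (∀ a, ContDiff ℝ ∞ (f a)) ∧
    ∀ k : ℕ, ∃ C : ℝ, 0 ≤ C ∧ ∀ a u, |iteratedDeriv k (f a) u| ≤ C * w a u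

variable {w v f g : Λ → ℝ → ℝ}

theorem Bd.deriv (h : Bd w f) : Bd w fun a => deriv (f a) := by
  refine ⟨fun a => ((contDiff_infty_iff_deriv.1 (h.1 a)).2), fun k => ?_⟩
  obtain ⟨C, hC, h1⟩ := h.2 (k + 1)
  refine ⟨C, hC, fun a u => ?_⟩
  have := h1 a u
  rwa [iteratedDeriv_succ'] at this

theorem Bd.add (hf : Bd w f) (hg : Bd w g) : Bd w fun a u => f a u + g a u := by
  refine ⟨fun a => (hf.1 a).add (hg.1 a), fun k => ?_⟩
  obtain ⟨C, hC, h1⟩ := hf.2 k
  obtain ⟨D, hD, h2⟩ := hg.2 k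
  refine ⟨C + D, by positivity, fun a u => ?_⟩
  have e : iteratedDeriv k (fun u => f a u + g a u) u =
      iteratedDeriv k (f a) u + iteratedDeriv k (g a) u :=
    iteratedDeriv_fun_add (((hf.1 a).of_le (by exact_mod_cast le_top)).contDiffAt)
      (((hg.1 a).of_le (by exact_mod_cast le_top)).contDiffAt)
  rw [e, add_mul]
  exact (abs_add_le _ _).trans (add_le_add (h1 a u) (h2 a u))

theorem Bd.mono (hf : Bd w f) {C : ℝ} (hC : 0 ≤ C) (h : ∀ a u, w a u ≤ C * v a u) : Bd v f := by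
  refine ⟨hf.1, fun k => ?_⟩
  obtain ⟨D, hD, h1⟩ := hf.2 k
  refine ⟨D * C, by positivity, fun a u => (h1 a u).trans ?_⟩
  rw [mul_assoc]
  exact mul_le_mul_of_nonneg_left (h a u) hD

theorem Bd.mul (hf : Bd w f) (hg : Bd (fun _ _ => 1) g) : Bd w fun a u => f a u * g a u := by
  refine ⟨fun a => (hf.1 a).mul (hg.1 a), fun k => ?_⟩
  induction k generalizing f g with
  | zero =>
    obtain ⟨C, hC, h1⟩ := hf.2 0
    obtain ⟨D, hD, h2⟩ := hg.2 0
    refine ⟨C * D, by positivity, fun a u => ?_⟩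
    have a1 := h1 a u
    have a2 := h2 a u
    simp only [iteratedDeriv_zero] at a1 a2 ⊢
    rw [abs_mul]
    have h3 : 0 ≤ C * w a u := (abs_nonneg _).trans a1
    calc |f a u| * |g a u| ≤ (C * w a u) * (D * 1) :=
          mul_le_mul a1 a2 (abs_nonneg _) h3
      _ = C * D * w a u := by ring
  | succ k ih =>
    obtain ⟨C, hC, h1⟩ := ih hf.deriv hg
    obtain ⟨D, hD, h2⟩ := ih hf hg.deriv
    refine ⟨C + D, by positivity, fun a u => ?_⟩
    have e : _root_.deriv (fun u => f a u * g a u) = fun u =>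
        (_root_.deriv (f a) u * g a u) + (f a u * _root_.deriv (g a) u) := by
      funext u
      exact deriv_fun_mul ((hf.1 a).differentiable (by simp) u) ((hg.1 a).differentiable (by simp) u)
    have c1 : ContDiff ℝ ∞ fun u => _root_.deriv (f a) u * g a u :=
      (hf.deriv.1 a).mul (hg.1 a)
    have c2 : ContDiff ℝ ∞ fun u => f a u * _root_.deriv (g a) u :=
      (hf.1 a).mul (hg.deriv.1 a)
    rw [iteratedDeriv_succ', e, iteratedDeriv_fun_add
      ((c1.of_le (by exact_mod_cast le_top)).contDiffAt)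
      ((c2.of_le (by exact_mod_cast le_top)).contDiffAt), add_mul]
    exact (abs_add_le _ _).trans (add_le_add (h1 a u) (h2 a u))

theorem Bd.const {c : Λ → ℝ} {C : ℝ} (hc : ∀ a, |c a| ≤ C) :
    Bd (fun (_ : Λ) (_ : ℝ) => (1 : ℝ)) fun a _ => c a := by
  refine ⟨fun a => contDiff_const, fun k => ⟨|C|, abs_nonneg _, fun a u => ?_⟩⟩
  rw [iteratedDeriv_const]
  split_ifs
  · rw [mul_one]
    exact (hc a).trans (le_abs_self C)
  · simp

theorem iteratedDeriv_shift (k : ℕ) (F : ℝ → ℝ) (t u : ℝ) :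
    iteratedDeriv k (fun x => F (x - t)) u = iteratedDeriv k F (u - t) := by
  rw [iteratedDeriv_comp_sub_const]

theorem Bd.shift {F W : ℝ → ℝ} (h : Bd (fun _ : Unit => W) fun _ => F) (t : Λ → ℝ) :
    Bd (fun a u => W (u - t a)) fun a u => F (u - t a) := by
  refine ⟨fun a => (h.1 ()).comp (contDiff_id.sub contDiff_const), fun k => ?_⟩
  obtain ⟨C, hC, h1⟩ := h.2 k
  refine ⟨C, hC, fun a u => ?_⟩
  rw [iteratedDeriv_shift]
  exact h1 () (u - t a)

/-- A positive function whose derivatives are bounded by it near both ends. -/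
theorem bd_self' {F : ℝ → ℝ} (hF : ContDiff ℝ ∞ F) {p q : ℝ} (hpos : ∀ s, 0 < F s)
    (h1 : ∀ k : ℕ, ∃ C : ℝ, ∀ s < p, |iteratedDeriv k F s| ≤ C * F s)
    (h2 : ∀ k : ℕ, ∃ C : ℝ, ∀ s, q < s → |iteratedDeriv k F s| ≤ C * F s) :
    Bd (fun _ : Unit => F) fun _ => F := by
  refine ⟨fun _ => hF, fun k => ?_⟩
  have hc : Continuous (iteratedDeriv k F) :=
    (hF.continuous_iteratedDeriv k (by exact_mod_cast le_top))
  obtain ⟨A, hA⟩ := (isCompact_Icc (a := p) (b := q)).exists_bound_of_continuousOn hc.continuousOn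
  have hcF : Continuous fun s => (F s)⁻¹ := hF.continuous.inv₀ fun s => (hpos s).ne'
  obtain ⟨B, hB⟩ := (isCompact_Icc (a := p) (b := q)).exists_bound_of_continuousOn hcF.continuousOn
  obtain ⟨C, hC⟩ := h1 k
  obtain ⟨D, hD⟩ := h2 k
  refine ⟨|C| + |D| + |A| * |B|, by positivity, fun _ s => ?_⟩
  show |iteratedDeriv k F s| ≤ (|C| + |D| + |A| * |B|) * F s
  have hp := hpos s
  have hAB : 0 ≤ |A| * |B| := by positivity
  have hC0 := abs_nonneg C
  have hD0 := abs_nonneg D
  rcases lt_or_ge s p with hs | hs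
  · calc |iteratedDeriv k F s| ≤ C * F s := hC s hs
      _ ≤ |C| * F s := mul_le_mul_of_nonneg_right (le_abs_self C) hp.le
      _ ≤ _ := by nlinarith [mul_nonneg hD0 hp.le, mul_nonneg hAB hp.le]
  · rcases lt_or_ge q s with hs' | hs'
    · calc |iteratedDeriv k F s| ≤ D * F s := hD s hs'
        _ ≤ |D| * F s := mul_le_mul_of_nonneg_right (le_abs_self D) hp.le
        _ ≤ _ := by nlinarith [mul_nonneg hC0 hp.le, mul_nonneg hAB hp.le]
    · have a1 := hA s ⟨hs, hs'⟩
      have a2 := hB s ⟨hs, hs'⟩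
      rw [Real.norm_eq_abs] at a1 a2
      have a3 : 1 ≤ |B| * F s := by
        have : |(F s)⁻¹| ≤ |B| := a2.trans (le_abs_self B)
        rw [abs_of_pos (inv_pos.2 hp)] at this
        calc (1 : ℝ) = (F s)⁻¹ * F s := (inv_mul_cancel₀ hp.ne').symm
          _ ≤ |B| * F s := mul_le_mul_of_nonneg_right this hp.le
      calc |iteratedDeriv k F s| ≤ |A| := a1.trans (le_abs_self A)
        _ ≤ |A| * (|B| * F s) := le_mul_of_one_le_right (abs_nonneg _) a3
        _ ≤ (|C| + |D| + |A| * |B|) * F s := by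
          nlinarith [mul_nonneg hC0 hp.le, mul_nonneg hD0 hp.le]

theorem iteratedDeriv_cexp (c : ℝ) : ∀ k : ℕ, ∀ s,
    iteratedDeriv k (fun s => c * Real.exp s) s = c * Real.exp s := by
  intro k
  induction k with
  | zero => intro s; simp
  | succ k ih =>
    intro s
    rw [iteratedDeriv_succ]
    have : iteratedDeriv k (fun s => c * Real.exp s) = fun s => c * Real.exp s := funext ih
    rw [this]
    simp

theorem iteratedDeriv_cexpn (d : ℝ) : ∀ k : ℕ, ∀ s,
    iteratedDeriv k (fun s => d * Real.exp (-s)) s = (-1) ^ k * (d * Real.exp (-s)) := by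
  intro k
  induction k with
  | zero => intro s; simp
  | succ k ih =>
    intro s
    rw [iteratedDeriv_succ]
    have : iteratedDeriv k (fun s => d * Real.exp (-s)) =
      fun s => (-1) ^ k * (d * Real.exp (-s)) := funext ih
    rw [this]
    have h3 : HasDerivAt (fun s : ℝ => (-1) ^ k * (d * Real.exp (-s)))
        ((-1) ^ k * (d * (Real.exp (-s) * (-1)))) s :=
      (((hasDerivAt_neg s).exp).const_mul d).const_mul _
    rw [h3.deriv]
    ring

/-- left end `c e^s` -/
theorem end_exp {F : ℝ → ℝ} {c p : ℝ} (hpos : ∀ s, 0 < F s)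
    (h1 : ∀ s ≤ p, F s = c * Real.exp s) (k : ℕ) :
    ∃ C : ℝ, ∀ s < p, |iteratedDeriv k F s| ≤ C * F s := by
  refine ⟨1, fun s hs => ?_⟩
  have : F =ᶠ[𝓝 s] fun s => c * Real.exp s := by
    filter_upwards [Iio_mem_nhds hs] with y hy
    exact h1 y (le_of_lt hy)
  rw [this.iteratedDeriv_eq, iteratedDeriv_cexp, ← h1 s hs.le, abs_of_pos (hpos s), one_mul]

/-- right end `d e^{-s}` -/
theorem end_expn {F : ℝ → ℝ} {d q : ℝ} (hpos : ∀ s, 0 < F s)
    (h2 : ∀ s, q ≤ s → F s = d * Real.exp (-s)) (k : ℕ) :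
    ∃ C : ℝ, ∀ s, q < s → |iteratedDeriv k F s| ≤ C * F s := by
  refine ⟨1, fun s hs => ?_⟩
  have : F =ᶠ[𝓝 s] fun s => d * Real.exp (-s) := by
    filter_upwards [Ioi_mem_nhds hs] with y hy
    exact h2 y (le_of_lt hy)
  rw [this.iteratedDeriv_eq, iteratedDeriv_cexpn, ← h2 s hs.le, abs_mul, abs_pow, abs_neg, abs_one,
    one_pow, one_mul, abs_of_pos (hpos s), one_mul]

/-- left end `1` -/
theorem end_one {F : ℝ → ℝ} {p : ℝ} (h1 : ∀ s ≤ p, F s = 1) (k : ℕ) :
    ∃ C : ℝ, ∀ s < p, |iteratedDeriv k F s| ≤ C * F s := by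
  refine ⟨1, fun s hs => ?_⟩
  have : F =ᶠ[𝓝 s] fun _ => (1 : ℝ) := by
    filter_upwards [Iio_mem_nhds hs] with y hy
    exact h1 y (le_of_lt hy)
  rw [this.iteratedDeriv_eq, iteratedDeriv_const, h1 s hs.le]
  split_ifs <;> simp

/-! ## The smooth step and the tail profile -/

/-- The smooth step. -/
def st (x : ℝ) : ℝ := Real.smoothTransition x

theorem st_smooth : ContDiff ℝ ∞ st := Real.smoothTransition.contDiff
theorem st_nonneg (x : ℝ) : 0 ≤ st x := Real.smoothTransition.nonneg x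
theorem st_le_one (x : ℝ) : st x ≤ 1 := Real.smoothTransition.le_one x
theorem st_zero {x : ℝ} (h : x ≤ 0) : st x = 0 := Real.smoothTransition.zero_of_nonpos h
theorem st_one {x : ℝ} (h : 1 ≤ x) : st x = 1 := Real.smoothTransition.one_of_one_le h

theorem st_bd : Bd (fun _ : Unit => fun _ => (1 : ℝ)) fun _ => st := by
  refine ⟨fun _ => st_smooth, fun k => ?_⟩
  have hc : Continuous (iteratedDeriv k st) :=
    (st_smooth.continuous_iteratedDeriv k (by exact_mod_cast le_top))
  obtain ⟨A, hA⟩ := (isCompact_Icc (a := (0 : ℝ)) (b := 1)).exists_bound_of_continuousOn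
    hc.continuousOn
  refine ⟨1 + |A|, by positivity, fun _ s => ?_⟩
  have hA0 := abs_nonneg A
  rcases lt_or_ge s 0 with hs | hs
  · have : st =ᶠ[𝓝 s] fun _ => (0 : ℝ) := by
      filter_upwards [Iio_mem_nhds hs] with y hy
      exact st_zero (le_of_lt hy)
    rw [this.iteratedDeriv_eq, iteratedDeriv_const]
    split_ifs <;> simp <;> linarith
  · rcases lt_or_ge 1 s with hs' | hs'
    · have : st =ᶠ[𝓝 s] fun _ => (1 : ℝ) := by
        filter_upwards [Ioi_mem_nhds hs'] with y hy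
        exact st_one (le_of_lt hy)
      rw [this.iteratedDeriv_eq, iteratedDeriv_const]
      split_ifs <;> simp <;> linarith
    · have a1 := hA s ⟨hs, hs'⟩
      rw [Real.norm_eq_abs] at a1
      have := le_abs_self A
      linarith

/-- `1` on the left, `e^{-t}` on the right. -/
def hh (t : ℝ) : ℝ := (1 - st t) + st t * Real.exp (-t)

theorem hh_smooth : ContDiff ℝ ∞ hh :=
  (contDiff_const.sub st_smooth).add (st_smooth.mul (Real.contDiff_exp.comp contDiff_neg))

theorem hh_left {t : ℝ} (h : t ≤ 0) : hh t = 1 := by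
  unfold hh
  rw [st_zero h]
  ring

theorem hh_right {t : ℝ} (h : 1 ≤ t) : hh t = Real.exp (-t) := by
  unfold hh
  rw [st_one h]
  ring

theorem hh_pos (t : ℝ) : 0 < hh t := by
  rcases le_or_gt t 0 with h | h
  · rw [hh_left h]; norm_num
  · have h1 : Real.exp (-t) ≤ 1 := Real.exp_le_one_iff.2 (by linarith)
    have h2 := Real.exp_pos (-t)
    have h3 : hh t = 1 - st t * (1 - Real.exp (-t)) := by unfold hh; ring
    have h4 := st_le_one t
    have h5 := st_nonneg t
    rw [h3]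
    nlinarith

theorem hh_le_one (t : ℝ) : hh t ≤ 1 := by
  rcases le_or_gt t 0 with h | h
  · rw [hh_left h]
  · have h1 : Real.exp (-t) ≤ 1 := Real.exp_le_one_iff.2 (by linarith)
    have h3 : hh t = 1 - st t * (1 - Real.exp (-t)) := by unfold hh; ring
    have h5 := st_nonneg t
    rw [h3]
    nlinarith

theorem hh_bd : Bd (fun _ : Unit => hh) fun _ => hh :=
  bd_self' (p := 0) (q := 1) hh_smooth hh_pos (end_one fun _ hs => hh_left hs)
    (end_expn (d := 1) hh_pos fun s hs => by rw [hh_right hs, one_mul])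

end Vale.Agent.P088.R2.H313.Ph
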