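import Vale.Agent.P088.R2.H313.PhiA

/-!
# P088, stage 3, row PHI: the rate function
-/

open Set Filter Topology MeasureTheory
open scoped ContDiff

noncomputable section

namespace Vale.Agent.P088.R2.H313.Ph

/-- Parameters: rate `ρ` in the window `ν E ≤ N ≤ nm E`. -/
structure Pr where
  ρ : ℝ
  κ : ℝ
  nm : ℝ
  ν : ℝ
  C1 : ℝ
  C2 : ℝ
  C3 : ℝ
  al : ℝ
  be : ℝ
  hρ : 0 < ρ
  hρ1 : ρ < 1
  hκ : 0 < κ
  hnm : 0 < nm
  hν : 0 < ν
  h1 : 0 < C1
  h2 : 0 < C2
  h3 : 0 < C3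
  hκn : κ ≤ ρ * nm
  hνn : ν ≤ nm
  hc : C2 * ν ≤ ρ / 40
  hal : 0 < al
  hal1 : al < 1
  hbe : 0 < be

namespace Pr

variable (p : Pr)

def v1 : ℝ := -Real.log p.nm
def s1 : ℝ := p.v1 - 1

/-- The rate on the left. -/
def Rl (s : ℝ) : ℝ := p.κ * Real.exp s * (1 - st (s - p.s1)) + p.ρ * st (s - p.s1)

/-- `log (N / M₀)` at the left end of the window -/
def hv : ℝ := p.κ * Real.exp p.s1 + ∫ t in p.s1..p.v1, p.Rl t
def b : ℝ := (p.hv + Real.log (p.nm / p.ν) + 1) / (1 - p.ρ)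
def s2 : ℝ := p.v1 + p.b
def X0 : ℝ := Real.exp (p.hv + p.ρ * p.b)
def X : ℝ := Real.exp (p.hv + p.ρ * p.b + 1.2)

theorem exp_v1 : Real.exp (-p.v1) = p.nm := by
  unfold v1
  rw [neg_neg, Real.exp_log p.hnm]

theorem ρ0 : 0 < 1 - p.ρ := by linarith [p.hρ1]

theorem left_le {s : ℝ} (h : s ≤ p.v1) : p.κ * Real.exp s ≤ p.ρ := by
  have h1 : Real.exp s ≤ Real.exp p.v1 := Real.exp_le_exp.2 h
  have h2 : Real.exp p.v1 * p.nm = 1 := by
    rw [← p.exp_v1, ← Real.exp_add]; simp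
  have h3 := p.hκn
  have h4 := p.hκ
  calc p.κ * Real.exp s ≤ p.κ * Real.exp p.v1 := mul_le_mul_of_nonneg_left h1 h4.le
    _ ≤ (p.ρ * p.nm) * Real.exp p.v1 := mul_le_mul_of_nonneg_right h3 (Real.exp_pos _).le
    _ = p.ρ * (Real.exp p.v1 * p.nm) := by ring
    _ = p.ρ := by rw [h2, mul_one]

theorem Rl_pos (s : ℝ) : 0 ≤ p.Rl s := by
  unfold Rl
  have h1 := st_nonneg (s - p.s1)
  have h2 := st_le_one (s - p.s1)
  have h3 := p.hκ
  have h4 := Real.exp_pos s
  have h5 := p.hρ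
  have h6 : 0 ≤ 1 - st (s - p.s1) := by linarith
  positivity

theorem Rl_le {s : ℝ} (h : s ≤ p.v1) : p.Rl s ≤ p.ρ := by
  unfold Rl
  have h1 := p.left_le h
  have h2 := st_nonneg (s - p.s1)
  have h3 := st_le_one (s - p.s1)
  nlinarith

theorem Rl_cont : Continuous p.Rl := by
  have hs : Continuous fun s => st (s - p.s1) :=
    st_smooth.continuous.comp (continuous_id.sub continuous_const)
  unfold Rl
  exact ((continuous_const.mul Real.continuous_exp).mul (continuous_const.sub hs)).add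
    (continuous_const.mul hs)

theorem hv_pos : 0 < p.hv := by
  unfold hv
  have h1 : 0 ≤ ∫ t in p.s1..p.v1, p.Rl t :=
    intervalIntegral.integral_nonneg (by unfold s1; linarith) fun t _ => p.Rl_pos t
  have h2 : 0 < p.κ * Real.exp p.s1 := mul_pos p.hκ (Real.exp_pos _)
  linarith

theorem hv_le : p.hv ≤ 2 := by
  unfold hv
  have h1 : ∫ t in p.s1..p.v1, p.Rl t ≤ ∫ _t in p.s1..p.v1, p.ρ :=
    intervalIntegral.integral_mono_on (by unfold s1; linarith)
      (p.Rl_cont.intervalIntegrable _ _) (continuous_const.intervalIntegrable _ _)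
      fun t ht => p.Rl_le ht.2
  rw [intervalIntegral.integral_const, smul_eq_mul] at h1
  have h2 := p.left_le (s := p.s1) (by unfold s1; linarith)
  have h3 : p.v1 - p.s1 = 1 := by unfold s1; ring
  rw [h3, one_mul] at h1
  linarith [p.hρ1]

theorem log_nonneg : 0 ≤ Real.log (p.nm / p.ν) := by
  refine Real.log_nonneg ?_
  rw [le_div_iff₀ p.hν, one_mul]
  exact p.hνn

theorem b_ge : 1 ≤ p.b := by
  unfold b
  rw [le_div_iff₀ p.ρ0]
  linarith [p.hv_pos, p.log_nonneg, p.hρ, p.ρ0]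

theorem b_mul : (1 - p.ρ) * p.b = p.hv + Real.log (p.nm / p.ν) + 1 := by
  unfold b
  rw [mul_div_cancel₀ _ p.ρ0.ne']

theorem v1_lt_s2 : p.v1 + 1 ≤ p.s2 := by
  unfold s2
  linarith [p.b_ge]

theorem X_pos : 0 < p.X := Real.exp_pos _
theorem X0_pos : 0 < p.X0 := Real.exp_pos _

theorem X_eq : p.X = Real.exp 1.2 * p.X0 := by
  unfold X X0
  rw [Real.exp_add _ 1.2, mul_comm]

theorem X_ge : 1 ≤ p.X := by
  unfold X
  rw [Real.one_le_exp_iff]
  have := mul_pos p.hρ (lt_of_lt_of_le one_pos p.b_ge)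
  linarith [p.hv_pos]

theorem e02 : Real.exp 0.2 ≤ 1.25 := by
  have h1 := Real.add_one_le_exp (-0.2 : ℝ)
  have h2 : Real.exp 0.2 * Real.exp (-0.2) = 1 := by rw [← Real.exp_add]; norm_num
  have h3 := Real.exp_pos 0.2
  nlinarith

theorem e12 : Real.exp 1.2 ≤ 4 := by
  have h1 : Real.exp 1.2 = Real.exp 1 * Real.exp 0.2 := by rw [← Real.exp_add]; norm_num
  have h2 := Real.exp_one_lt_d9
  have h3 := e02
  have h4 := Real.exp_pos 1
  rw [h1]
  nlinarith [Real.exp_pos 0.2]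

/-- `X e^{-s₂} = e^{0.2} ν` -/
theorem X_s2 : p.X * Real.exp (-p.s2) = Real.exp 0.2 * p.ν := by
  have e1 : p.hv + p.ρ * p.b + 1.2 + -p.s2 = 0.2 + Real.log p.ν := by
    have h1 := p.b_mul
    rw [Real.log_div p.hnm.ne' p.hν.ne'] at h1
    unfold s2 v1
    linarith
  unfold X
  rw [← Real.exp_add, e1, Real.exp_add, Real.exp_log p.hν]

/-- `C₂ X e^{-s₂}` is small -/
theorem C2X : p.C2 * (p.X * Real.exp (-p.s2)) ≤ 0.04 * p.ρ := by
  rw [p.X_s2]
  have h1 := p.hc
  have h2 := e02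
  have h3 : 0 < p.C2 * p.ν := mul_pos p.h2 p.hν
  nlinarith [p.hρ]

/-- The rate function (up to the `C₁` part), as a function of `s = u - log M₀`. -/
def R0 (s : ℝ) : ℝ := p.κ * Real.exp s * (1 - st (s - p.s1)) +
  p.ρ * st (s - p.s1) * (1 - st (s - p.s2)) + st (s - p.s2) * (p.C2 * p.X * Real.exp (-s))

theorem R0_left {s : ℝ} (h : s ≤ p.s1) : p.R0 s = p.κ * Real.exp s := by
  unfold R0
  rw [st_zero (by linarith), st_zero (by have := p.v1_lt_s2; unfold s1 at h; linarith)]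
  ring

theorem R0_v1 {s : ℝ} (h : s ≤ p.v1) :
    p.R0 s = p.κ * Real.exp s * (1 - st (s - p.s1)) + p.ρ * st (s - p.s1) := by
  unfold R0
  rw [st_zero (x := s - p.s2) (by have := p.v1_lt_s2; linarith)]
  ring

theorem R0_mid {s : ℝ} (h : p.v1 ≤ s) (h' : s ≤ p.s2) : p.R0 s = p.ρ := by
  unfold R0
  rw [st_one (x := s - p.s1) (by unfold s1; linarith), st_zero (x := s - p.s2) (by linarith)]
  ring

theorem R0_s2 {s : ℝ} (h : p.s2 ≤ s) :
    p.R0 s = p.ρ * (1 - st (s - p.s2)) + st (s - p.s2) * (p.C2 * p.X * Real.exp (-s)) := by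
  unfold R0
  rw [st_one (x := s - p.s1) (by unfold s1; have := p.v1_lt_s2; linarith)]
  ring

theorem R0_right {s : ℝ} (h : p.s2 + 1 ≤ s) : p.R0 s = p.C2 * p.X * Real.exp (-s) := by
  rw [p.R0_s2 (by linarith), st_one (by linarith)]
  ring

theorem tail_le {s : ℝ} (h : p.s2 ≤ s) : p.C2 * p.X * Real.exp (-s) ≤ 0.04 * p.ρ := by
  have h1 : Real.exp (-s) ≤ Real.exp (-p.s2) := Real.exp_le_exp.2 (by linarith)
  have h2 := p.C2X
  have h3 : p.C2 * p.X * Real.exp (-s) ≤ p.C2 * p.X * Real.exp (-p.s2) :=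
    mul_le_mul_of_nonneg_left h1 (mul_pos p.h2 p.X_pos).le
  linarith [h3, h2, mul_assoc p.C2 p.X (Real.exp (-p.s2))]

theorem R0_le (s : ℝ) : p.R0 s ≤ p.ρ := by
  have hρ := p.hρ
  rcases le_total s p.v1 with h | h
  · rw [p.R0_v1 h]
    have h1 := p.left_le h
    have h2 := st_nonneg (s - p.s1)
    have h3 := st_le_one (s - p.s1)
    nlinarith
  · rcases le_total s p.s2 with h' | h'
    · rw [p.R0_mid h h']
    · rw [p.R0_s2 h']
      have h1 := p.tail_le h'
      have h2 := st_nonneg (s - p.s2)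
      have h3 := st_le_one (s - p.s2)
      nlinarith

theorem R0_ge_left {s : ℝ} (h : s ≤ p.v1) : p.κ * Real.exp s ≤ p.R0 s := by
  rw [p.R0_v1 h]
  have h1 := p.left_le h
  have h2 := st_nonneg (s - p.s1)
  nlinarith

theorem R0_pos (s : ℝ) : 0 < p.R0 s := by
  have hρ := p.hρ
  rcases le_total s p.v1 with h | h
  · exact lt_of_lt_of_le (mul_pos p.hκ (Real.exp_pos _)) (p.R0_ge_left h)
  · rcases le_total s p.s2 with h' | h'
    · rw [p.R0_mid h h']
      exact hρ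
    · rw [p.R0_s2 h']
      have h1 := p.tail_le h'
      have h2 := st_nonneg (s - p.s2)
      have h3 := st_le_one (s - p.s2)
      have h4 : 0 < p.C2 * p.X * Real.exp (-s) :=
        mul_pos (mul_pos p.h2 p.X_pos) (Real.exp_pos _)
      have h5 : p.ρ * (1 - st (s - p.s2)) ≥
          (1 - st (s - p.s2)) * (p.C2 * p.X * Real.exp (-s)) := by nlinarith
      nlinarith

theorem R0_smooth : ContDiff ℝ ∞ p.R0 := by
  have hs : ∀ c : ℝ, ContDiff ℝ ∞ fun s => st (s - c) := fun c =>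
    st_smooth.comp (contDiff_id.sub contDiff_const)
  unfold R0
  exact (((contDiff_const.mul Real.contDiff_exp).mul (contDiff_const.sub (hs p.s1))).add
    ((contDiff_const.mul (hs p.s1)).mul (contDiff_const.sub (hs p.s2)))).add
    ((hs p.s2).mul (contDiff_const.mul (Real.contDiff_exp.comp contDiff_neg)))

theorem R0_bd : Bd (fun _ : Unit => p.R0) fun _ => p.R0 :=
  bd_self' (p := p.s1) (q := p.s2 + 1) p.R0_smooth p.R0_pos
    (end_exp p.R0_pos fun _ hs => p.R0_left hs)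
    (end_expn (d := p.C2 * p.X) p.R0_pos fun _ hs => p.R0_right hs)

/-! ## The antiderivative -/

/-- The antiderivative of `R0` which vanishes at `-∞`. -/
def H0 (s : ℝ) : ℝ := p.κ * Real.exp p.s1 + ∫ t in p.s1..s, p.R0 t

theorem H0_deriv (s : ℝ) : HasDerivAt p.H0 (p.R0 s) s := by
  have h := intervalIntegral.integral_hasDerivAt_right
    (p.R0_smooth.continuous.intervalIntegrable p.s1 s)
    (p.R0_smooth.continuous.stronglyMeasurableAtFilter _ _) p.R0_smooth.continuous.continuousAt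
  exact h.const_add _

theorem H0_smooth : ContDiff ℝ ∞ p.H0 := by
  rw [contDiff_infty_iff_deriv]
  refine ⟨fun s => (p.H0_deriv s).differentiableAt, ?_⟩
  have : deriv p.H0 = p.R0 := funext fun s => (p.H0_deriv s).deriv
  rw [this]
  exact p.R0_smooth

/-- comparison -/
theorem H0_cmp {a c M : ℝ} (hac : a ≤ c) (h : ∀ s ∈ Ioo a c, p.R0 s ≤ M) :
    p.H0 c ≤ p.H0 a + M * (c - a) := by
  rcases hac.eq_or_lt with rfl | hlt
  · simp
  obtain ⟨x, hx, he⟩ := exists_hasDerivAt_eq_slope p.H0 p.R0 hlt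
    p.H0_smooth.continuous.continuousOn fun s _ => p.H0_deriv s
  have h1 := h x hx
  have h2 : 0 < c - a := by linarith
  rw [he, div_le_iff₀ h2] at h1
  linarith

theorem H0_mono : Monotone p.H0 := by
  refine monotone_of_deriv_nonneg (p.H0_smooth.differentiable (by simp)) fun s => ?_
  rw [(p.H0_deriv s).deriv]
  exact (p.R0_pos s).le

theorem H0_left {s : ℝ} (h : s ≤ p.s1) : p.H0 s = p.κ * Real.exp s := by
  have h1 : ∫ t in p.s1..s, p.R0 t = ∫ t in p.s1..s, p.κ * Real.exp t := by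
    refine intervalIntegral.integral_congr fun t ht => ?_
    rw [uIcc_of_ge h] at ht
    exact p.R0_left ht.2
  unfold H0
  rw [h1, intervalIntegral.integral_const_mul, integral_exp]
  ring

theorem H0_pos (s : ℝ) : 0 < p.H0 s := by
  rcases le_total s p.s1 with h | h
  · rw [p.H0_left h]
    exact mul_pos p.hκ (Real.exp_pos _)
  · have h1 := p.H0_mono h
    rw [p.H0_left le_rfl] at h1
    exact lt_of_lt_of_le (mul_pos p.hκ (Real.exp_pos _)) h1

theorem H0_v1 : p.H0 p.v1 = p.hv := by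
  unfold H0 hv
  congr 1
  refine intervalIntegral.integral_congr fun t ht => ?_
  rw [uIcc_of_le (by unfold s1; linarith)] at ht
  exact p.R0_v1 ht.2

theorem H0_mid {s : ℝ} (h : p.v1 ≤ s) (h' : s ≤ p.s2) :
    p.H0 s = p.H0 p.v1 + p.ρ * (s - p.v1) := by
  have h1 : ∫ t in p.v1..s, p.R0 t = ∫ t in p.v1..s, p.ρ := by
    refine intervalIntegral.integral_congr fun t ht => ?_
    rw [uIcc_of_le h] at ht
    exact p.R0_mid ht.1 (ht.2.trans h')
  have h2 : ∫ t in p.v1..s, p.R0 t = p.H0 s - p.H0 p.v1 :=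
    intervalIntegral.integral_eq_sub_of_hasDerivAt (fun t _ => p.H0_deriv t)
      (p.R0_smooth.continuous.intervalIntegrable _ _)
  rw [h2, intervalIntegral.integral_const, smul_eq_mul] at h1
  linarith

theorem H0_tail {s : ℝ} (h : p.s2 + 1 ≤ s) : p.H0 s ≤ p.H0 (p.s2 + 1) + 0.04 * p.ρ := by
  have h1 : ∫ t in (p.s2 + 1)..s, p.R0 t = ∫ t in (p.s2 + 1)..s, p.C2 * p.X * Real.exp (-t) := by
    refine intervalIntegral.integral_congr fun t ht => ?_
    rw [uIcc_of_le h] at ht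
    exact p.R0_right ht.1
  have h2 : ∫ t in (p.s2 + 1)..s, p.R0 t = p.H0 s - p.H0 (p.s2 + 1) :=
    intervalIntegral.integral_eq_sub_of_hasDerivAt (fun t _ => p.H0_deriv t)
      (p.R0_smooth.continuous.intervalIntegrable _ _)
  have h3 : ∫ t in (p.s2 + 1)..s, p.C2 * p.X * Real.exp (-t) =
      p.C2 * p.X * Real.exp (-(p.s2 + 1)) - p.C2 * p.X * Real.exp (-s) := by
    have hd : ∀ t ∈ uIcc (p.s2 + 1) s, HasDerivAt (fun t => -(p.C2 * p.X * Real.exp (-t)))
        (p.C2 * p.X * Real.exp (-t)) t := fun t _ => by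
      have h7 : HasDerivAt (fun t => -(p.C2 * p.X * Real.exp (-t)))
          (-(p.C2 * p.X * (Real.exp (-t) * (-1)))) t :=
        (((hasDerivAt_neg t).exp).const_mul (p.C2 * p.X)).neg
      have h8 : -(p.C2 * p.X * (Real.exp (-t) * (-1))) = p.C2 * p.X * Real.exp (-t) := by ring
      rwa [h8] at h7
    rw [intervalIntegral.integral_eq_sub_of_hasDerivAt hd
      ((continuous_const.mul (Real.continuous_exp.comp continuous_neg)).intervalIntegrable _ _)]
    ring
  have h4 := p.tail_le (s := p.s2 + 1) (by linarith)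
  have h5 : 0 < p.C2 * p.X * Real.exp (-s) :=
    mul_pos (mul_pos p.h2 p.X_pos) (Real.exp_pos _)
  rw [h2, h3] at h1
  linarith

theorem H0_s2 : p.H0 p.s2 = p.hv + p.ρ * p.b := by
  rw [p.H0_mid (by linarith [p.v1_lt_s2]) le_rfl, p.H0_v1]
  congr 2
  unfold s2
  ring

theorem H0_le (s : ℝ) : p.H0 s ≤ p.hv + p.ρ * p.b + 1.04 := by
  have hρ := p.hρ
  have hρ1 := p.hρ1
  have hs2 := p.H0_s2
  have hs3 : p.H0 (p.s2 + 1) ≤ p.hv + p.ρ * p.b + p.ρ := by
    have := p.H0_cmp (a := p.s2) (c := p.s2 + 1) (M := p.ρ) (by linarith) fun s _ => p.R0_le s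
    nlinarith
  rcases le_total s (p.s2 + 1) with h | h
  · exact (p.H0_mono h).trans (by linarith)
  · have := p.H0_tail h
    nlinarith

/-- the ratio `N / E` at `s₂` -/
theorem s2_ratio : p.H0 p.s2 - p.s2 = Real.log p.ν - 1 := by
  have h1 := p.b_mul
  rw [Real.log_div p.hnm.ne' p.hν.ne'] at h1
  rw [p.H0_s2]
  unfold s2 v1
  linarith

end Pr

end Vale.Agent.P088.R2.H313.Ph
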