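import Vale.Agent.P088.R2.H313.PhiB

/-!
# P088, stage 3, row PHI: the slope in the variable `u = log E`
-/

open Set Filter Topology MeasureTheory
open scoped ContDiff

noncomputable section

namespace Vale.Agent.P088.R2.H313.Ph

namespace Pr

variable (p : Pr)

/-- `C₁ (X₀ m)^{al - 1}` -/
def cq (m : ℝ) : ℝ := p.C1 * (p.X0 * m) ^ (p.al - 1)
def aa (m : ℝ) : ℝ := Real.log m + p.s2
def u3 (m : ℝ) : ℝ := Real.log p.C3 + p.be * (Real.log p.X + Real.log m)
def cc : ℝ := Real.log p.C3 + p.be * Real.log p.X + 1 - p.s2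
def Q (m u : ℝ) : ℝ := p.cq m * st (u - p.aa m) * hh (u - p.u3 m)
def H1 (m u : ℝ) : ℝ := ∫ t in (p.aa m)..u, p.Q m t
def RR (m u : ℝ) : ℝ := p.R0 (u - Real.log m) + p.Q m u
def NN (m u : ℝ) : ℝ := m * Real.exp (p.H0 (u - Real.log m) + p.H1 m u)
def PP (m u : ℝ) : ℝ := ∫ t in (0 : ℝ)..u, p.NN m t

/-- `M₀` is large. -/
def Lg (m : ℝ) : Prop :=
  1 ≤ m ∧ p.cq m * (|p.cc| + p.be * Real.log m + 1) ≤
    min (1 / 20) (min ((1 - p.ρ) / 2) (p.ρ / 2)) ∧ p.C1 * m ^ (p.al - 1) ≤ p.ρ / 2

theorem ex_lg : ∃ M : ℝ, ∀ m, M ≤ m → p.Lg m := by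
  have hη : 0 < min (1 / 20 : ℝ) (min ((1 - p.ρ) / 2) (p.ρ / 2)) := by
    have := p.ρ0
    have := p.hρ
    positivity
  have hal : 0 < 1 - p.al := by linarith [p.hal1]
  have t1 : Tendsto (fun m : ℝ => m ^ (-(1 - p.al))) atTop (𝓝 0) :=
    tendsto_rpow_neg_atTop hal
  have t2 : Tendsto (fun m : ℝ => Real.log m / m ^ (1 - p.al)) atTop (𝓝 0) :=
    (isLittleO_log_rpow_atTop hal).tendsto_div_nhds_zero
  have t3 : Tendsto (fun m : ℝ => p.C1 * p.X0 ^ (p.al - 1) * (m ^ (-(1 - p.al)) * (|p.cc| + 1) +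
      p.be * (Real.log m / m ^ (1 - p.al)))) atTop
      (𝓝 (p.C1 * p.X0 ^ (p.al - 1) * (0 * (|p.cc| + 1) + p.be * 0))) :=
    ((t1.mul_const _).add (t2.const_mul _)).const_mul _
  rw [zero_mul, mul_zero, add_zero, mul_zero] at t3
  have t4 : Tendsto (fun m : ℝ => p.C1 * m ^ (-(1 - p.al))) atTop (𝓝 (p.C1 * 0)) :=
    t1.const_mul _
  rw [mul_zero] at t4
  have h1 := ((t3.eventually (gt_mem_nhds hη)).and (t4.eventually (gt_mem_nhds
    (half_pos p.hρ)))).and (eventually_ge_atTop (1 : ℝ))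
  obtain ⟨M, hM⟩ := eventually_atTop.1 h1
  refine ⟨M, fun m hm => ?_⟩
  obtain ⟨⟨h2, h2'⟩, h3⟩ := hM m hm
  have hm0 : 0 < m := by linarith
  have e : p.al - 1 = -(1 - p.al) := by ring
  refine ⟨h3, le_of_eq_of_le ?_ h2.le, ?_⟩
  · unfold cq
    rw [Real.mul_rpow p.X0_pos.le hm0.le, e, Real.rpow_neg hm0.le]
    ring
  · rw [e]
    exact h2'.le

section

variable {p} {m : ℝ} (hm : p.Lg m)

include hm

theorem Lg.pos : 0 < m := lt_of_lt_of_le one_pos hm.1

theorem Lg.cq_pos : 0 < p.cq m :=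
  mul_pos p.h1 (Real.rpow_pos_of_pos (mul_pos p.X0_pos hm.pos) _)

theorem Lg.log_nonneg : 0 ≤ Real.log m := Real.log_nonneg hm.1

theorem Lg.bd : p.cq m * (|p.cc| + p.be * Real.log m + 1) ≤ 1 / 20 :=
  hm.2.1.trans (min_le_left _ _)

theorem Lg.cq_le : p.cq m ≤ min (1 / 20) (min ((1 - p.ρ) / 2) (p.ρ / 2)) := by
  refine le_trans ?_ hm.2.1
  refine le_mul_of_one_le_right hm.cq_pos.le ?_
  have h1 := abs_nonneg p.cc
  have h2 := mul_nonneg p.hbe.le hm.log_nonneg
  linarith

theorem Lg.cq1 : p.cq m ≤ 1 / 20 := hm.cq_le.trans (min_le_left _ _)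
theorem Lg.cq2 : p.cq m ≤ (1 - p.ρ) / 2 :=
  hm.cq_le.trans ((min_le_right _ _).trans (min_le_left _ _))
theorem Lg.cq3 : p.cq m ≤ p.ρ / 2 :=
  hm.cq_le.trans ((min_le_right _ _).trans (min_le_right _ _))

theorem Lg.Q_nonneg (u : ℝ) : 0 ≤ p.Q m u :=
  mul_nonneg (mul_nonneg hm.cq_pos.le (st_nonneg _)) (hh_pos _).le

theorem Lg.Q_le_hh (u : ℝ) : p.Q m u ≤ p.cq m * hh (u - p.u3 m) := by
  unfold Q
  refine mul_le_mul_of_nonneg_right ?_ (hh_pos _).le
  exact mul_le_of_le_one_right hm.cq_pos.le (st_le_one _)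

theorem Lg.Q_le (u : ℝ) : p.Q m u ≤ p.cq m :=
  (hm.Q_le_hh u).trans (mul_le_of_le_one_right hm.cq_pos.le (hh_le_one _))

end

theorem Q_zero {m u : ℝ} (h : u ≤ p.aa m) : p.Q m u = 0 := by
  unfold Q
  rw [st_zero (by linarith)]
  ring

theorem Q_smooth (m : ℝ) : ContDiff ℝ ∞ (p.Q m) :=
  (contDiff_const.mul (st_smooth.comp (contDiff_id.sub contDiff_const))).mul
    (hh_smooth.comp (contDiff_id.sub contDiff_const))

theorem H1_deriv (m u : ℝ) : HasDerivAt (p.H1 m) (p.Q m u) u :=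
  intervalIntegral.integral_hasDerivAt_right
    ((p.Q_smooth m).continuous.intervalIntegrable _ u)
    ((p.Q_smooth m).continuous.stronglyMeasurableAtFilter _ _)
    (p.Q_smooth m).continuous.continuousAt

theorem H1_smooth (m : ℝ) : ContDiff ℝ ∞ (p.H1 m) := by
  rw [contDiff_infty_iff_deriv]
  refine ⟨fun s => (p.H1_deriv m s).differentiableAt, ?_⟩
  have : deriv (p.H1 m) = p.Q m := funext fun s => (p.H1_deriv m s).deriv
  rw [this]
  exact p.Q_smooth m

theorem H1_zero {m u : ℝ} (h : u ≤ p.aa m) : p.H1 m u = 0 := by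
  unfold H1
  have : ∫ t in (p.aa m)..u, p.Q m t = ∫ t in (p.aa m)..u, (0 : ℝ) := by
    refine intervalIntegral.integral_congr fun t ht => ?_
    rw [uIcc_of_ge h] at ht
    exact p.Q_zero ht.2
  rw [this]
  simp

section

variable {p} {m : ℝ} (hm : p.Lg m)

include hm

theorem Lg.H1_mono : Monotone (p.H1 m) := by
  refine monotone_of_deriv_nonneg ((p.H1_smooth m).differentiable (by simp)) fun s => ?_
  rw [(p.H1_deriv m s).deriv]
  exact hm.Q_nonneg s

theorem Lg.H1_cmp {a c M : ℝ} (hac : a ≤ c) (h : ∀ s ∈ Ioo a c, p.Q m s ≤ M) :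
    p.H1 m c ≤ p.H1 m a + M * (c - a) := by
  rcases hac.eq_or_lt with rfl | hlt
  · simp
  obtain ⟨x, hx, he⟩ := exists_hasDerivAt_eq_slope (p.H1 m) (p.Q m) hlt
    (p.H1_smooth m).continuous.continuousOn fun s _ => p.H1_deriv m s
  have h1 := h x hx
  have h2 : 0 < c - a := by linarith
  rw [he, div_le_iff₀ h2] at h1
  linarith

theorem Lg.H1_nonneg (u : ℝ) : 0 ≤ p.H1 m u := by
  rcases le_total u (p.aa m) with h | h
  · rw [p.H1_zero h]
  · have := hm.H1_mono h
    rwa [p.H1_zero le_rfl] at this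

theorem Lg.H1_le (u : ℝ) : p.H1 m u ≤ 1 / 20 := by
  have hc := hm.cq_pos
  have hl := hm.log_nonneg
  set w : ℝ := max (p.aa m) (p.u3 m + 1) with hw
  have hwa : p.aa m ≤ w := le_max_left _ _
  have hwu : p.u3 m + 1 ≤ w := le_max_right _ _
  have hwl : w - p.aa m ≤ |p.cc| + p.be * Real.log m := by
    have e1 : p.u3 m + 1 - p.aa m = p.cc + p.be * Real.log m - Real.log m := by
      unfold u3 aa cc
      ring
    have e2 := le_abs_self p.cc
    have e3 := abs_nonneg p.cc
    have e4 := mul_nonneg p.hbe.le hl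
    rcases max_cases (p.aa m) (p.u3 m + 1) with ⟨h, -⟩ | ⟨h, -⟩
    · rw [hw, h]; linarith
    · rw [hw, h]; linarith
  have k1 : p.H1 m w ≤ p.cq m * (w - p.aa m) := by
    have := hm.H1_cmp hwa fun s _ => hm.Q_le s
    rwa [p.H1_zero le_rfl, zero_add] at this
  have k2 : p.H1 m u ≤ p.H1 m w + p.cq m := by
    rcases le_total u w with h | h
    · have := hm.H1_mono h
      linarith
    · have e1 : p.H1 m u - p.H1 m w = ∫ t in w..u, p.Q m t :=
        (intervalIntegral.integral_eq_sub_of_hasDerivAt (fun t _ => p.H1_deriv m t)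
          ((p.Q_smooth m).continuous.intervalIntegrable _ _)).symm
      have hd : ∀ t ∈ uIcc w u, HasDerivAt (fun t => -(p.cq m * Real.exp (-(t - p.u3 m))))
          (p.cq m * Real.exp (-(t - p.u3 m))) t := fun t _ => by
        have h6 : HasDerivAt (fun t : ℝ => -(t - p.u3 m)) (-1) t :=
          ((hasDerivAt_id t).sub_const _).neg
        have h7 : HasDerivAt (fun t => -(p.cq m * Real.exp (-(t - p.u3 m))))
            (-(p.cq m * (Real.exp (-(t - p.u3 m)) * (-1)))) t := (h6.exp.const_mul (p.cq m)).neg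
        have h8 : -(p.cq m * (Real.exp (-(t - p.u3 m)) * (-1))) =
          p.cq m * Real.exp (-(t - p.u3 m)) := by ring
        rwa [h8] at h7
      have hcont : Continuous fun t : ℝ => p.cq m * Real.exp (-(t - p.u3 m)) := by fun_prop
      have e2 : ∫ t in w..u, p.Q m t ≤ ∫ t in w..u, p.cq m * Real.exp (-(t - p.u3 m)) := by
        refine intervalIntegral.integral_mono_on h
          ((p.Q_smooth m).continuous.intervalIntegrable _ _)
          (hcont.intervalIntegrable _ _) fun t ht => ?_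
        refine (hm.Q_le_hh t).trans (le_of_eq ?_)
        rw [hh_right (by linarith [ht.1])]
      rw [intervalIntegral.integral_eq_sub_of_hasDerivAt hd (hcont.intervalIntegrable _ _)] at e2
      have e3 : Real.exp (-(w - p.u3 m)) ≤ 1 := Real.exp_le_one_iff.2 (by linarith)
      have e4 := Real.exp_pos (-(u - p.u3 m))
      nlinarith
  have k3 := hm.bd
  nlinarith

theorem Lg.N_deriv (u : ℝ) : HasDerivAt (p.NN m) (p.NN m u * p.RR m u) u := by
  have h1 : HasDerivAt (fun u => p.H0 (u - Real.log m)) (p.R0 (u - Real.log m)) u := by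
    have := (p.H0_deriv (u - Real.log m)).comp u ((hasDerivAt_id u).sub_const (Real.log m))
    rw [mul_one] at this
    exact this
  have h2 := ((h1.add (p.H1_deriv m u)).exp).const_mul m
  have e : m * (Real.exp (p.H0 (u - Real.log m) + p.H1 m u) * (p.R0 (u - Real.log m) + p.Q m u)) =
      p.NN m u * p.RR m u := by
    unfold NN RR
    ring
  rw [← e]
  exact h2

omit hm in
theorem N_smooth (p : Pr) (m : ℝ) : ContDiff ℝ ∞ (p.NN m) :=
  contDiff_const.mul (Real.contDiff_exp.comp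
    ((p.H0_smooth.comp (contDiff_id.sub contDiff_const)).add (p.H1_smooth m)))

theorem Lg.N_ge (u : ℝ) : m ≤ p.NN m u := by
  unfold NN
  refine le_mul_of_one_le_right hm.pos.le ?_
  rw [Real.one_le_exp_iff]
  exact add_nonneg (p.H0_pos _).le (hm.H1_nonneg u)

theorem Lg.N_pos (u : ℝ) : 0 < p.NN m u := lt_of_lt_of_le hm.pos (hm.N_ge u)

theorem Lg.N_le (u : ℝ) : p.NN m u ≤ p.X * m := by
  unfold NN X
  rw [mul_comm m]
  refine mul_le_mul_of_nonneg_right (Real.exp_le_exp.2 ?_) hm.pos.le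
  have := p.H0_le (u - Real.log m)
  have := hm.H1_le u
  linarith

theorem Lg.N_ge' {u : ℝ} (h : p.s2 ≤ u - Real.log m) : p.X0 * m ≤ p.NN m u := by
  unfold NN X0
  rw [mul_comm m]
  refine mul_le_mul_of_nonneg_right (Real.exp_le_exp.2 ?_) hm.pos.le
  have h1 := p.H0_mono h
  rw [p.H0_s2] at h1
  linarith [hm.H1_nonneg u]

theorem Lg.R_pos (u : ℝ) : 0 < p.RR m u := add_pos_of_pos_of_nonneg (p.R0_pos _) (hm.Q_nonneg u)

theorem Lg.R_le (u : ℝ) : p.RR m u ≤ p.ρ + 1 / 20 := by
  have h1 := p.R0_le (u - Real.log m)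
  have h2 := (hm.Q_le u).trans hm.cq1
  show p.R0 (u - Real.log m) + p.Q m u ≤ _
  linarith

theorem Lg.R_lt (u : ℝ) : p.RR m u ≤ p.ρ + (1 - p.ρ) / 2 := by
  have h1 := p.R0_le (u - Real.log m)
  have h2 := (hm.Q_le u).trans hm.cq2
  show p.R0 (u - Real.log m) + p.Q m u ≤ _
  linarith

/-- `e^u = m e^{u - log m}` -/
theorem Lg.exp_eq (u : ℝ) : Real.exp u = m * Real.exp (u - Real.log m) := by
  rw [Real.exp_sub, Real.exp_log hm.pos]
  have := hm.pos.ne'
  field_simp

/-- left of the window -/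
theorem Lg.ratio_left {u : ℝ} (h : u - Real.log m < p.v1) : p.nm * Real.exp u < p.NN m u := by
  have h1 : Real.exp (u - Real.log m) < Real.exp p.v1 := Real.exp_lt_exp.2 h
  have h2 : Real.exp p.v1 * p.nm = 1 := by
    rw [← p.exp_v1, ← Real.exp_add]; simp
  rw [hm.exp_eq u]
  refine lt_of_lt_of_le ?_ (hm.N_ge u)
  calc p.nm * (m * Real.exp (u - Real.log m)) = m * (Real.exp (u - Real.log m) * p.nm) := by ring
    _ < m * (Real.exp p.v1 * p.nm) :=
      mul_lt_mul_of_pos_left (mul_lt_mul_of_pos_right h1 p.hnm) hm.pos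
    _ = m := by rw [h2, mul_one]

/-- right of the window -/
theorem Lg.ratio_right {u : ℝ} (h : p.s2 < u - Real.log m) :
    p.NN m u < p.ν * Real.exp u := by
  set s := u - Real.log m with hs
  have h1 : p.H0 s ≤ p.H0 p.s2 + p.ρ * (s - p.s2) := p.H0_cmp h.le fun t _ => p.R0_le t
  have h2 : p.H1 m u ≤ (1 - p.ρ) / 2 * (s - p.s2) := by
    have hu : p.aa m ≤ u := by
      show Real.log m + p.s2 ≤ u
      linarith
    have := hm.H1_cmp hu fun t _ => (hm.Q_le t).trans hm.cq2
    rw [p.H1_zero le_rfl, zero_add] at this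
    have e : u - p.aa m = s - p.s2 := by
      show u - (Real.log m + p.s2) = _
      rw [hs]; ring
    rwa [e] at this
  have h3 := p.s2_ratio
  have h4 := p.ρ0
  have h5 : p.H0 s + p.H1 m u < Real.log p.ν + s := by
    have : 0 < (1 - p.ρ) / 2 * (s - p.s2) := by
      have : 0 < s - p.s2 := by linarith
      positivity
    nlinarith
  rw [hm.exp_eq u]
  show m * Real.exp (p.H0 s + p.H1 m u) < p.ν * (m * Real.exp s)
  have h6 := Real.exp_lt_exp.2 h5
  rw [Real.exp_add (Real.log p.ν), Real.exp_log p.hν] at h6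
  have := mul_lt_mul_of_pos_left h6 hm.pos
  linarith

/-- lower bound of the ratio for `s ≤ s₂ + 1` -/
theorem Lg.ratio_low {u : ℝ} (h : u - Real.log m ≤ p.s2 + 1) :
    Real.exp u ≤ Real.exp (p.s2 + 1) * p.NN m u := by
  rw [hm.exp_eq u]
  have h1 : Real.exp (u - Real.log m) ≤ Real.exp (p.s2 + 1) := Real.exp_le_exp.2 h
  calc m * Real.exp (u - Real.log m) ≤ p.NN m u * Real.exp (p.s2 + 1) :=
        mul_le_mul (hm.N_ge u) h1 (Real.exp_pos _).le (hm.N_pos u).le
    _ = _ := mul_comm _ _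

/-- (P0) -/
theorem Lg.P0 {u : ℝ} (h : p.nm * Real.exp u ≤ p.NN m u) :
    p.κ * Real.exp u ≤ p.NN m u * p.RR m u := by
  have hE := Real.exp_pos u
  have hN := hm.N_pos u
  have hQ := hm.Q_nonneg u
  rcases lt_or_ge p.s2 (u - Real.log m) with h1 | h1
  · have h2 := hm.ratio_right h1
    have h3 : p.ν * Real.exp u ≤ p.nm * Real.exp u := mul_le_mul_of_nonneg_right p.hνn hE.le
    linarith
  · rcases le_total (u - Real.log m) p.v1 with h2 | h2
    · have h3 := p.R0_ge_left h2
      have h4 : p.κ * Real.exp (u - Real.log m) ≤ p.RR m u := by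
        show _ ≤ p.R0 (u - Real.log m) + p.Q m u
        linarith
      calc p.κ * Real.exp u = m * (p.κ * Real.exp (u - Real.log m)) := by
            rw [hm.exp_eq u]; ring
        _ ≤ p.NN m u * p.RR m u := mul_le_mul (hm.N_ge u) h4
            (mul_pos p.hκ (Real.exp_pos _)).le hN.le
    · have h3 : p.ρ ≤ p.RR m u := by
        show _ ≤ p.R0 (u - Real.log m) + p.Q m u
        rw [p.R0_mid h2 h1]
        linarith
      calc p.κ * Real.exp u ≤ (p.ρ * p.nm) * Real.exp u :=
            mul_le_mul_of_nonneg_right p.hκn hE.le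
        _ = (p.nm * Real.exp u) * p.ρ := by ring
        _ ≤ p.NN m u * p.RR m u := mul_le_mul h h3 p.hρ.le hN.le

/-- (P1) -/
theorem Lg.P1 {u : ℝ} (h : p.ν * Real.exp u ≤ p.NN m u) (h' : p.NN m u ≤ p.nm * Real.exp u) :
    p.RR m u = p.ρ := by
  have h1 : p.v1 ≤ u - Real.log m := by
    by_contra hc
    have := hm.ratio_left (not_le.1 hc)
    linarith
  have h2 : u - Real.log m ≤ p.s2 := by
    by_contra hc
    have := hm.ratio_right (not_le.1 hc)
    linarith
  show p.R0 (u - Real.log m) + p.Q m u = p.ρ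
  rw [p.R0_mid h1 h2, p.Q_zero (by show u ≤ Real.log m + p.s2; linarith), add_zero]

/-- (P2) -/
theorem Lg.P2 {u : ℝ} (h : p.NN m u ≤ p.ν * Real.exp u)
    (h' : Real.exp u ≤ p.C3 * p.NN m u ^ p.be) :
    p.C2 * p.NN m u / Real.exp u + p.C1 * p.NN m u ^ (p.al - 1) ≤ p.RR m u := by
  have hE := Real.exp_pos u
  have hN := hm.N_pos u
  have hρ := p.hρ
  have hal : p.al - 1 ≤ 0 := by linarith [p.hal1]
  have h1 : p.v1 ≤ u - Real.log m := by
    by_contra hc
    have h2 := hm.ratio_left (not_le.1 hc)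
    have h3 : p.ν * Real.exp u ≤ p.nm * Real.exp u := mul_le_mul_of_nonneg_right p.hνn hE.le
    linarith
  -- the two terms
  have a2 : p.C2 * p.NN m u / Real.exp u ≤ p.ρ / 40 := by
    rw [div_le_iff₀ hE]
    have := mul_le_mul_of_nonneg_left h p.h2.le
    have h5 := mul_le_mul_of_nonneg_right p.hc hE.le
    linarith
  have a3 := hm.cq3
  rcases le_total (u - Real.log m) p.s2 with h2 | h2
  · have a1 : p.C1 * p.NN m u ^ (p.al - 1) ≤ p.ρ / 2 := le_trans
      (mul_le_mul_of_nonneg_left (Real.rpow_le_rpow_of_nonpos hm.pos (hm.N_ge u) hal)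
        p.h1.le) hm.2.2
    have : p.ρ ≤ p.RR m u := by
      show _ ≤ p.R0 (u - Real.log m) + p.Q m u
      rw [p.R0_mid h1 h2]
      linarith [hm.Q_nonneg u]
    linarith
  · have a1 : p.C1 * p.NN m u ^ (p.al - 1) ≤ p.cq m :=
      mul_le_mul_of_nonneg_left (Real.rpow_le_rpow_of_nonpos (mul_pos p.X0_pos hm.pos)
        (hm.N_ge' h2) hal) p.h1.le
    have b1 : p.C2 * p.NN m u / Real.exp u ≤ p.C2 * p.X * Real.exp (-(u - Real.log m)) := by
      rw [div_le_iff₀ hE, hm.exp_eq u]
      have e : p.C2 * p.X * Real.exp (-(u - Real.log m)) * (m * Real.exp (u - Real.log m)) =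
          p.C2 * (p.X * m) * (Real.exp (-(u - Real.log m)) * Real.exp (u - Real.log m)) := by ring
      rw [e, ← Real.exp_add, neg_add_cancel, Real.exp_zero, mul_one]
      exact mul_le_mul_of_nonneg_left (hm.N_le u) p.h2.le
    have b2 : u ≤ p.u3 m := by
      have hXm : 0 < p.X * m := mul_pos p.X_pos hm.pos
      have c1 : Real.exp u ≤ p.C3 * (p.X * m) ^ p.be :=
        h'.trans (mul_le_mul_of_nonneg_left
          (Real.rpow_le_rpow hN.le (hm.N_le u) p.hbe.le) p.h3.le)
      have c2 : u ≤ Real.log (p.C3 * (p.X * m) ^ p.be) := by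
        rw [← Real.log_exp u]
        exact Real.log_le_log hE c1
      rw [Real.log_mul p.h3.ne' (Real.rpow_pos_of_pos hXm _).ne', Real.log_rpow hXm,
        Real.log_mul p.X_pos.ne' hm.pos.ne'] at c2
      exact c2
    have b3 : p.Q m u = p.cq m * st (u - Real.log m - p.s2) := by
      unfold Q
      rw [hh_left (by linarith), mul_one]
      congr 2
      unfold aa
      ring
    have b4 : p.RR m u = p.ρ * (1 - st (u - Real.log m - p.s2)) +
        st (u - Real.log m - p.s2) * (p.C2 * p.X * Real.exp (-(u - Real.log m)) + p.cq m) := by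
      show p.R0 (u - Real.log m) + p.Q m u = _
      rw [p.R0_s2 h2, b3]
      ring
    rw [b4]
    have c1 := st_nonneg (u - Real.log m - p.s2)
    have c2 := st_le_one (u - Real.log m - p.s2)
    set z := p.C2 * p.NN m u / Real.exp u + p.C1 * p.NN m u ^ (p.al - 1) with hz
    have d1 : z ≤ p.ρ := by linarith
    have d2 : z ≤ p.C2 * p.X * Real.exp (-(u - Real.log m)) + p.cq m := by linarith
    nlinarith

/-- the rate right of `s₂ + 1` -/
theorem Lg.R_right {u : ℝ} (h : p.s2 + 1 ≤ u - Real.log m) : p.RR m u ≤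
    4 * p.C2 * (p.NN m u / Real.exp u) + 4 * p.C1 * p.NN m u ^ (p.al - 1) := by
  have hE := Real.exp_pos u
  have hN := hm.N_pos u
  have hN' := hm.N_ge' (u := u) (by linarith)
  have e4 := e12
  have h1 : p.RR m u ≤ p.C2 * p.X * Real.exp (-(u - Real.log m)) + p.cq m := by
    show p.R0 (u - Real.log m) + p.Q m u ≤ _
    rw [p.R0_right h]
    linarith [hm.Q_le u]
  have h2 : p.X * Real.exp (-(u - Real.log m)) ≤ 4 * (p.NN m u / Real.exp u) := by
    rw [← mul_div_assoc, le_div_iff₀ hE, hm.exp_eq u]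
    have e : p.X * Real.exp (-(u - Real.log m)) * (m * Real.exp (u - Real.log m)) =
        (p.X * m) * (Real.exp (-(u - Real.log m)) * Real.exp (u - Real.log m)) := by ring
    rw [e, ← Real.exp_add, neg_add_cancel, Real.exp_zero, mul_one, p.X_eq, mul_assoc]
    have : 0 < p.X0 * m := mul_pos p.X0_pos hm.pos
    nlinarith
  have h3 : (p.X0 * m) ^ (p.al - 1) ≤ 4 * p.NN m u ^ (p.al - 1) := by
    have e1 : p.NN m u / Real.exp 1.2 ≤ p.X0 * m := by
      rw [div_le_iff₀ (Real.exp_pos _)]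
      have := hm.N_le u
      rw [p.X_eq] at this
      linarith
    have e2 := Real.rpow_le_rpow_of_nonpos (div_pos hN (Real.exp_pos 1.2)) e1
      (by linarith [p.hal1] : p.al - 1 ≤ 0)
    refine e2.trans ?_
    rw [Real.div_rpow hN.le (Real.exp_pos _).le, ← Real.exp_mul, div_eq_mul_inv, ← Real.exp_neg,
      mul_comm]
    refine mul_le_mul_of_nonneg_right ?_ (Real.rpow_nonneg hN.le _)
    refine le_trans (Real.exp_le_exp.2 ?_) e4
    nlinarith [p.hal]
  have h4 : p.cq m ≤ 4 * p.C1 * p.NN m u ^ (p.al - 1) := by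
    have := mul_le_mul_of_nonneg_left h3 p.h1.le
    unfold cq
    linarith
  have h5 := mul_le_mul_of_nonneg_left h2 p.h2.le
  linarith

/-- lower bound of the ratio -/
theorem Lg.ratio_low' {u : ℝ} (h : u - Real.log m < p.s2 + 1) :
    p.ν / 8 * Real.exp u < p.NN m u := by
  set s := u - Real.log m with hs
  have h0 : Real.log p.ν - 2 < p.H0 s + p.H1 m u - s := by
    have h1 := hm.H1_nonneg u
    have h2 := p.s2_ratio
    rcases le_total s p.s2 with h3 | h3
    · have h4 := p.H0_cmp h3 fun t _ => p.R0_le t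
      nlinarith [p.hρ1, p.hρ]
    · have h4 := p.H0_mono h3
      linarith
  have h1 : Real.exp (Real.log p.ν - 2) < Real.exp (p.H0 s + p.H1 m u - s) :=
    Real.exp_lt_exp.2 h0
  rw [Real.exp_sub, Real.exp_log p.hν, Real.exp_sub] at h1
  have h2 : Real.exp 2 ≤ 8 := by
    have e : Real.exp 2 = Real.exp 1 * Real.exp 1 := by rw [← Real.exp_add]; norm_num
    have := Real.exp_one_lt_d9
    have := Real.exp_pos 1
    rw [e]
    nlinarith
  have h3 : p.ν / 8 ≤ p.ν / Real.exp 2 :=
    div_le_div_of_nonneg_left p.hν.le (Real.exp_pos _) h2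
  have h4 := lt_of_le_of_lt h3 h1
  rw [lt_div_iff₀ (Real.exp_pos _)] at h4
  rw [hm.exp_eq u]
  show _ < m * Real.exp (p.H0 s + p.H1 m u)
  have := mul_lt_mul_of_pos_left h4 hm.pos
  linarith

/-- (P3') -/
theorem Lg.P3' {u : ℝ} (h : p.NN m u ≤ p.ν / 8 * Real.exp u) : p.RR m u ≤
    4 * p.C2 * (p.NN m u / Real.exp u) + 4 * p.C1 * p.NN m u ^ (p.al - 1) := by
  refine hm.R_right ?_
  by_contra hc
  have := hm.ratio_low' (not_le.1 hc)
  linarith

/-- (P3) -/
theorem Lg.P3 (u : ℝ) : p.RR m u ≤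
    (2 * Real.exp (p.s2 + 1) + 4 * p.C2) * (p.NN m u / Real.exp u) +
      4 * p.C1 * p.NN m u ^ (p.al - 1) := by
  have hE := Real.exp_pos u
  have hN := hm.N_pos u
  have hρ1 := p.hρ1
  have hr : 0 < p.NN m u / Real.exp u := div_pos hN hE
  have hXp : 0 < 4 * p.C1 * p.NN m u ^ (p.al - 1) :=
    mul_pos (mul_pos (by norm_num) p.h1) (Real.rpow_pos_of_pos hN _)
  have hC2 : 0 < 4 * p.C2 * (p.NN m u / Real.exp u) :=
    mul_pos (mul_pos (by norm_num) p.h2) hr
  have hs2 : 0 < 2 * Real.exp (p.s2 + 1) * (p.NN m u / Real.exp u) :=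
    mul_pos (mul_pos (by norm_num) (Real.exp_pos _)) hr
  rcases le_total (u - Real.log m) (p.s2 + 1) with h | h
  · have h1 := hm.ratio_low h
    have h2 : 1 ≤ Real.exp (p.s2 + 1) * (p.NN m u / Real.exp u) := by
      rw [← mul_div_assoc, le_div_iff₀ hE, one_mul]
      exact h1
    have h3 := hm.R_le u
    nlinarith
  · have h1 := hm.R_right h
    linarith

/-- `K ≤ C E` -/
theorem Lg.KE (u : ℝ) : p.NN m u * p.RR m u ≤
    (p.X * (p.κ + 2 * Real.exp (-p.s1))) * Real.exp u := by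
  have hN := hm.N_pos u
  have hρ := p.hρ
  have hρ1 := p.hρ1
  have hκ := p.hκ
  have hR : p.RR m u ≤ (p.κ + 2 * Real.exp (-p.s1)) * Real.exp (u - Real.log m) := by
    set s := u - Real.log m with hs
    have e1 : Real.exp (-p.s1) * Real.exp s = Real.exp (s - p.s1) := by
      rw [← Real.exp_add]; congr 1; ring
    rcases le_total s p.s1 with h | h
    · have h1 : p.Q m u = 0 := p.Q_zero (by
        have := p.v1_lt_s2
        unfold s1 at h
        show u ≤ Real.log m + p.s2
        linarith)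
      show p.R0 s + p.Q m u ≤ _
      rw [h1, p.R0_left h, add_zero]
      have := mul_pos (Real.exp_pos (-p.s1)) (Real.exp_pos s)
      nlinarith
    · have h1 : 1 ≤ Real.exp (s - p.s1) := Real.one_le_exp_iff.2 (by linarith)
      have h2 := hm.R_le u
      have h3 : (p.κ + 2 * Real.exp (-p.s1)) * Real.exp s =
          p.κ * Real.exp s + 2 * Real.exp (s - p.s1) := by
        rw [← e1]; ring
      have h4 : 0 < p.κ * Real.exp s := mul_pos hκ (Real.exp_pos s)
      rw [h3]
      linarith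
  calc p.NN m u * p.RR m u
      ≤ (p.X * m) * ((p.κ + 2 * Real.exp (-p.s1)) * Real.exp (u - Real.log m)) :=
        mul_le_mul (hm.N_le u) hR (hm.R_pos u).le (mul_pos p.X_pos hm.pos).le
    _ = _ := by
      rw [hm.exp_eq u]; ring

/-! ## The behaviour at both ends -/

/-- The limit of `N`. -/
def _root_.Vale.Agent.P088.R2.H313.Ph.Pr.Nt (p : Pr) (m : ℝ) : ℝ := ⨆ u, p.NN m u

theorem Lg.bdd : BddAbove (range fun u => p.NN m u) :=
  ⟨p.X * m, by rintro _ ⟨u, rfl⟩; exact hm.N_le u⟩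

theorem Lg.le_Nt (u : ℝ) : p.NN m u ≤ p.Nt m := le_ciSup hm.bdd u

theorem Lg.Nt_le : p.Nt m ≤ p.X * m := ciSup_le fun u => hm.N_le u

theorem Lg.N_mono : Monotone (p.NN m) := by
  refine monotone_of_deriv_nonneg ((N_smooth p m).differentiable (by simp)) fun s => ?_
  rw [(hm.N_deriv s).deriv]
  exact (mul_pos (hm.N_pos s) (hm.R_pos s)).le

theorem Lg.decay : ∃ B : ℝ, ∀ u, p.Nt m - p.NN m u ≤ B * Real.exp (-u) := by
  have hX := mul_pos p.X_pos hm.pos
  set D : ℝ := (p.X * m) * (p.C2 * p.X * m + p.cq m * Real.exp (p.u3 m)) with hD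
  have hD0 : 0 < D := by
    have := p.h2
    have := p.X_pos
    have := hm.pos
    have := hm.cq_pos
    positivity
  set u0 : ℝ := max (Real.log m + p.s2 + 1) (p.u3 m + 1) with hu0
  have hR : ∀ u, u0 ≤ u → p.NN m u * p.RR m u ≤ D * Real.exp (-u) := by
    intro u hu
    have a1 : p.s2 + 1 ≤ u - Real.log m := by
      have := (le_max_left (Real.log m + p.s2 + 1) (p.u3 m + 1)).trans hu
      linarith
    have a2 : 1 ≤ u - p.u3 m := by
      have := (le_max_right (Real.log m + p.s2 + 1) (p.u3 m + 1)).trans hu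
      linarith
    have a3 : p.RR m u ≤ (p.C2 * p.X * m + p.cq m * Real.exp (p.u3 m)) * Real.exp (-u) := by
      have b1 := hm.Q_le_hh u
      rw [hh_right a2] at b1
      have b2 : Real.exp (-(u - p.u3 m)) = Real.exp (p.u3 m) * Real.exp (-u) := by
        rw [← Real.exp_add]; congr 1; ring
      have b3 : Real.exp (-(u - Real.log m)) = m * Real.exp (-u) := by
        rw [show -(u - Real.log m) = Real.log m + -u by ring, Real.exp_add, Real.exp_log hm.pos]
      show p.R0 (u - Real.log m) + p.Q m u ≤ _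
      rw [p.R0_right a1, b3]
      rw [b2] at b1
      linarith
    calc p.NN m u * p.RR m u ≤
          (p.X * m) * ((p.C2 * p.X * m + p.cq m * Real.exp (p.u3 m)) * Real.exp (-u)) :=
          mul_le_mul (hm.N_le u) a3 (hm.R_pos u).le hX.le
      _ = D * Real.exp (-u) := by rw [hD]; ring
  have hanti : AntitoneOn (fun u => p.NN m u + D * Real.exp (-u)) (Ici u0) := by
    have hd : ∀ u, HasDerivAt (fun u => p.NN m u + D * Real.exp (-u))
        (p.NN m u * p.RR m u + D * (Real.exp (-u) * (-1))) u := fun u =>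
      (hm.N_deriv u).add (((hasDerivAt_neg u).exp).const_mul D)
    refine antitoneOn_of_deriv_nonpos (convex_Ici u0)
      (fun u _ => (hd u).continuousAt.continuousWithinAt)
      (fun u _ => (hd u).differentiableAt.differentiableWithinAt) fun u hu => ?_
    rw [interior_Ici] at hu
    rw [(hd u).deriv]
    have := hR u (le_of_lt hu)
    linarith
  have h1 : ∀ u, u0 ≤ u → p.Nt m - p.NN m u ≤ D * Real.exp (-u) := by
    intro u hu
    have : p.Nt m ≤ p.NN m u + D * Real.exp (-u) := by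
      refine ciSup_le fun t => ?_
      rcases le_total t u with h | h
      · have := hm.N_mono h
        have := mul_pos hD0 (Real.exp_pos (-u))
        linarith
      · have h2 := hanti (mem_Ici.2 hu) (mem_Ici.2 (hu.trans h)) h
        have h3 := mul_pos hD0 (Real.exp_pos (-t))
        simp only at h2
        linarith
    linarith
  refine ⟨D + p.X * m * Real.exp u0, fun u => ?_⟩
  have hE := Real.exp_pos (-u)
  rcases le_total u0 u with h | h
  · have h2 := h1 u h
    have h3 : 0 < p.X * m * Real.exp u0 * Real.exp (-u) :=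
      mul_pos (mul_pos hX (Real.exp_pos _)) hE
    linarith
  · have h2 : 1 ≤ Real.exp u0 * Real.exp (-u) := by
      rw [← Real.exp_add, Real.one_le_exp_iff]
      linarith
    have h3 := hm.Nt_le
    have h4 := hm.N_pos u
    have h5 := mul_le_mul_of_nonneg_left h2 hX.le
    have h6 := mul_pos hD0 hE
    linarith

theorem Lg.left_end (u : ℝ) : p.NN m u ≤ m + (3 * p.κ + p.X * Real.exp (-p.s1)) * Real.exp u := by
  have hE := Real.exp_pos u
  set s := u - Real.log m with hs
  rcases le_total s p.s1 with h | h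
  · have h1 : p.H1 m u = 0 := p.H1_zero (by
      have := p.v1_lt_s2
      have h2 : p.s1 = p.v1 - 1 := rfl
      show u ≤ Real.log m + p.s2
      linarith)
    have h2 : p.NN m u = m * Real.exp (p.κ * Real.exp s) := by
      show m * Real.exp (p.H0 s + p.H1 m u) = _
      rw [h1, p.H0_left h, add_zero]
    have h3 : p.κ * Real.exp s ≤ 1 := (p.left_le (by
      have h2 : p.s1 = p.v1 - 1 := rfl
      linarith)).trans p.hρ1.le
    set z := p.κ * Real.exp s with hz
    have hz0 : 0 < z := mul_pos p.hκ (Real.exp_pos _)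
    have h4 : Real.exp z ≤ 1 + 3 * z := by
      have a1 := Real.add_one_le_exp (-z)
      have a2 : Real.exp z * Real.exp (-z) = 1 := by rw [← Real.exp_add]; simp
      have a3 : Real.exp z ≤ 3 := by
        have := Real.exp_one_lt_d9
        have := Real.exp_le_exp.2 h3
        linarith
      have a4 : Real.exp z * (1 - z) ≤ 1 := by
        rw [← a2]
        refine mul_le_mul_of_nonneg_left ?_ (Real.exp_pos z).le
        linarith
      nlinarith
    have h5 : m * z = p.κ * Real.exp u := by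
      rw [hz, hm.exp_eq u]; ring
    have h6 : 0 < p.X * Real.exp (-p.s1) * Real.exp u :=
      mul_pos (mul_pos p.X_pos (Real.exp_pos _)) hE
    rw [h2]
    have := mul_le_mul_of_nonneg_left h4 hm.pos.le
    linarith
  · have h1 : 1 ≤ Real.exp (-p.s1) * Real.exp s := by
      rw [← Real.exp_add, Real.one_le_exp_iff]
      linarith
    have h2 := mul_le_mul_of_nonneg_left h1 (mul_pos p.X_pos hm.pos).le
    have h3 : p.X * m * (Real.exp (-p.s1) * Real.exp s) =
        p.X * Real.exp (-p.s1) * Real.exp u := by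
      rw [hm.exp_eq u]; ring
    have h4 := hm.N_le u
    have h5 : 0 < 3 * p.κ * Real.exp u := mul_pos (mul_pos (by norm_num) p.hκ) hE
    have h6 := hm.pos
    linarith

end

end Pr

end Vale.Agent.P088.R2.H313.Ph
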