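import Vale.Agent.P088.R2.H313.PhiC

/-!
# P088, stage 3, row PHI: the slope in the variable `l`, `E = e^{2l}`
-/

open Set Filter Topology MeasureTheory
open scoped ContDiff

noncomputable section

namespace Vale.Agent.P088.R2.H313.Ph

namespace Pr

variable (p : Pr)

/-- The index set of the family. -/
abbrev La : Type := {m : ℝ // p.Lg m}

def Rf (a : p.La) (u : ℝ) : ℝ := p.RR a.1 u
def Qf (a : p.La) (u : ℝ) : ℝ := p.Q a.1 u

theorem bd_R0 : Bd p.Rf fun a u => p.R0 (u - Real.log a.1) := by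
  have h := p.R0_bd.shift (fun a : p.La => Real.log a.1)
  refine h.mono (C := 1) zero_le_one fun a u => ?_
  rw [one_mul]
  show _ ≤ p.R0 (u - Real.log a.1) + p.Q a.1 u
  linarith [a.2.Q_nonneg u]

theorem bd_Q1 : Bd (fun (_ : p.La) (_ : ℝ) => (1 : ℝ)) p.Qf := by
  have h1 := st_bd.shift (fun a : p.La => p.aa a.1)
  have h2 := (hh_bd.shift (fun a : p.La => p.u3 a.1)).mono (v := fun _ _ => 1) (C := 1)
    zero_le_one fun a u => by rw [one_mul]; exact hh_le_one _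
  have h3 : Bd (fun (_ : p.La) (_ : ℝ) => (1 : ℝ)) fun a _ => p.cq a.1 :=
    Bd.const (C := 1 / 20) fun a => by rw [abs_of_pos a.2.cq_pos]; exact a.2.cq1
  exact (h3.mul h1).mul h2

theorem bd_Q : Bd p.Rf p.Qf := by
  have hQ1 := p.bd_Q1
  refine ⟨hQ1.1, fun k => ?_⟩
  obtain ⟨D, hD, hD1⟩ := hQ1.2 k
  obtain ⟨C, hC, hC1⟩ := hh_bd.2 k
  have hcF : Continuous fun s => (p.R0 s)⁻¹ :=
    p.R0_smooth.continuous.inv₀ fun s => (p.R0_pos s).ne'
  obtain ⟨B, hB⟩ := (isCompact_Icc (a := p.s2) (b := p.s2 + 1)).exists_bound_of_continuousOn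
    hcF.continuousOn
  refine ⟨C + D * |B|, by positivity, fun a u => ?_⟩
  have hR := a.2.R_pos u
  have hBD : 0 ≤ D * |B| := by positivity
  have hR0 : p.R0 (u - Real.log a.1) ≤ p.Rf a u := by
    show _ ≤ p.R0 (u - Real.log a.1) + p.Q a.1 u
    linarith [a.2.Q_nonneg u]
  have hRf : 0 < p.Rf a u := hR
  rcases lt_or_ge u (p.aa a.1) with h | h
  · have : p.Qf a =ᶠ[𝓝 u] fun _ => (0 : ℝ) := by
      filter_upwards [Iio_mem_nhds h] with y hy
      exact p.Q_zero (le_of_lt hy)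
    rw [this.iteratedDeriv_eq, iteratedDeriv_const]
    have : 0 ≤ (C + D * |B|) * p.Rf a u := by positivity
    split_ifs <;> simpa using this
  · rcases lt_or_ge (p.aa a.1 + 1) u with h' | h'
    · have : p.Qf a =ᶠ[𝓝 u] fun y => p.cq a.1 * hh (y - p.u3 a.1) := by
        filter_upwards [Ioi_mem_nhds h'] with y hy
        show p.cq a.1 * st (y - p.aa a.1) * hh (y - p.u3 a.1) = _
        rw [st_one (by rw [mem_Ioi] at hy; linarith), mul_one]
      rw [this.iteratedDeriv_eq]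
      have hs : ContDiff ℝ ∞ fun y => hh (y - p.u3 a.1) :=
        hh_smooth.comp (contDiff_id.sub contDiff_const)
      have e1 : iteratedDeriv k (fun y => p.cq a.1 * hh (y - p.u3 a.1)) u =
          p.cq a.1 * iteratedDeriv k hh (u - p.u3 a.1) := by
        rw [iteratedDeriv_const_mul _ ((hs.of_le (by exact_mod_cast le_top)).contDiffAt),
          iteratedDeriv_shift]
      rw [e1, abs_mul, abs_of_pos a.2.cq_pos]
      have h3 := hC1 () (u - p.u3 a.1)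
      have h4 : p.cq a.1 * hh (u - p.u3 a.1) = p.Qf a u := this.eq_of_nhds.symm
      have h5 : p.Qf a u ≤ p.Rf a u := by
        show _ ≤ p.R0 (u - Real.log a.1) + p.Q a.1 u
        have := p.R0_pos (u - Real.log a.1)
        show p.Q a.1 u ≤ _
        linarith
      calc p.cq a.1 * |iteratedDeriv k hh (u - p.u3 a.1)|
          ≤ p.cq a.1 * (C * hh (u - p.u3 a.1)) := mul_le_mul_of_nonneg_left h3 a.2.cq_pos.le
        _ = C * p.Qf a u := by rw [← h4]; ring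
        _ ≤ C * p.Rf a u := mul_le_mul_of_nonneg_left h5 hC
        _ ≤ (C + D * |B|) * p.Rf a u := by nlinarith
    · have h3 : u - Real.log a.1 ∈ Icc p.s2 (p.s2 + 1) := by
        have e : p.aa a.1 = Real.log a.1 + p.s2 := rfl
        constructor <;> linarith
      have h4 := hB _ h3
      rw [Real.norm_eq_abs, abs_of_pos (inv_pos.2 (p.R0_pos _))] at h4
      have h5 : 1 ≤ |B| * p.Rf a u := by
        have h6 : (p.R0 (u - Real.log a.1))⁻¹ ≤ |B| := h4.trans (le_abs_self B)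
        calc (1 : ℝ) = (p.R0 (u - Real.log a.1))⁻¹ * p.R0 (u - Real.log a.1) :=
              (inv_mul_cancel₀ (p.R0_pos _).ne').symm
          _ ≤ |B| * p.Rf a u := mul_le_mul h6 hR0 (p.R0_pos _).le (abs_nonneg _)
      have h7 := hD1 a u
      rw [mul_one] at h7
      calc |iteratedDeriv k (p.Qf a) u| ≤ D := h7
        _ ≤ D * (|B| * p.Rf a u) := le_mul_of_one_le_right hD h5
        _ ≤ (C + D * |B|) * p.Rf a u := by nlinarith

theorem bd_R : Bd p.Rf p.Rf := p.bd_R0.add p.bd_Q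

theorem bd_R1 : Bd (fun (_ : p.La) (_ : ℝ) => (1 : ℝ)) p.Rf :=
  p.bd_R.mono (C := 2) (by norm_num) fun a u => by
    have h1 := a.2.R_le u
    have h2 := p.hρ1
    show p.RR a.1 u ≤ 2 * 1
    linarith

/-- The slope. -/
def ph (a : p.La) (l : ℝ) : ℝ := (1 / 2) * p.PP a.1 (2 * l)

theorem PP_deriv (m u : ℝ) : HasDerivAt (p.PP m) (p.NN m u) u :=
  intervalIntegral.integral_hasDerivAt_right
    ((N_smooth p m).continuous.intervalIntegrable _ u)
    ((N_smooth p m).continuous.stronglyMeasurableAtFilter _ _)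
    (N_smooth p m).continuous.continuousAt

theorem PP_smooth (m : ℝ) : ContDiff ℝ ∞ (p.PP m) := by
  rw [contDiff_infty_iff_deriv]
  refine ⟨fun s => (p.PP_deriv m s).differentiableAt, ?_⟩
  have : deriv (p.PP m) = p.NN m := funext fun s => (p.PP_deriv m s).deriv
  rw [this]
  exact N_smooth p m

theorem ph_smooth (a : p.La) : ContDiff ℝ ∞ (p.ph a) :=
  contDiff_const.mul ((p.PP_smooth a.1).comp (contDiff_const.mul contDiff_id))

theorem two_mul_deriv (l : ℝ) : HasDerivAt (fun l : ℝ => 2 * l) 2 l := by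
  simpa using (hasDerivAt_id l).const_mul (2 : ℝ)

theorem ph_deriv (a : p.La) : deriv (p.ph a) = fun l => p.NN a.1 (2 * l) := by
  funext l
  have h1 := ((p.PP_deriv a.1 (2 * l)).comp l (two_mul_deriv l)).const_mul (1 / 2)
  have e : 1 / 2 * (p.NN a.1 (2 * l) * 2) = p.NN a.1 (2 * l) := by ring
  rw [e] at h1
  exact h1.deriv

theorem ph_deriv2 (a : p.La) :
    deriv (deriv (p.ph a)) = fun l => 2 * (p.NN a.1 (2 * l) * p.RR a.1 (2 * l)) := by
  rw [p.ph_deriv a]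
  funext l
  have h1 := (a.2.N_deriv (2 * l)).comp l (two_mul_deriv l)
  rw [mul_comm _ (2 : ℝ)] at h1
  exact h1.deriv

theorem ph_iter (j : ℕ) : ∃ f : p.La → ℝ → ℝ, Bd p.Rf f ∧
    ∀ a l, iteratedDeriv (j + 2) (p.ph a) l = p.NN a.1 (2 * l) * f a (2 * l) := by
  induction j with
  | zero =>
    refine ⟨fun a u => p.Rf a u * 2, ?_, fun a l => ?_⟩
    · exact p.bd_R.mul (Bd.const (C := 2) fun _ => by norm_num)
    · have e : iteratedDeriv (0 + 2) (p.ph a) = deriv (deriv (p.ph a)) := by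
        rw [zero_add, iteratedDeriv_succ, iteratedDeriv_one]
      rw [e, p.ph_deriv2 a]
      show 2 * (p.NN a.1 (2 * l) * p.RR a.1 (2 * l)) = p.NN a.1 (2 * l) * (p.RR a.1 (2 * l) * 2)
      ring
  | succ j ih =>
    obtain ⟨f, hf, he⟩ := ih
    refine ⟨fun a u => (f a u * p.Rf a u + deriv (f a) u) * 2, ?_, fun a l => ?_⟩
    · exact ((hf.mul p.bd_R1).add hf.deriv).mul (Bd.const (C := 2) fun _ => by norm_num)
    · have e : iteratedDeriv (j + 1 + 2) (p.ph a) l =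
          deriv (fun l => p.NN a.1 (2 * l) * f a (2 * l)) l := by
        rw [show j + 1 + 2 = (j + 2) + 1 by ring, iteratedDeriv_succ]
        congr 1
        funext l
        exact he a l
      rw [e]
      have h1 := (a.2.N_deriv (2 * l)).comp l (two_mul_deriv l)
      have h2 : HasDerivAt (f a) (deriv (f a) (2 * l)) (2 * l) :=
        ((hf.1 a).differentiable (by simp) _).hasDerivAt
      have h3 := h2.comp l (two_mul_deriv l)
      have h4 := (h1.mul h3).deriv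
      refine h4.trans ?_
      simp only [Function.comp]
      show p.NN a.1 (2 * l) * p.RR a.1 (2 * l) * 2 * f a (2 * l) +
        p.NN a.1 (2 * l) * (deriv (f a) (2 * l) * 2) =
        p.NN a.1 (2 * l) * ((f a (2 * l) * p.RR a.1 (2 * l) + deriv (f a) (2 * l)) * 2)
      ring

theorem ph_bd (j : ℕ) : ∃ C : ℝ, 0 ≤ C ∧ ∀ a l,
    |iteratedDeriv (j + 2) (p.ph a) l| ≤ C * deriv (deriv (p.ph a)) l := by
  obtain ⟨f, hf, he⟩ := p.ph_iter j
  obtain ⟨C, hC, h1⟩ := hf.2 0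
  refine ⟨C, hC, fun a l => ?_⟩
  have h2 := h1 a (2 * l)
  rw [iteratedDeriv_zero] at h2
  have hN := a.2.N_pos (2 * l)
  have hR : 0 < p.Rf a (2 * l) := a.2.R_pos (2 * l)
  rw [he, p.ph_deriv2 a, abs_mul, abs_of_pos hN]
  show p.NN a.1 (2 * l) * |f a (2 * l)| ≤ C * (2 * (p.NN a.1 (2 * l) * p.Rf a (2 * l)))
  calc p.NN a.1 (2 * l) * |f a (2 * l)| ≤ p.NN a.1 (2 * l) * (C * p.Rf a (2 * l)) :=
        mul_le_mul_of_nonneg_left h2 hN.le
    _ ≤ C * (2 * (p.NN a.1 (2 * l) * p.Rf a (2 * l))) := by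
      have : 0 ≤ C * (p.NN a.1 (2 * l) * p.Rf a (2 * l)) := by positivity
      nlinarith

end Pr

/-- `φ l - M₀ l` is bounded below. -/
theorem Pr.ph_low (p : Pr) (a : p.La) (l : ℝ) :
    a.1 * l - (3 * p.κ + p.X * Real.exp (-p.s1)) ≤ p.ph a l := by
  have hB : 0 < 3 * p.κ + p.X * Real.exp (-p.s1) := by
    have := p.hκ
    have := p.X_pos
    positivity
  set B := 3 * p.κ + p.X * Real.exp (-p.s1) with hBd
  have hN := (N_smooth p a.1).continuous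
  show _ ≤ 1 / 2 * ∫ t in (0 : ℝ)..(2 * l), p.NN a.1 t
  rcases le_total 0 l with h | h
  · have h1 : ∫ _t in (0 : ℝ)..(2 * l), a.1 ≤ ∫ t in (0 : ℝ)..(2 * l), p.NN a.1 t :=
      intervalIntegral.integral_mono_on (by linarith) (continuous_const.intervalIntegrable _ _)
        (hN.intervalIntegrable _ _) fun t _ => a.2.N_ge t
    rw [intervalIntegral.integral_const, smul_eq_mul] at h1
    linarith
  · have hc : Continuous fun t : ℝ => a.1 + B * Real.exp t :=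
      continuous_const.add (continuous_const.mul Real.continuous_exp)
    have h1 : ∫ t in (2 * l)..0, p.NN a.1 t ≤ ∫ t in (2 * l)..0, (a.1 + B * Real.exp t) :=
      intervalIntegral.integral_mono_on (by linarith) (hN.intervalIntegrable _ _)
        (hc.intervalIntegrable _ _) fun t _ => a.2.left_end t
    have hd : ∀ t ∈ uIcc (2 * l) 0, HasDerivAt (fun t => a.1 * t + B * Real.exp t)
        (a.1 + B * Real.exp t) t := fun t _ => by
      have h2 : HasDerivAt (fun t : ℝ => a.1 * t) (a.1 * 1) t := (hasDerivAt_id t).const_mul a.1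
      rw [mul_one] at h2
      exact h2.add ((Real.hasDerivAt_exp t).const_mul B)
    rw [intervalIntegral.integral_eq_sub_of_hasDerivAt hd (hc.intervalIntegrable _ _),
      Real.exp_zero] at h1
    rw [intervalIntegral.integral_symm]
    have h3 := mul_pos hB (Real.exp_pos (2 * l))
    linarith

/-- The slope: `N = φ'`, `K = φ''`, `E = e^{2l}`. -/
structure IsPhi (ρ κ nm ν C1 C2 C3 al be Cb : ℝ) (Cd : ℕ → ℝ) (M0 : ℝ) (φ : ℝ → ℝ) : Prop where
  sm : ContDiff ℝ ∞ φ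
  ze : φ 0 = 0
  lo : ∀ l, M0 * l - Cb ≤ φ l
  n1 : ∀ l, M0 ≤ deriv φ l
  n2 : ∀ l, deriv φ l ≤ Cb * M0
  k0 : ∀ l, 0 < deriv (deriv φ) l
  k1 : ∀ l, deriv (deriv φ) l ≤ (2 * ρ + 1 / 10) * deriv φ l
  k2 : ∀ l, deriv (deriv φ) l ≤ Cb * Real.exp (2 * l)
  k3 : ∀ l, deriv (deriv φ) l ≤ Cb * (deriv φ l ^ 2 / Real.exp (2 * l) + deriv φ l ^ al)
  kd : ∀ j l, |iteratedDeriv (j + 2) φ l| ≤ Cd j * deriv (deriv φ) l
  p0 : ∀ l, nm * Real.exp (2 * l) ≤ deriv φ l → κ * Real.exp (2 * l) ≤ deriv (deriv φ) l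
  p1 : ∀ l, ν * Real.exp (2 * l) ≤ deriv φ l → deriv φ l ≤ nm * Real.exp (2 * l) →
    deriv (deriv φ) l = 2 * ρ * deriv φ l
  p2 : ∀ l, deriv φ l ≤ ν * Real.exp (2 * l) → Real.exp (2 * l) ≤ C3 * deriv φ l ^ be →
    C2 * deriv φ l ^ 2 / Real.exp (2 * l) + C1 * deriv φ l ^ al ≤ deriv (deriv φ) l
  p3 : ∀ l, deriv φ l ≤ ν / 8 * Real.exp (2 * l) →
    deriv (deriv φ) l ≤ 4 * C2 * deriv φ l ^ 2 / Real.exp (2 * l) + 4 * C1 * deriv φ l ^ al
  an : StrictAnti fun l => deriv φ l / Real.exp (2 * l)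
  dc : ∃ Nt B : ℝ, 0 < Nt ∧ Nt ≤ Cb * M0 ∧
    ∀ l, 0 ≤ Nt - deriv φ l ∧ Nt - deriv φ l ≤ B * Real.exp (-(2 * l))

/-- **Row PHI**, with the explicit function. -/
theorem exists_phi_aux {ρ κ nm ν C1 C2 C3 al be : ℝ} (hρ : 0 < ρ) (hρ1 : ρ < 1) (hκ : 0 < κ)
    (hnm : 0 < nm) (hν : 0 < ν) (h1 : 0 < C1) (h2 : 0 < C2) (h3 : 0 < C3)
    (hκn : κ ≤ 2 * ρ * nm) (hνn : ν ≤ nm) (hc : C2 * ν ≤ ρ / 20) (hal : 0 < al) (hal1 : al < 1)
    (hbe : 0 < be) :
    ∃ (p : Pr) (Ms Cb : ℝ) (Cd : ℕ → ℝ), p.ρ = ρ ∧ p.C2 = C2 / 2 ∧ p.C1 = C1 / 2 ∧ p.al = al ∧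
      1 ≤ Ms ∧ 0 < Cb ∧ (∀ j, 0 ≤ Cd j) ∧ p.X ≤ Cb ∧
      ∀ M0, Ms ≤ M0 → ∃ hm : p.Lg M0,
        IsPhi ρ κ nm ν C1 C2 C3 al be Cb Cd M0 (p.ph ⟨M0, hm⟩) := by
  let p : Pr := ⟨ρ, κ / 2, nm, ν, C1 / 2, C2 / 2, C3, al, be, hρ, hρ1, by positivity, hnm, hν,
    by positivity, by positivity, h3, by linarith, hνn, by linarith, hal, hal1, hbe⟩
  obtain ⟨M, hM⟩ := p.ex_lg
  choose Cd hCd hCd1 using p.ph_bd
  have hX := p.X_pos
  have hX1 := p.X_ge
  have hpρ : p.ρ = ρ := rfl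
  have hpκ : p.κ = κ / 2 := rfl
  have hpC1 : p.C1 = C1 / 2 := rfl
  have hpC2 : p.C2 = C2 / 2 := rfl
  have hpal : p.al = al := rfl
  have q1 : 0 < p.X * (p.κ + 2 * Real.exp (-p.s1)) :=
    mul_pos hX (add_pos p.hκ (by positivity))
  have q3 : 0 < Real.exp (p.s2 + 1) := Real.exp_pos _
  have q4 : 0 < 3 * p.κ + p.X * Real.exp (-p.s1) :=
    add_pos (mul_pos (by norm_num) p.hκ) (mul_pos hX (Real.exp_pos _))
  set Cb : ℝ := p.X + 2 * (p.X * (p.κ + 2 * Real.exp (-p.s1))) +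
    2 * (2 * Real.exp (p.s2 + 1) + 2 * C2) + 4 * C1 +
    (3 * p.κ + p.X * Real.exp (-p.s1)) with hCb
  have hCb0 : 0 < Cb := by positivity
  refine ⟨p, max M 1, Cb, Cd, rfl, rfl, rfl, rfl, le_max_right _ _, hCb0, hCd, by
    rw [hCb]
    linarith, fun M0 hM0 => ?_⟩
  have hm : p.Lg M0 := hM M0 ((le_max_left _ _).trans hM0)
  let a : p.La := ⟨M0, hm⟩
  have e1 : deriv (p.ph a) = fun l => p.NN M0 (2 * l) := p.ph_deriv a
  have e2 : deriv (deriv (p.ph a)) = fun l => 2 * (p.NN M0 (2 * l) * p.RR M0 (2 * l)) :=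
    p.ph_deriv2 a
  have hXC : p.X * M0 ≤ Cb * M0 := by
    refine mul_le_mul_of_nonneg_right ?_ hm.pos.le
    rw [hCb]
    linarith
  have key : ∀ l, p.NN M0 (2 * l) * p.NN M0 (2 * l) ^ (al - 1) = p.NN M0 (2 * l) ^ al := by
    intro l
    have a2 := hm.N_pos (2 * l)
    rw [← Real.rpow_one_add' a2.le (by linarith)]
    congr 1
    ring
  refine ⟨hm, p.ph_smooth a, ?_, ?_, ?_, ?_, ?_, ?_, ?_, ?_, fun j l => hCd1 j a l, ?_, ?_, ?_,
    ?_, ?_, ?_⟩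
  · show 1 / 2 * ∫ t in (0 : ℝ)..(2 * 0), p.NN M0 t = 0
    simp
  · intro l
    have h1 := p.ph_low a l
    have h2 : 3 * p.κ + p.X * Real.exp (-p.s1) ≤ Cb := by rw [hCb]; linarith
    have h3 : a.1 = M0 := rfl
    rw [h3] at h1
    linarith
  · intro l
    rw [e1]
    exact hm.N_ge _
  · intro l
    rw [e1]
    exact (hm.N_le _).trans hXC
  · intro l
    rw [e2]
    exact mul_pos two_pos (mul_pos (hm.N_pos _) (hm.R_pos _))
  · intro l
    rw [e2, e1]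
    show 2 * (p.NN M0 (2 * l) * p.RR M0 (2 * l)) ≤ (2 * ρ + 1 / 10) * p.NN M0 (2 * l)
    have a1 := hm.R_le (2 * l)
    have a2 := hm.N_pos (2 * l)
    rw [hpρ] at a1
    nlinarith
  · intro l
    rw [e2]
    show 2 * (p.NN M0 (2 * l) * p.RR M0 (2 * l)) ≤ Cb * Real.exp (2 * l)
    have a1 := hm.KE (2 * l)
    have a2 := Real.exp_pos (2 * l)
    have a3 : 2 * (p.X * (p.κ + 2 * Real.exp (-p.s1))) ≤ Cb := by rw [hCb]; linarith
    nlinarith
  · intro l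
    rw [e2, e1]
    show 2 * (p.NN M0 (2 * l) * p.RR M0 (2 * l)) ≤
      Cb * (p.NN M0 (2 * l) ^ 2 / Real.exp (2 * l) + p.NN M0 (2 * l) ^ al)
    have a1 := hm.P3 (2 * l)
    have a2 := hm.N_pos (2 * l)
    have a3 := Real.exp_pos (2 * l)
    have a4 : p.NN M0 (2 * l) * (p.NN M0 (2 * l) / Real.exp (2 * l)) =
        p.NN M0 (2 * l) ^ 2 / Real.exp (2 * l) := by ring
    have a5 := key l
    have a6 := mul_le_mul_of_nonneg_left a1 a2.le
    have b1 : 0 ≤ p.NN M0 (2 * l) ^ 2 / Real.exp (2 * l) := by positivity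
    have b2 : 0 ≤ p.NN M0 (2 * l) ^ al := Real.rpow_nonneg a2.le _
    rw [hpal, hpC1, hpC2] at a6
    set z1 := p.NN M0 (2 * l) ^ 2 / Real.exp (2 * l) with hz1
    set z2 := p.NN M0 (2 * l) ^ al with hz2
    have a7 : p.NN M0 (2 * l) * p.RR M0 (2 * l) ≤
        (2 * Real.exp (p.s2 + 1) + 2 * C2) * z1 + 2 * C1 * z2 := by
      refine a6.trans (le_of_eq ?_)
      rw [← a4, ← a5]
      ring
    have c1 : 2 * (2 * Real.exp (p.s2 + 1) + 2 * C2) ≤ Cb := by rw [hCb]; linarith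
    have c2 : 4 * C1 ≤ Cb := by rw [hCb]; linarith
    have c3 := mul_le_mul_of_nonneg_right c1 b1
    have c4 := mul_le_mul_of_nonneg_right c2 b2
    linarith
  · intro l
    rw [e2, e1]
    show nm * Real.exp (2 * l) ≤ p.NN M0 (2 * l) → κ * Real.exp (2 * l) ≤
      2 * (p.NN M0 (2 * l) * p.RR M0 (2 * l))
    intro h
    have := hm.P0 (u := 2 * l) h
    rw [hpκ] at this
    linarith
  · intro l
    rw [e2, e1]
    show ν * Real.exp (2 * l) ≤ p.NN M0 (2 * l) → p.NN M0 (2 * l) ≤ nm * Real.exp (2 * l) →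
      2 * (p.NN M0 (2 * l) * p.RR M0 (2 * l)) = 2 * ρ * p.NN M0 (2 * l)
    intro h h'
    rw [hm.P1 (u := 2 * l) h h', hpρ]
    ring
  · intro l
    rw [e2, e1]
    show p.NN M0 (2 * l) ≤ ν * Real.exp (2 * l) → Real.exp (2 * l) ≤ C3 * p.NN M0 (2 * l) ^ be →
      C2 * p.NN M0 (2 * l) ^ 2 / Real.exp (2 * l) + C1 * p.NN M0 (2 * l) ^ al ≤
        2 * (p.NN M0 (2 * l) * p.RR M0 (2 * l))
    intro h h'
    have a1 := hm.P2 (u := 2 * l) h h'
    have a2 := hm.N_pos (2 * l)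
    have a5 := key l
    have a6 := mul_le_mul_of_nonneg_left a1 a2.le
    rw [hpC1, hpC2, hpal] at a6
    rw [← a5]
    refine le_trans (le_of_eq ?_) (mul_le_mul_of_nonneg_left a6 two_pos.le)
    ring
  · intro l
    rw [e2, e1]
    show p.NN M0 (2 * l) ≤ ν / 8 * Real.exp (2 * l) →
      2 * (p.NN M0 (2 * l) * p.RR M0 (2 * l)) ≤
      4 * C2 * p.NN M0 (2 * l) ^ 2 / Real.exp (2 * l) + 4 * C1 * p.NN M0 (2 * l) ^ al
    intro h
    have a1 := hm.P3' (u := 2 * l) h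
    have a2 := hm.N_pos (2 * l)
    have a5 := key l
    have a6 := mul_le_mul_of_nonneg_left a1 a2.le
    rw [hpC1, hpC2, hpal] at a6
    rw [← a5]
    refine (mul_le_mul_of_nonneg_left a6 two_pos.le).trans (le_of_eq ?_)
    ring
  · rw [e1]
    refine strictAnti_of_deriv_neg fun l => ?_
    have h1 := (a.2.N_deriv (2 * l)).comp l (Pr.two_mul_deriv l)
    have h2 : HasDerivAt (fun l : ℝ => Real.exp (2 * l)) (Real.exp (2 * l) * 2) l :=
      (Pr.two_mul_deriv l).exp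
    have h3 := h1.div h2 (Real.exp_pos _).ne'
    have h4 : deriv (fun l => p.NN M0 (2 * l) / Real.exp (2 * l)) l = _ := h3.deriv
    rw [h4]
    have a1 := hm.N_pos (2 * l)
    have a2 := Real.exp_pos (2 * l)
    have a3 := hm.R_lt (2 * l)
    rw [hpρ] at a3
    refine div_neg_of_neg_of_pos ?_ (by positivity)
    show p.NN M0 (2 * l) * p.RR M0 (2 * l) * 2 * Real.exp (2 * l) -
      p.NN M0 (2 * l) * (Real.exp (2 * l) * 2) < 0
    have a4 : 0 < p.NN M0 (2 * l) * Real.exp (2 * l) := mul_pos a1 a2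
    have a5 : p.RR M0 (2 * l) - 1 < 0 := by linarith
    nlinarith
  · obtain ⟨B, hB⟩ := hm.decay
    refine ⟨p.Nt M0, B, lt_of_lt_of_le (hm.N_pos 0) (hm.le_Nt 0), hm.Nt_le.trans hXC, fun l => ?_⟩
    rw [e1]
    exact ⟨sub_nonneg.2 (hm.le_Nt _), hB (2 * l)⟩

/-- **Row PHI.** -/
theorem exists_phi {ρ κ nm ν C1 C2 C3 al be : ℝ} (hρ : 0 < ρ) (hρ1 : ρ < 1) (hκ : 0 < κ)
    (hnm : 0 < nm) (hν : 0 < ν) (h1 : 0 < C1) (h2 : 0 < C2) (h3 : 0 < C3)
    (hκn : κ ≤ 2 * ρ * nm) (hνn : ν ≤ nm) (hc : C2 * ν ≤ ρ / 20) (hal : 0 < al) (hal1 : al < 1)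
    (hbe : 0 < be) :
    ∃ (Ms Cb : ℝ) (Cd : ℕ → ℝ), 1 ≤ Ms ∧ 0 < Cb ∧ (∀ j, 0 ≤ Cd j) ∧
      ∀ M0, Ms ≤ M0 → ∃ φ : ℝ → ℝ, IsPhi ρ κ nm ν C1 C2 C3 al be Cb Cd M0 φ := by
  obtain ⟨p, Ms, Cb, Cd, -, -, -, -, a1, a2, a3, -, H⟩ := exists_phi_aux hρ hρ1 hκ hnm hν h1 h2 h3
    hκn hνn hc hal hal1 hbe
  refine ⟨Ms, Cb, Cd, a1, a2, a3, fun M0 hM0 => ?_⟩
  obtain ⟨hm, h⟩ := H M0 hM0
  exact ⟨_, h⟩

end Vale.Agent.P088.R2.H313.Ph
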