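import Vale.Agent.P088.R2.H313.PhiA

/-!
# P088, stage 3: the function `Θ` at the top (logistic onset)
-/

open Set Filter Topology MeasureTheory Polynomial
open scoped ContDiff

noncomputable section

namespace Vale.Agent.P088.R2.H313.Th

open Vale.Agent.P088.R2.H313.Ph

/-- The derivative of the logistic function. -/
def FF (t : ℝ) : ℝ := Real.sigmoid t * (1 - Real.sigmoid t)

theorem sg_deriv (t : ℝ) : HasDerivAt Real.sigmoid (FF t) t := Real.hasDerivAt_sigmoid t

theorem sg_smooth : ContDiff ℝ ∞ Real.sigmoid := contDiff_sigmoid.of_le (by exact_mod_cast le_top)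

theorem FF_smooth : ContDiff ℝ ∞ FF := sg_smooth.mul (contDiff_const.sub sg_smooth)

theorem FF_pos (t : ℝ) : 0 < FF t :=
  mul_pos (Real.sigmoid_pos t) (sub_pos.2 (Real.sigmoid_lt_one t))

theorem FF_le_sg (t : ℝ) : FF t ≤ Real.sigmoid t :=
  mul_le_of_le_one_right (Real.sigmoid_pos t).le (by linarith [Real.sigmoid_pos t])

theorem FF_le_one (t : ℝ) : FF t ≤ 1 := (FF_le_sg t).trans (Real.sigmoid_le_one t)

theorem sg_le_exp (t : ℝ) : Real.sigmoid t ≤ Real.exp t := by
  rw [Real.sigmoid_def, inv_le_comm₀ (by positivity) (Real.exp_pos t), ← Real.exp_neg]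
  linarith [Real.exp_pos (-t)]

theorem FF_le_exp (t : ℝ) : FF t ≤ Real.exp t := (FF_le_sg t).trans (sg_le_exp t)

theorem FF_le_exp' (t : ℝ) : FF t ≤ Real.exp (-t) := by
  have h := sg_le_exp (-t)
  rw [Real.sigmoid_neg] at h
  exact (mul_le_of_le_one_left (sub_nonneg.2 (Real.sigmoid_le_one t))
    (Real.sigmoid_le_one t)).trans h

theorem FF_iter (k : ℕ) : ∃ P : ℝ[X], ∀ t, iteratedDeriv k FF t = FF t * P.eval (Real.sigmoid t) := by
  induction k with
  | zero => exact ⟨1, fun t => by simp⟩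
  | succ k ih =>
    obtain ⟨P, hP⟩ := ih
    refine ⟨(1 - 2 * X) * P + derivative P * (X * (1 - X)), fun t => ?_⟩
    have e : iteratedDeriv (k + 1) FF t = deriv (fun t => FF t * P.eval (Real.sigmoid t)) t := by
      rw [iteratedDeriv_succ]
      congr 1
      funext v
      exact hP v
    rw [e]
    have h1 := sg_deriv t
    have h2 : HasDerivAt FF (FF t * (1 - Real.sigmoid t) + Real.sigmoid t * (0 - FF t)) t :=
      h1.mul ((hasDerivAt_const t (1 : ℝ)).sub h1)
    have h3 : HasDerivAt (fun t => P.eval (Real.sigmoid t))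
        ((derivative P).eval (Real.sigmoid t) * FF t) t :=
      (P.hasDerivAt (Real.sigmoid t)).comp t h1
    have h4 := (h2.mul h3).deriv
    refine h4.trans ?_
    have e5 : FF t = Real.sigmoid t * (1 - Real.sigmoid t) := rfl
    simp only [eval_add, eval_mul, eval_sub, eval_one, eval_X, eval_ofNat]
    rw [e5]
    ring

theorem FF_bd : Bd (fun _ : Unit => FF) fun _ => FF := by
  refine ⟨fun _ => FF_smooth, fun k => ?_⟩
  obtain ⟨P, hP⟩ := FF_iter k
  obtain ⟨C, hC⟩ := (isCompact_Icc (a := (0 : ℝ)) (b := 1)).exists_bound_of_continuousOn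
    P.continuous.continuousOn
  refine ⟨|C|, abs_nonneg C, fun _ t => ?_⟩
  rw [hP, abs_mul, abs_of_pos (FF_pos t), mul_comm]
  refine mul_le_mul_of_nonneg_right ?_ (FF_pos t).le
  have := hC (Real.sigmoid t) ⟨Real.sigmoid_nonneg t, Real.sigmoid_le_one t⟩
  rw [Real.norm_eq_abs] at this
  exact this.trans (le_abs_self C)

/-- The index: `r = 1 / Λ`, `e = b - c`. -/
abbrev Ix : Type := {q : ℝ × ℝ // 0 < q.1 ∧ q.1 ≤ 1}

theorem st_iter (k : ℕ) (r e x : ℝ) :
    iteratedDeriv k (fun x => st (r * x + e)) x = r ^ k * iteratedDeriv k st (r * x + e) := by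
  have hs : ContDiff ℝ ∞ fun y => st (y - -e) := st_smooth.comp (contDiff_id.sub contDiff_const)
  have h1 := congrFun (iteratedDeriv_comp_const_mul (contDiff_infty.1 hs k) r) x
  have h2 : (fun x => st (r * x + e)) = fun x => (fun y => st (y - -e)) (r * x) := by
    funext x
    simp
  rw [h2, h1]
  congr 1
  have h3 := iteratedDeriv_shift k st (-e) (r * x)
  rw [sub_neg_eq_add] at h3
  exact h3

theorem st_sc : Bd (fun (_ : Ix) (_ : ℝ) => (1 : ℝ)) fun q x => st (q.1.1 * x + q.1.2) := by
  refine ⟨fun q => st_smooth.comp ((contDiff_const.mul contDiff_id).add contDiff_const),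
    fun k => ?_⟩
  obtain ⟨C, hC, h⟩ := st_bd.2 k
  refine ⟨C, hC, fun q x => ?_⟩
  rw [st_iter, abs_mul, abs_of_pos (pow_pos q.2.1 k)]
  have h1 := h () (q.1.1 * x + q.1.2)
  have h2 : q.1.1 ^ k ≤ 1 := pow_le_one₀ q.2.1.le q.2.2
  calc q.1.1 ^ k * |iteratedDeriv k st (q.1.1 * x + q.1.2)|
      ≤ 1 * |iteratedDeriv k st (q.1.1 * x + q.1.2)| :=
        mul_le_mul_of_nonneg_right h2 (abs_nonneg _)
    _ ≤ C * 1 := by rw [one_mul]; exact h1

def GG (q : Ix) (x : ℝ) : ℝ := FF x * st (q.1.1 * x + q.1.2)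

theorem GG_bd : Bd (fun (_ : Ix) => FF) GG := by
  have h1 : Bd (fun (_ : Ix) => FF) fun _ => FF := by
    refine ⟨fun _ => FF_smooth, fun k => ?_⟩
    obtain ⟨C, hC, h⟩ := FF_bd.2 k
    exact ⟨C, hC, fun _ u => h () u⟩
  exact h1.mul st_sc

/-- `Θ`: zero for `l ≤ c`, slope between `A/2` and `A` for `l ≥ c + w`, log-Lipschitz with
constant `Λ`. -/
structure IsThL (Ck : ℕ → ℝ) (A Lam c w : ℝ) (Th : ℝ → ℝ) : Prop where
  sm : ContDiff ℝ ∞ Th
  ze : ∀ l ≤ c, Th l = 0
  nn : ∀ l, 0 ≤ Th l
  d0 : ∀ l, 0 ≤ deriv Th l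
  d1 : ∀ l, deriv Th l ≤ A
  cv : ∀ l, 0 ≤ deriv (deriv Th) l
  cp : ∀ l, c < l → 0 < deriv (deriv Th) l
  on : ∀ j, ∀ l ≤ c + 1, |iteratedDeriv j Th l| ≤
    Ck j * Lam ^ j * (A * Real.exp (-(Lam * (w / 2 - 1))))
  ll : ∀ j, ∀ l, c + 1 ≤ l → |iteratedDeriv (j + 2) Th l| ≤ Ck j * Lam ^ j * deriv (deriv Th) l
  up : ∀ l, deriv (deriv Th) l ≤ Lam * (deriv Th l + A * Real.exp (-(Lam * (w / 2 - 1))))
  top : ∀ l, c + w ≤ l → A / 2 ≤ deriv Th l
  dn : ∀ l, deriv (deriv Th) l ≤ Lam * (A * Real.exp (-(Lam * (l - (c + w / 2)))))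
  bd : ∀ j, ∀ l, |iteratedDeriv (j + 1) Th l| ≤ Ck j * Lam ^ j * A
  lo : ∀ l, A / 2 * (l - (c + w)) ≤ Th l
  hi : ∀ l, c ≤ l → Th l ≤ A * (l - c)

theorem exists_thL : ∃ Ck : ℕ → ℝ, (∀ j, 0 ≤ Ck j) ∧ ∀ A Lam c w : ℝ, 0 < A → 1 ≤ Lam → 4 ≤ w →
    ∃ Th : ℝ → ℝ, IsThL Ck A Lam c w Th := by
  choose C0 hC0 H0 using GG_bd.2
  refine ⟨fun j => 1 + C0 j + C0 (j - 1) + C0 (j - 2), fun j => by
    have := hC0 j; have := hC0 (j - 1); have := hC0 (j - 2); positivity,
    fun A Lam c w hA hL hw => ?_⟩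
  have hL0 : 0 < Lam := by linarith
  set b := c + w / 2 with hb
  let q : Ix := ⟨(1 / Lam, b - c), by positivity, by
    show 1 / Lam ≤ 1
    rw [div_le_one hL0]; exact hL⟩
  -- `N` and its derivative
  let N : ℝ → ℝ := fun l => A * Real.sigmoid (Lam * (l - b))
  let M : ℝ → ℝ := fun l => A * Lam * FF (Lam * (l - b))
  have hin : ∀ l, HasDerivAt (fun l : ℝ => Lam * (l - b)) Lam l := fun l => by
    simpa using ((hasDerivAt_id l).sub_const b).const_mul Lam
  have hN : ∀ l, HasDerivAt N (M l) l := fun l => by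
    have := ((sg_deriv (Lam * (l - b))).comp l (hin l)).const_mul A
    refine this.congr_deriv ?_
    show A * (FF (Lam * (l - b)) * Lam) = A * Lam * FF (Lam * (l - b))
    ring
  have hMp : ∀ l, 0 < M l := fun l => mul_pos (mul_pos hA hL0) (FF_pos _)
  let T2 : ℝ → ℝ := fun l => A * Lam * GG q (Lam * (l - b))
  have hT2 : ∀ l, T2 l = M l * st (l - c) := by
    intro l
    show A * Lam * (FF (Lam * (l - b)) * st (1 / Lam * (Lam * (l - b)) + (b - c))) =
      A * Lam * FF (Lam * (l - b)) * st (l - c)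
    have : 1 / Lam * (Lam * (l - b)) + (b - c) = l - c := by
      field_simp
      ring
    rw [this]
    ring
  have hT2s : ContDiff ℝ ∞ T2 :=
    contDiff_const.mul ((GG_bd.1 q).comp (contDiff_const.mul (contDiff_id.sub contDiff_const)))
  -- iterated derivatives of `T2`
  have hT2i : ∀ j l, |iteratedDeriv j T2 l| ≤ C0 j * Lam ^ j * M l := by
    intro j l
    have hs : ContDiff ℝ ∞ fun y => GG q (Lam * y) :=
      (GG_bd.1 q).comp (contDiff_const.mul contDiff_id)
    have e1 : iteratedDeriv j T2 l = A * Lam * (Lam ^ j * iteratedDeriv j (GG q) (Lam * (l - b))) := by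
      have e2 : T2 = fun l => A * Lam * (fun l => GG q (Lam * (l - b))) l := rfl
      rw [e2, iteratedDeriv_const_mul_field]
      congr 1
      have e3 := iteratedDeriv_shift j (fun y => GG q (Lam * y)) b l
      rw [e3]
      exact congrFun (iteratedDeriv_comp_const_mul (contDiff_infty.1 (GG_bd.1 q) j) Lam) (l - b)
    rw [e1, abs_mul, abs_mul (Lam ^ j), abs_of_pos (mul_pos hA hL0), abs_of_pos (pow_pos hL0 j)]
    have h1 := H0 j q (Lam * (l - b))
    have h2 : 0 < A * Lam * Lam ^ j := by positivity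
    have h3 := mul_le_mul_of_nonneg_left h1 h2.le
    show _ ≤ C0 j * Lam ^ j * (A * Lam * FF (Lam * (l - b)))
    calc A * Lam * (Lam ^ j * |iteratedDeriv j (GG q) (Lam * (l - b))|)
        = A * Lam * Lam ^ j * |iteratedDeriv j (GG q) (Lam * (l - b))| := by ring
      _ ≤ A * Lam * Lam ^ j * (C0 j * FF (Lam * (l - b))) := h3
      _ = C0 j * Lam ^ j * (A * Lam * FF (Lam * (l - b))) := by ring
  have hT20 : ∀ l, 0 ≤ T2 l := fun l => by
    rw [hT2]
    exact mul_nonneg (hMp l).le (st_nonneg _)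
  have hT2M : ∀ l, T2 l ≤ M l := fun l => by
    rw [hT2]
    exact mul_le_of_le_one_right (hMp l).le (st_le_one _)
  -- `T1`, `Th`
  let T1 : ℝ → ℝ := fun l => ∫ v in c..l, T2 v
  have hT1 : ∀ l, HasDerivAt T1 (T2 l) l := fun l =>
    intervalIntegral.integral_hasDerivAt_right (hT2s.continuous.intervalIntegrable _ l)
      (hT2s.continuous.stronglyMeasurableAtFilter _ _) hT2s.continuous.continuousAt
  have hT1d : deriv T1 = T2 := funext fun l => (hT1 l).deriv
  have hT1s : ContDiff ℝ ∞ T1 := by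
    rw [contDiff_infty_iff_deriv]
    refine ⟨fun l => (hT1 l).differentiableAt, ?_⟩
    rw [hT1d]
    exact hT2s
  let Th : ℝ → ℝ := fun l => ∫ v in c..l, T1 v
  have hTh : ∀ l, HasDerivAt Th (T1 l) l := fun l =>
    intervalIntegral.integral_hasDerivAt_right (hT1s.continuous.intervalIntegrable _ l)
      (hT1s.continuous.stronglyMeasurableAtFilter _ _) hT1s.continuous.continuousAt
  have hThd : deriv Th = T1 := funext fun l => (hTh l).deriv
  have hThs : ContDiff ℝ ∞ Th := by
    rw [contDiff_infty_iff_deriv]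
    refine ⟨fun l => (hTh l).differentiableAt, ?_⟩
    rw [hThd]
    exact hT1s
  have hT1m : Monotone T1 := monotone_of_deriv_nonneg (fun l => (hT1 l).differentiableAt)
    fun l => by rw [(hT1 l).deriv]; exact hT20 l
  have hT1c : T1 c = 0 := by simp [T1]
  have hThc : Th c = 0 := by simp [Th]
  have hT1z : ∀ l ≤ c, T1 l = 0 := by
    intro l hl
    have h1 : ∀ v ∈ uIcc c l, T2 v = 0 := by
      intro v hv
      rw [uIcc_of_ge hl] at hv
      rw [hT2, st_zero (by linarith [hv.2]), mul_zero]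
    show ∫ v in c..l, T2 v = 0
    rw [intervalIntegral.integral_congr (g := fun _ => (0 : ℝ)) h1]
    simp
  have hThz : ∀ l ≤ c, Th l = 0 := by
    intro l hl
    have h1 : ∀ v ∈ uIcc c l, T1 v = 0 := by
      intro v hv
      rw [uIcc_of_ge hl] at hv
      exact hT1z v hv.2
    show ∫ v in c..l, T1 v = 0
    rw [intervalIntegral.integral_congr (g := fun _ => (0 : ℝ)) h1]
    simp
  have hT10 : ∀ l, 0 ≤ T1 l := by
    intro l
    rcases le_total l c with h | h
    · rw [hT1z l h]
    · rw [← hT1c]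
      exact hT1m h
  -- comparison of `T1` with `N`
  have hup : ∀ l, T1 l ≤ N l := by
    intro l
    rcases le_total l c with h | h
    · rw [hT1z l h]
      exact mul_nonneg hA.le (Real.sigmoid_nonneg _)
    · have hm : Monotone fun l => N l - T1 l := by
        refine monotone_of_deriv_nonneg (fun l => ((hN l).sub (hT1 l)).differentiableAt)
          fun l => ?_
        have := ((hN l).sub (hT1 l)).deriv
        refine le_of_le_of_eq ?_ this.symm
        linarith [hT2M l]
      have h1 := hm h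
      simp only [hT1c, sub_zero] at h1
      have h2 : 0 ≤ N c := mul_nonneg hA.le (Real.sigmoid_nonneg _)
      linarith
  have hlo : ∀ l, N l ≤ T1 l + N (c + 1) := by
    intro l
    rcases le_total l (c + 1) with h | h
    · have h1 : N l ≤ N (c + 1) := by
        refine mul_le_mul_of_nonneg_left (Real.sigmoid_le ?_) hA.le
        exact mul_le_mul_of_nonneg_left (by linarith) hL0.le
      linarith [hT10 l]
    · have hm : AntitoneOn (fun l => N l - T1 l) (Ici (c + 1)) := by
        refine antitoneOn_of_deriv_nonpos (convex_Ici _)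
          (fun l _ => ((hN l).sub (hT1 l)).continuousAt.continuousWithinAt)
          (fun l _ => ((hN l).sub (hT1 l)).differentiableAt.differentiableWithinAt) fun l hl => ?_
        have hl' : c + 1 ≤ l := by
          rw [interior_Ici] at hl
          exact le_of_lt hl
        have := ((hN l).sub (hT1 l)).deriv
        refine le_of_eq_of_le this ?_
        rw [hT2, st_one (by linarith), mul_one, sub_self]
      have h1 := hm self_mem_Ici h h
      simp only at h1
      linarith [hT10 (c + 1)]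
  have hN1 : N (c + 1) ≤ A * Real.exp (-(Lam * (w / 2 - 1))) := by
    refine mul_le_mul_of_nonneg_left ((sg_le_exp _).trans (le_of_eq ?_)) hA.le
    congr 1
    rw [hb]
    ring
  have hδ : 0 < A * Real.exp (-(Lam * (w / 2 - 1))) := by positivity
  have hd2 : deriv (deriv Th) = T2 := by rw [hThd, hT1d]
  have hMe : ∀ l ≤ c + 1, M l ≤ Lam * (A * Real.exp (-(Lam * (w / 2 - 1)))) := by
    intro l hl
    have h1 : FF (Lam * (l - b)) ≤ Real.exp (-(Lam * (w / 2 - 1))) := by
      refine (FF_le_exp _).trans (Real.exp_le_exp.2 ?_)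
      have : l - b ≤ -(w / 2 - 1) := by rw [hb]; linarith
      have := mul_le_mul_of_nonneg_left this hL0.le
      linarith
    have := mul_le_mul_of_nonneg_left h1 (mul_pos hA hL0).le
    show A * Lam * FF (Lam * (l - b)) ≤ _
    linarith
  have hThup : ∀ l, c ≤ l → Th l ≤ (l - c) * T1 l := by
    intro l hl
    have h1 : ∫ v in c..l, T1 v ≤ ∫ _v in c..l, T1 l :=
      intervalIntegral.integral_mono_on hl (hT1s.continuous.intervalIntegrable _ _)
        (continuous_const.intervalIntegrable _ _) fun v hv => hT1m hv.2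
    rw [intervalIntegral.integral_const, smul_eq_mul] at h1
    exact h1
  have hThm : Monotone Th := monotone_of_deriv_nonneg (fun l => (hTh l).differentiableAt)
    fun l => by rw [(hTh l).deriv]; exact hT10 l
  have hTh0 : ∀ l, 0 ≤ Th l := by
    intro l
    rcases le_total l c with h | h
    · rw [hThz l h]
    · rw [← hThc]
      exact hThm h
  have hNA : ∀ l, N l ≤ A := fun l => mul_le_of_le_one_right hA.le (Real.sigmoid_le_one _)
  have htop : ∀ l, c + w ≤ l → A / 2 ≤ T1 l := by
    intro l hl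
    have h1 := hlo l
    have h2 : A * (1 / (1 + Real.exp (-2))) ≤ N l := by
      refine mul_le_mul_of_nonneg_left ?_ hA.le
      rw [Real.sigmoid_def, one_div]
      refine inv_anti₀ (by positivity) ?_
      have h3 : 2 ≤ Lam * (l - b) := by
        have h4 : 2 ≤ l - b := by rw [hb]; linarith
        nlinarith
      have := Real.exp_le_exp.2 (neg_le_neg h3)
      linarith
    have h3 : N (c + 1) ≤ A * (1 / (1 + Real.exp 1)) := by
      refine mul_le_mul_of_nonneg_left ?_ hA.le
      rw [Real.sigmoid_def, one_div]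
      refine inv_anti₀ (by positivity) ?_
      have h4 : 1 ≤ -(Lam * (c + 1 - b)) := by
        have h5 : 1 ≤ -(c + 1 - b) := by rw [hb]; linarith
        nlinarith
      have := Real.exp_le_exp.2 h4
      linarith
    have h4 : (1 / (1 + Real.exp 1) : ℝ) ≤ 1 / 3.7 := by
      refine one_div_le_one_div_of_le (by norm_num) ?_
      have := Real.exp_one_gt_d9
      linarith
    have h5 : (1 / 1.2 : ℝ) ≤ 1 / (1 + Real.exp (-2)) := by
      refine one_div_le_one_div_of_le (by positivity) ?_
      have h6 : Real.exp (-2) ≤ 0.2 := by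
        have e1 : Real.exp (-2) = (Real.exp 1)⁻¹ * (Real.exp 1)⁻¹ := by
          rw [← Real.exp_neg, ← Real.exp_add]
          norm_num
        have h7 : (Real.exp 1)⁻¹ ≤ 0.4 := by
          rw [inv_le_comm₀ (Real.exp_pos 1) (by norm_num)]
          have := Real.exp_one_gt_d9
          linarith
        have h8 : 0 < (Real.exp 1)⁻¹ := inv_pos.2 (Real.exp_pos 1)
        rw [e1]
        nlinarith
      linarith
    have h6 := mul_le_mul_of_nonneg_left h4 hA.le
    have h7 := mul_le_mul_of_nonneg_left h5 hA.le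
    linarith
  have hL1 : ∀ j : ℕ, 1 ≤ Lam ^ j := fun j => one_le_pow₀ hL
  have hThi : ∀ j l, iteratedDeriv (j + 2) Th l = iteratedDeriv j T2 l := by
    intro j l
    rw [iteratedDeriv_succ' (n := j + 1), iteratedDeriv_succ', hThd, hT1d]
  refine ⟨Th, hThs, hThz, hTh0, fun l => ?_, fun l => ?_, fun l => ?_, fun l hl => ?_,
    fun j l hl => ?_, fun j l hl => ?_, fun l => ?_, fun l hl => ?_, fun l => ?_, fun j l => ?_,
    fun l => ?_, fun l hl => ?_⟩
  · rw [hThd]; exact hT10 l
  · rw [hThd]; exact (hup l).trans (hNA l)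
  · rw [hd2]; exact hT20 l
  · rw [hd2, hT2]
    exact mul_pos (hMp l) (Real.smoothTransition.pos_of_pos (by linarith))
  · -- `on`
    have c0 := hC0 j
    have c1 := hC0 (j - 1)
    have c2 := hC0 (j - 2)
    show _ ≤ (1 + C0 j + C0 (j - 1) + C0 (j - 2)) * Lam ^ j * _
    have hT1le : T1 l ≤ A * Real.exp (-(Lam * (w / 2 - 1))) := by
      refine (hT1m hl).trans ((hup (c + 1)).trans hN1)
    have hmain : ∀ y : ℝ, y ≤ A * Real.exp (-(Lam * (w / 2 - 1))) →
        y ≤ (1 + C0 j + C0 (j - 1) + C0 (j - 2)) * Lam ^ j *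
          (A * Real.exp (-(Lam * (w / 2 - 1)))) := by
      intro y hy
      refine hy.trans (le_mul_of_one_le_left hδ.le ?_)
      have h1 := hL1 j
      nlinarith
    rcases j with _ | _ | j
    · rw [iteratedDeriv_zero, abs_of_nonneg (hTh0 l)]
      refine hmain _ ?_
      rcases le_total l c with h | h
      · rw [hThz l h]
        exact hδ.le
      · refine (hThup l h).trans ((mul_le_of_le_one_left (hT10 l) (by linarith)).trans hT1le)
    · rw [zero_add, iteratedDeriv_one, hThd, abs_of_nonneg (hT10 l)]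
      exact hmain _ hT1le
    · rw [show j + 1 + 1 = j + 2 by ring, hThi]
      refine (hT2i j l).trans ?_
      have h1 := hMe l hl
      have h2 : C0 j * Lam ^ j * M l ≤
          C0 j * Lam ^ j * (Lam * (A * Real.exp (-(Lam * (w / 2 - 1))))) :=
        mul_le_mul_of_nonneg_left h1 (mul_nonneg (hC0 j) (by positivity))
      refine h2.trans ?_
      have e1 : C0 j * Lam ^ j * (Lam * (A * Real.exp (-(Lam * (w / 2 - 1))))) =
          C0 j * Lam ^ (j + 1) * (A * Real.exp (-(Lam * (w / 2 - 1)))) := by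
        rw [pow_succ]
        ring
      rw [e1]
      refine mul_le_mul_of_nonneg_right ?_ hδ.le
      have h3 : Lam ^ (j + 1) ≤ Lam ^ (j + 2) := pow_le_pow_right₀ hL (by omega)
      have h4 : C0 (j + 2 - 2) = C0 j := by simp
      have h5 := hC0 j
      have h6 := pow_pos hL0 (j + 2)
      have c0' := hC0 (j + 1 + 1)
      have c1' := hC0 (j + 1 + 1 - 1)
      have e4 : C0 (j + 1 + 1 - 2) = C0 j := by simp
      rw [e4]
      calc C0 j * Lam ^ (j + 1) ≤ C0 j * Lam ^ (j + 2) := mul_le_mul_of_nonneg_left h3 h5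
        _ ≤ (1 + C0 (j + 1 + 1) + C0 (j + 1 + 1 - 1) + C0 j) * Lam ^ (j + 2) :=
          mul_le_mul_of_nonneg_right (by linarith) h6.le
  · -- `ll`
    rw [hThi, hd2]
    have h1 := hT2i j l
    have h2 : T2 l = M l := by
      rw [hT2, st_one (by linarith), mul_one]
    rw [h2]
    refine h1.trans ?_
    refine mul_le_mul_of_nonneg_right ?_ (hMp l).le
    refine mul_le_mul_of_nonneg_right ?_ (by positivity)
    show C0 j ≤ 1 + C0 j + C0 (j - 1) + C0 (j - 2)
    linarith [hC0 (j - 1), hC0 (j - 2)]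
  · -- `up`
    rw [hd2, hThd]
    refine (hT2M l).trans ?_
    have h1 : M l ≤ Lam * N l := by
      have := mul_le_mul_of_nonneg_left (FF_le_sg (Lam * (l - b))) (mul_pos hA hL0).le
      show A * Lam * FF (Lam * (l - b)) ≤ Lam * (A * Real.sigmoid (Lam * (l - b)))
      linarith
    refine h1.trans (mul_le_mul_of_nonneg_left ?_ hL0.le)
    linarith [hlo l]
  · rw [hThd]; exact htop l hl
  · rw [hd2]
    refine (hT2M l).trans ?_
    have := mul_le_mul_of_nonneg_left (FF_le_exp' (Lam * (l - b))) (mul_pos hA hL0).le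
    show A * Lam * FF (Lam * (l - b)) ≤ _
    linarith
  · -- `bd`
    show _ ≤ (1 + C0 j + C0 (j - 1) + C0 (j - 2)) * Lam ^ j * A
    have c0 := hC0 j
    have c1 := hC0 (j - 1)
    have c2 := hC0 (j - 2)
    have hLj := hL1 j
    rcases j with _ | j
    · rw [zero_add, iteratedDeriv_one, hThd, abs_of_nonneg (hT10 l)]
      refine ((hup l).trans (hNA l)).trans (le_mul_of_one_le_left hA.le ?_)
      nlinarith
    · rw [show j + 1 + 1 = j + 2 by ring, hThi]
      refine (hT2i j l).trans ?_
      have h1 : M l ≤ Lam * A := by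
        have := mul_le_mul_of_nonneg_left (FF_le_one (Lam * (l - b))) (mul_pos hA hL0).le
        show A * Lam * FF (Lam * (l - b)) ≤ _
        linarith
      have h2 := mul_le_mul_of_nonneg_left h1 (mul_nonneg (hC0 j) (pow_pos hL0 j).le)
      refine h2.trans ?_
      have e1 : C0 j * Lam ^ j * (Lam * A) = C0 j * Lam ^ (j + 1) * A := by
        rw [pow_succ]
        ring
      rw [e1]
      refine mul_le_mul_of_nonneg_right (mul_le_mul_of_nonneg_right ?_ (by positivity)) hA.le
      have e2 : C0 (j + 1 - 1) = C0 j := by simp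
      rw [e2]
      linarith
  · -- `lo`
    rcases le_total l (c + w) with h | h
    · have := mul_nonneg (by linarith : 0 ≤ A / 2) (sub_nonneg.2 h)
      linarith [hTh0 l]
    · have hm : MonotoneOn (fun l => Th l - A / 2 * l) (Ici (c + w)) := by
        have hd : ∀ l, HasDerivAt (fun l => Th l - A / 2 * l) (T1 l - A / 2 * 1) l := fun l =>
          (hTh l).sub ((hasDerivAt_id l).const_mul (A / 2))
        refine monotoneOn_of_deriv_nonneg (convex_Ici _)
          (fun l _ => (hd l).continuousAt.continuousWithinAt)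
          (fun l _ => (hd l).differentiableAt.differentiableWithinAt) fun l hl => ?_
        rw [interior_Ici] at hl
        rw [(hd l).deriv]
        linarith [htop l (le_of_lt hl)]
      have h1 := hm self_mem_Ici h h
      simp only at h1
      linarith [hTh0 (c + w)]
  · refine (hThup l hl).trans ?_
    have := mul_le_mul_of_nonneg_left ((hup l).trans (hNA l)) (sub_nonneg.2 hl)
    linarith

end Vale.Agent.P088.R2.H313.Th
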