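import Vale.Agent.P088.R2.H313.Th

/-!
# P088, stage 3: convex functions with a logistic slope of any rate and an onset of width `1`
-/

open Set Filter Topology MeasureTheory Polynomial
open scoped ContDiff

noncomputable section

namespace Vale.Agent.P088.R2.H313.Th

open Vale.Agent.P088.R2.H313.Ph

/-- `Θ`: zero for `l ≤ c`, slope at most `A`, of size `A / (1 + e^(-κ (l - b)))`, any rate `κ`. -/
structure IsTh0 (Ck : ℕ → ℝ) (A κ c b : ℝ) (Th : ℝ → ℝ) : Prop where
  sm : ContDiff ℝ ∞ Th
  ze : ∀ l ≤ c, Th l = 0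
  nn : ∀ l, 0 ≤ Th l
  d0 : ∀ l, 0 ≤ deriv Th l
  d1 : ∀ l, deriv Th l ≤ A
  cv : ∀ l, 0 ≤ deriv (deriv Th) l
  cp : ∀ l, c < l → 0 < deriv (deriv Th) l
  h1 : ∀ l, c ≤ l → Th l ≤ (l - c) * deriv Th l
  ex : ∀ l, deriv Th l ≤ A * Real.exp (κ * (l - b))
  xx : ∀ l, deriv (deriv Th) l ≤ κ * (A * Real.exp (κ * (l - b)))
  up : ∀ l, deriv (deriv Th) l ≤ κ * (deriv Th l + A * Real.exp (κ * (c + 1 - b)))
  s2 : ∀ j l, |iteratedDeriv (j + 2) Th l| ≤
    Ck j * (max 1 κ) ^ j * (κ * (A * Real.exp (κ * (l - b))))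
  s3 : ∀ j l, |iteratedDeriv (j + 2) Th l| ≤ Ck j * (max 1 κ) ^ j * (κ * A)
  ll : ∀ j l, c + 1 ≤ l → |iteratedDeriv (j + 2) Th l| ≤ Ck j * κ ^ j * deriv (deriv Th) l
  dn : ∀ l, deriv (deriv Th) l ≤ κ * (A * Real.exp (-(κ * (l - b))))
  top : ∀ l, 2 ≤ κ * (l - b) → 1 ≤ κ * (b - (c + 1)) → A / 2 ≤ deriv Th l

theorem iter_Ici' {f g : ℝ → ℝ} (hf : ContDiff ℝ ∞ f) (hg : ContDiff ℝ ∞ g) {c : ℝ}
    (h : ∀ s, c ≤ s → f s = g s) (k : ℕ) {s : ℝ} (hs : c ≤ s) :
    iteratedDeriv k f s = iteratedDeriv k g s := by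
  have h1 : EqOn (iteratedDeriv k f) (iteratedDeriv k g) (Ioi c) := by
    intro t ht
    refine Filter.EventuallyEq.iteratedDeriv_eq k ?_
    filter_upwards [lt_mem_nhds ht] with u hu
    exact h u hu.le
  have h2 : EqOn (iteratedDeriv k f) (iteratedDeriv k g) (Ici c) :=
    h1.of_subset_closure
      (hf.continuous_iteratedDeriv k (by exact_mod_cast le_top)).continuousOn
      (hg.continuous_iteratedDeriv k (by exact_mod_cast le_top)).continuousOn
      Ioi_subset_Ici_self (by rw [closure_Ioi])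
  exact h2 hs

theorem exists_th0 : ∃ Ck : ℕ → ℝ, (∀ j, 0 ≤ Ck j) ∧ ∀ A κ c b : ℝ, 0 < A → 0 < κ →
    ∃ Th : ℝ → ℝ, IsTh0 Ck A κ c b Th := by
  choose CF hCF HF using FF_bd.2
  choose CS hCS HS using st_bd.2
  set C0 : ℕ → ℝ := fun j => ∑ i ∈ Finset.range (j + 1), (j.choose i : ℝ) * (CF i * CS (j - i))
    with hC0d
  have hC0 : ∀ j, 0 ≤ C0 j := fun j => Finset.sum_nonneg fun i _ =>
    mul_nonneg (Nat.cast_nonneg _) (mul_nonneg (hCF i) (hCS _))
  refine ⟨fun j => C0 j + CF j, fun j => add_nonneg (hC0 j) (hCF j), fun A κ c b hA hκ => ?_⟩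
  set Λ := max 1 κ with hΛ
  have hΛ1 : 1 ≤ Λ := le_max_left _ _
  have hΛκ : κ ≤ Λ := le_max_right _ _
  have hΛ0 : 0 < Λ := by linarith
  -- `N` and its derivative
  let N : ℝ → ℝ := fun l => A * Real.sigmoid (κ * (l - b))
  let M : ℝ → ℝ := fun l => A * κ * FF (κ * (l - b))
  have hin : ∀ l, HasDerivAt (fun l : ℝ => κ * (l - b)) κ l := fun l => by
    simpa using ((hasDerivAt_id l).sub_const b).const_mul κ
  have hN : ∀ l, HasDerivAt N (M l) l := fun l => by
    have := ((sg_deriv (κ * (l - b))).comp l (hin l)).const_mul A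
    refine this.congr_deriv ?_
    show A * (FF (κ * (l - b)) * κ) = A * κ * FF (κ * (l - b))
    ring
  have hMp : ∀ l, 0 < M l := fun l => mul_pos (mul_pos hA hκ) (FF_pos _)
  have hMs : ContDiff ℝ ∞ M :=
    contDiff_const.mul (FF_smooth.comp (contDiff_const.mul (contDiff_id.sub contDiff_const)))
  have hMi : ∀ j l, |iteratedDeriv j M l| ≤ CF j * κ ^ j * M l := by
    intro j l
    have e1 : iteratedDeriv j M l = A * κ * (κ ^ j * iteratedDeriv j FF (κ * (l - b))) := by
      have e2 : M = fun l => A * κ * (fun l => FF (κ * (l - b))) l := rfl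
      rw [e2, iteratedDeriv_const_mul_field]
      congr 1
      have e3 := iteratedDeriv_shift j (fun y => FF (κ * y)) b l
      rw [e3]
      exact congrFun (iteratedDeriv_comp_const_mul (contDiff_infty.1 FF_smooth j) κ) (l - b)
    rw [e1, abs_mul, abs_mul (κ ^ j), abs_of_pos (mul_pos hA hκ), abs_of_pos (pow_pos hκ j)]
    have h1 := HF j () (κ * (l - b))
    have h2 : 0 < A * κ * κ ^ j := by positivity
    have h3 := mul_le_mul_of_nonneg_left h1 h2.le
    show _ ≤ CF j * κ ^ j * (A * κ * FF (κ * (l - b)))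
    calc A * κ * (κ ^ j * |iteratedDeriv j FF (κ * (l - b))|)
        = A * κ * κ ^ j * |iteratedDeriv j FF (κ * (l - b))| := by ring
      _ ≤ A * κ * κ ^ j * (CF j * FF (κ * (l - b))) := h3
      _ = CF j * κ ^ j * (A * κ * FF (κ * (l - b))) := by ring
  let T2 : ℝ → ℝ := fun l => M l * st (l - c)
  have hsc : ContDiff ℝ ∞ fun l => st (l - c) := st_smooth.comp (contDiff_id.sub contDiff_const)
  have hT2s : ContDiff ℝ ∞ T2 := hMs.mul hsc
  -- iterated derivatives of `T2`
  have hT2i : ∀ j l, |iteratedDeriv j T2 l| ≤ C0 j * Λ ^ j * M l := by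
    intro j l
    have hmul : iteratedDeriv j T2 l = ∑ i ∈ Finset.range (j + 1), (j.choose i : ℝ) *
        iteratedDeriv i M l * iteratedDeriv (j - i) (fun l => st (l - c)) l :=
      iteratedDeriv_mul (hMs.contDiffAt.of_le (by exact_mod_cast le_top))
        (hsc.contDiffAt.of_le (by exact_mod_cast le_top))
    rw [hmul]
    refine (Finset.abs_sum_le_sum_abs _ _).trans ?_
    rw [hC0d, Finset.sum_mul, Finset.sum_mul]
    refine Finset.sum_le_sum fun i hi => ?_
    have hij : i ≤ j := by
      have := Finset.mem_range.1 hi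
      omega
    rw [abs_mul, abs_mul, abs_of_nonneg (Nat.cast_nonneg _ : (0 : ℝ) ≤ (j.choose i : ℝ))]
    have h1 : |iteratedDeriv i M l| ≤ CF i * Λ ^ i * M l :=
      (hMi i l).trans (mul_le_mul_of_nonneg_right (mul_le_mul_of_nonneg_left
        (pow_le_pow_left₀ hκ.le hΛκ i) (hCF i)) (hMp l).le)
    have h2 : |iteratedDeriv (j - i) (fun l => st (l - c)) l| ≤ CS (j - i) * Λ ^ (j - i) := by
      rw [iteratedDeriv_shift]
      have := HS (j - i) () (l - c)
      rw [mul_one] at this
      exact this.trans (le_mul_of_one_le_right (hCS _) (one_le_pow₀ hΛ1))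
    have e : Λ ^ j = Λ ^ i * Λ ^ (j - i) := by
      rw [← pow_add]
      congr 1
      omega
    calc (j.choose i : ℝ) * |iteratedDeriv i M l| *
          |iteratedDeriv (j - i) (fun l => st (l - c)) l|
        ≤ (j.choose i : ℝ) * (CF i * Λ ^ i * M l) * (CS (j - i) * Λ ^ (j - i)) :=
          mul_le_mul (mul_le_mul_of_nonneg_left h1 (Nat.cast_nonneg _)) h2 (abs_nonneg _)
            (mul_nonneg (Nat.cast_nonneg _) (mul_nonneg (mul_nonneg (hCF i) (by positivity))
              (hMp l).le))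
      _ = _ := by
        rw [e]
        ring
  have hT20 : ∀ l, 0 ≤ T2 l := fun l => mul_nonneg (hMp l).le (st_nonneg _)
  have hT2M : ∀ l, T2 l ≤ M l := fun l => mul_le_of_le_one_right (hMp l).le (st_le_one _)
  have hT2e : ∀ l, c + 1 ≤ l → T2 l = M l := fun l hl => by
    show M l * st (l - c) = M l
    rw [st_one (by linarith), mul_one]
  -- `T1`, `Th`
  let T1 : ℝ → ℝ := fun l => ∫ v in c..l, T2 v
  have hT1 : ∀ l, HasDerivAt T1 (T2 l) l := fun l =>
    intervalIntegral.integral_hasDerivAt_right (hT2s.continuous.intervalIntegrable _ l)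
      (hT2s.continuous.stronglyMeasurableAtFilter _ _) hT2s.continuous.continuousAt
  have hT1d : deriv T1 = T2 := funext fun l => (hT1 l).deriv
  have hT1s : ContDiff ℝ ∞ T1 := by
    rw [contDiff_infty_iff_deriv]
    refine ⟨fun l => (hT1 l).differentiableAt, ?_⟩
    rw [hT1d]
    exact hT2s
  let Th : ℝ → ℝ := fun l => ∫ v in c..l, T1 v
  have hTh : ∀ l, HasDerivAt Th (T1 l) l := fun l =>
    intervalIntegral.integral_hasDerivAt_right (hT1s.continuous.intervalIntegrable _ l)
      (hT1s.continuous.stronglyMeasurableAtFilter _ _) hT1s.continuous.continuousAt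
  have hThd : deriv Th = T1 := funext fun l => (hTh l).deriv
  have hThs : ContDiff ℝ ∞ Th := by
    rw [contDiff_infty_iff_deriv]
    refine ⟨fun l => (hTh l).differentiableAt, ?_⟩
    rw [hThd]
    exact hT1s
  have hT1m : Monotone T1 := monotone_of_deriv_nonneg (fun l => (hT1 l).differentiableAt)
    fun l => by rw [(hT1 l).deriv]; exact hT20 l
  have hT1c : T1 c = 0 := by simp [T1]
  have hThc : Th c = 0 := by simp [Th]
  have hT1z : ∀ l ≤ c, T1 l = 0 := by
    intro l hl
    have h1 : ∀ v ∈ uIcc c l, T2 v = 0 := by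
      intro v hv
      rw [uIcc_of_ge hl] at hv
      show M v * st (v - c) = 0
      rw [st_zero (by linarith [hv.2]), mul_zero]
    show ∫ v in c..l, T2 v = 0
    rw [intervalIntegral.integral_congr (g := fun _ => (0 : ℝ)) h1]
    simp
  have hThz : ∀ l ≤ c, Th l = 0 := by
    intro l hl
    have h1 : ∀ v ∈ uIcc c l, T1 v = 0 := by
      intro v hv
      rw [uIcc_of_ge hl] at hv
      exact hT1z v hv.2
    show ∫ v in c..l, T1 v = 0
    rw [intervalIntegral.integral_congr (g := fun _ => (0 : ℝ)) h1]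
    simp
  have hT10 : ∀ l, 0 ≤ T1 l := by
    intro l
    rcases le_total l c with h | h
    · rw [hT1z l h]
    · rw [← hT1c]
      exact hT1m h
  -- comparison of `T1` with `N`
  have hup : ∀ l, T1 l ≤ N l := by
    intro l
    rcases le_total l c with h | h
    · rw [hT1z l h]
      exact mul_nonneg hA.le (Real.sigmoid_nonneg _)
    · have hm : Monotone fun l => N l - T1 l := by
        refine monotone_of_deriv_nonneg (fun l => ((hN l).sub (hT1 l)).differentiableAt)
          fun l => ?_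
        have := ((hN l).sub (hT1 l)).deriv
        refine le_of_le_of_eq ?_ this.symm
        linarith [hT2M l]
      have h1 := hm h
      simp only [hT1c, sub_zero] at h1
      have h2 : 0 ≤ N c := mul_nonneg hA.le (Real.sigmoid_nonneg _)
      linarith
  have hlo : ∀ l, N l ≤ T1 l + N (c + 1) := by
    intro l
    rcases le_total l (c + 1) with h | h
    · have h1 : N l ≤ N (c + 1) := by
        refine mul_le_mul_of_nonneg_left (Real.sigmoid_le ?_) hA.le
        exact mul_le_mul_of_nonneg_left (by linarith) hκ.le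
      linarith [hT10 l]
    · have hm : AntitoneOn (fun l => N l - T1 l) (Ici (c + 1)) := by
        refine antitoneOn_of_deriv_nonpos (convex_Ici _)
          (fun l _ => ((hN l).sub (hT1 l)).continuousAt.continuousWithinAt)
          (fun l _ => ((hN l).sub (hT1 l)).differentiableAt.differentiableWithinAt) fun l hl => ?_
        have hl' : c + 1 ≤ l := by
          rw [interior_Ici] at hl
          exact le_of_lt hl
        have := ((hN l).sub (hT1 l)).deriv
        refine le_of_eq_of_le this ?_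
        rw [hT2e l hl', sub_self]
      have h1 := hm self_mem_Ici h h
      simp only at h1
      linarith [hT10 (c + 1)]
  have hNe : ∀ l, N l ≤ A * Real.exp (κ * (l - b)) := fun l =>
    mul_le_mul_of_nonneg_left (sg_le_exp _) hA.le
  have hNA : ∀ l, N l ≤ A := fun l => mul_le_of_le_one_right hA.le (Real.sigmoid_le_one _)
  have hd2 : deriv (deriv Th) = T2 := by rw [hThd, hT1d]
  have hMe : ∀ l, M l ≤ κ * (A * Real.exp (κ * (l - b))) := by
    intro l
    have := mul_le_mul_of_nonneg_left (FF_le_exp (κ * (l - b))) (mul_pos hA hκ).le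
    show A * κ * FF (κ * (l - b)) ≤ _
    linarith
  have hMA : ∀ l, M l ≤ κ * A := by
    intro l
    have := mul_le_mul_of_nonneg_left (FF_le_one (κ * (l - b))) (mul_pos hA hκ).le
    show A * κ * FF (κ * (l - b)) ≤ _
    linarith
  have hThup : ∀ l, c ≤ l → Th l ≤ (l - c) * T1 l := by
    intro l hl
    have h1 : ∫ v in c..l, T1 v ≤ ∫ _v in c..l, T1 l :=
      intervalIntegral.integral_mono_on hl (hT1s.continuous.intervalIntegrable _ _)
        (continuous_const.intervalIntegrable _ _) fun v hv => hT1m hv.2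
    rw [intervalIntegral.integral_const, smul_eq_mul] at h1
    exact h1
  have hThm : Monotone Th := monotone_of_deriv_nonneg (fun l => (hTh l).differentiableAt)
    fun l => by rw [(hTh l).deriv]; exact hT10 l
  have hTh0 : ∀ l, 0 ≤ Th l := by
    intro l
    rcases le_total l c with h | h
    · rw [hThz l h]
    · rw [← hThc]
      exact hThm h
  have htop : ∀ l, 2 ≤ κ * (l - b) → 1 ≤ κ * (b - (c + 1)) → A / 2 ≤ T1 l := by
    intro l hl hl'
    have h1 := hlo l
    have h2 : A * (1 / (1 + Real.exp (-2))) ≤ N l := by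
      refine mul_le_mul_of_nonneg_left ?_ hA.le
      rw [Real.sigmoid_def, one_div]
      refine inv_anti₀ (by positivity) ?_
      have := Real.exp_le_exp.2 (neg_le_neg hl)
      linarith
    have h3 : N (c + 1) ≤ A * (1 / (1 + Real.exp 1)) := by
      refine mul_le_mul_of_nonneg_left ?_ hA.le
      rw [Real.sigmoid_def, one_div]
      refine inv_anti₀ (by positivity) ?_
      have h4 : 1 ≤ -(κ * (c + 1 - b)) := by linarith
      have := Real.exp_le_exp.2 h4
      linarith
    have h4 : (1 / (1 + Real.exp 1) : ℝ) ≤ 1 / 3.7 := by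
      refine one_div_le_one_div_of_le (by norm_num) ?_
      have := Real.exp_one_gt_d9
      linarith
    have h5 : (1 / 1.2 : ℝ) ≤ 1 / (1 + Real.exp (-2)) := by
      refine one_div_le_one_div_of_le (by positivity) ?_
      have h6 : Real.exp (-2) ≤ 0.2 := by
        have e1 : Real.exp (-2) = (Real.exp 1)⁻¹ * (Real.exp 1)⁻¹ := by
          rw [← Real.exp_neg, ← Real.exp_add]
          norm_num
        have h7 : (Real.exp 1)⁻¹ ≤ 0.4 := by
          rw [inv_le_comm₀ (Real.exp_pos 1) (by norm_num)]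
          have := Real.exp_one_gt_d9
          linarith
        have h8 : 0 < (Real.exp 1)⁻¹ := inv_pos.2 (Real.exp_pos 1)
        rw [e1]
        nlinarith
      linarith
    have h6 := mul_le_mul_of_nonneg_left h4 hA.le
    have h7 := mul_le_mul_of_nonneg_left h5 hA.le
    linarith
  have hThi : ∀ j l, iteratedDeriv (j + 2) Th l = iteratedDeriv j T2 l := by
    intro j l
    rw [iteratedDeriv_succ' (n := j + 1), iteratedDeriv_succ', hThd, hT1d]
  have hCj : ∀ j, C0 j * Λ ^ j ≤ (C0 j + CF j) * Λ ^ j := fun j =>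
    mul_le_mul_of_nonneg_right (by linarith [hCF j]) (by positivity)
  have hCj0 : ∀ j, 0 ≤ (C0 j + CF j) * Λ ^ j := fun j =>
    mul_nonneg (add_nonneg (hC0 j) (hCF j)) (by positivity)
  refine ⟨Th, hThs, hThz, hTh0, fun l => ?_, fun l => ?_, fun l => ?_, fun l hl => ?_,
    fun l hl => ?_, fun l => ?_, fun l => ?_, fun l => ?_, fun j l => ?_, fun j l => ?_,
    fun j l hl => ?_, fun l => ?_, fun l hl hl' => ?_⟩
  · rw [hThd]; exact hT10 l
  · rw [hThd]; exact (hup l).trans (hNA l)
  · rw [hd2]; exact hT20 l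
  · rw [hd2]
    exact mul_pos (hMp l) (Real.smoothTransition.pos_of_pos (by linarith))
  · rw [hThd]; exact hThup l hl
  · rw [hThd]; exact (hup l).trans (hNe l)
  · rw [hd2]; exact (hT2M l).trans (hMe l)
  · rw [hd2, hThd]
    refine (hT2M l).trans ?_
    have h1 : M l ≤ κ * N l := by
      have := mul_le_mul_of_nonneg_left (FF_le_sg (κ * (l - b))) (mul_pos hA hκ).le
      show A * κ * FF (κ * (l - b)) ≤ κ * (A * Real.sigmoid (κ * (l - b)))
      linarith
    refine h1.trans (mul_le_mul_of_nonneg_left ?_ hκ.le)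
    linarith [hlo l, hNe (c + 1)]
  · rw [hThi]
    exact (hT2i j l).trans (mul_le_mul (hCj j) (hMe l) (hMp l).le (hCj0 j))
  · rw [hThi]
    exact (hT2i j l).trans (mul_le_mul (hCj j) (hMA l) (hMp l).le (hCj0 j))
  · rw [hThi, hd2, hT2e l hl, iter_Ici' hT2s hMs hT2e j hl]
    refine (hMi j l).trans (mul_le_mul_of_nonneg_right (mul_le_mul_of_nonneg_right ?_
      (by positivity)) (hMp l).le)
    show CF j ≤ C0 j + CF j
    linarith [hC0 j]
  · rw [hd2]
    refine (hT2M l).trans ?_
    have := mul_le_mul_of_nonneg_left (FF_le_exp' (κ * (l - b))) (mul_pos hA hκ).le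
    show A * κ * FF (κ * (l - b)) ≤ _
    linarith
  · rw [hThd]; exact htop l hl hl'

end Vale.Agent.P088.R2.H313.Th
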