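import Vale.Agent.P088.R2.H313.ThA

/-!
# P088, stage 3: the function `Θ` at the top, two logistic slopes

`Θ = Θ_L + Θ_S`: `Θ_L` has slope `A - R ^ 4` and rate `Λ` (middle `c + 3 R / 20`), `Θ_S` has slope
`R ^ 4` and rate `√(c₁ / R)` (middle `c + R / 25`).
-/

open Set Filter Topology MeasureTheory Polynomial
open scoped ContDiff

noncomputable section

namespace Vale.Agent.P088.R2.H313.Th

open Vale.Agent.P088.R2.H313.Ph

/-- The size of `Θ` at the onset. -/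
def t0 (R c1 : ℝ) : ℝ := Real.exp (-(3 / 100 * √(c1 * R)))

/-- The slow rate. -/
def kS (R c1 : ℝ) : ℝ := √(c1 / R)

/-- `Θ`: zero for `l ≤ c`, slope between `A/2` and `A` for `l ≥ c + w`, log-Lipschitz with
constant `Λ`; the derivatives are bounded by powers of `√(c₁ / R)` and of `1 + Θ'`. -/
structure IsThR (Ck : ℕ → ℝ) (A Lam c w R c1 : ℝ) (Th : ℝ → ℝ) : Prop where
  sm : ContDiff ℝ ∞ Th
  ze : ∀ l ≤ c, Th l = 0
  nn : ∀ l, 0 ≤ Th l
  d0 : ∀ l, 0 ≤ deriv Th l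
  d1 : ∀ l, deriv Th l ≤ A
  cv : ∀ l, 0 ≤ deriv (deriv Th) l
  cp : ∀ l, c < l → 0 < deriv (deriv Th) l
  on : ∀ j, ∀ l ≤ c + 1, |iteratedDeriv j Th l| ≤ Ck j * Lam ^ j * t0 R c1
  ll : ∀ j, ∀ l, c + 1 ≤ l → |iteratedDeriv (j + 2) Th l| ≤ Ck j * Lam ^ j * deriv (deriv Th) l
  up : ∀ l, deriv (deriv Th) l ≤ Lam * (deriv Th l + t0 R c1)
  top : ∀ l, c + w ≤ l → A / 2 ≤ deriv Th l
  dn : ∀ l, deriv (deriv Th) l ≤ Lam * (A * Real.exp (-(Lam * (l - (c + w / 2))))) +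
    R ^ 4 * Real.exp (-(kS R c1 * (l - (c + R / 25))))
  bd : ∀ j, ∀ l, |iteratedDeriv (j + 1) Th l| ≤ Ck j * Lam ^ j * A
  lo : ∀ l, A / 2 * (l - (c + w)) ≤ Th l
  hi : ∀ l, c ≤ l → Th l ≤ A * (l - c)
  es : ∀ k ≤ 6, ∀ l, |iteratedDeriv (k + 2) Th l| ≤
    Ck k * (kS R c1 * √(1 + deriv Th l)) ^ (k + 1) * (1 + deriv Th l)
  e2 : ∀ l, deriv (deriv Th) l ^ 2 ≤ c1 / R * (1 + deriv Th l) ^ 3
  e3 : ∀ l, |iteratedDeriv 3 Th l| ≤ Ck 1 * (c1 / R) * (1 + deriv Th l) ^ 2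
  e4 : ∀ l, |iteratedDeriv 4 Th l| ≤
    Ck 2 * (c1 / R) ^ (3 / 2 : ℝ) * (1 + deriv Th l) ^ (5 / 2 : ℝ)

/-- `R` is large. -/
structure Big (Lam c1 R : ℝ) : Prop where
  R1 : 100 ≤ R
  k0 : 0 < kS R c1
  k1 : kS R c1 ≤ 1 / 50
  kk : kS R c1 ^ 2 = c1 / R
  kR : kS R c1 * R = √(c1 * R)
  x1 : 50 ≤ √(c1 * R)
  a1 : 2 * (Real.exp 1 * R ^ 4 * Real.exp (-(√(c1 * R) / 25))) ≤ t0 R c1
  a2 : Lam ^ 7 * Real.exp (-(R / 100)) ≤ kS R c1 ^ 7
  a3 : Real.exp 1 * R ^ 4 * Real.exp (-(√(c1 * R) / 25)) ≤ kS R c1 ^ 7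
  a4 : Lam ^ 2 ≤ kS R c1 ^ 2 * (R ^ 4 / 2)
  a5 : 2 * R ^ 4 ≤ Real.exp (R / 20)
  a6 : 2 * Real.exp (1 - R / 10) ≤ t0 R c1

theorem ev_poly (C : ℝ) (n : ℕ) {a : ℝ} (ha : 0 < a) : ∀ᶠ x : ℝ in atTop,
    C * x ^ n ≤ Real.exp (a * x) := by
  have h := (isLittleO_pow_exp_pos_mul_atTop (k := n) ha).def
    (show 0 < 1 / (|C| + 1) by positivity)
  filter_upwards [h, eventually_ge_atTop 0] with x hx hx0
  rw [Real.norm_eq_abs, Real.norm_eq_abs, abs_of_pos (Real.exp_pos _),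
    abs_of_nonneg (pow_nonneg hx0 n)] at hx
  have h1 : 0 < |C| + 1 := by positivity
  rw [div_mul_eq_mul_div, one_mul, le_div_iff₀ h1] at hx
  have h2 := pow_nonneg hx0 n
  nlinarith [le_abs_self C]

theorem ex_big {Lam c1 : ℝ} (hL : 1 ≤ Lam) (hc : 0 < c1) (hc1 : c1 ≤ 1) :
    ∃ R0 : ℝ, ∀ R, R0 ≤ R → Big Lam c1 R := by
  have h0 : ∀ᶠ x : ℝ in atTop, 50 ≤ x ∧ 2 * Lam ^ 2 ≤ x ^ 6 ∧
      (2 * Real.exp 1 / c1 ^ 4) * x ^ 8 ≤ Real.exp (1 / 100 * x) ∧
      (Lam ^ 7 / c1 ^ 7) * x ^ 7 ≤ Real.exp (1 / 100 * x) ∧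
      (Real.exp 1 / c1 ^ 11) * x ^ 15 ≤ Real.exp (1 / 25 * x) := by
    filter_upwards [eventually_ge_atTop 50,
      (tendsto_pow_atTop (n := 6) (by norm_num)).eventually_ge_atTop (2 * Lam ^ 2),
      ev_poly (2 * Real.exp 1 / c1 ^ 4) 8 (show (0 : ℝ) < 1 / 100 by norm_num),
      ev_poly (Lam ^ 7 / c1 ^ 7) 7 (show (0 : ℝ) < 1 / 100 by norm_num),
      ev_poly (Real.exp 1 / c1 ^ 11) 15 (show (0 : ℝ) < 1 / 25 by norm_num)] with x a b c d e
    exact ⟨a, b, c, d, e⟩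
  obtain ⟨X, hX⟩ := eventually_atTop.1 h0
  refine ⟨(max X 50) ^ 2 / c1, fun R hR => ?_⟩
  have hX0 : 0 < max X 50 := lt_of_lt_of_le (by norm_num) (le_max_right _ _)
  have hR0 : 0 < R := lt_of_lt_of_le (by positivity) hR
  set x := √(c1 * R) with hx
  have hxx : x ^ 2 = c1 * R := Real.sq_sqrt (by positivity)
  have hxX : max X 50 ≤ x := by
    rw [div_le_iff₀ hc] at hR
    rw [hx]
    refine Real.le_sqrt_of_sq_le ?_
    linarith
  obtain ⟨b1, b2, b3, b4, b5⟩ := hX x ((le_max_left _ _).trans hxX)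
  have hx0 : 0 < x := by linarith
  have hR2 : R = x ^ 2 / c1 := by
    rw [hxx]
    field_simp
  have hxR : x ^ 2 ≤ R := by
    rw [hxx]
    nlinarith
  have hxR' : 50 * x ≤ R := by nlinarith
  have hk : kS R c1 = c1 / x := by
    rw [kS, hR2]
    have : c1 / (x ^ 2 / c1) = (c1 / x) ^ 2 := by
      field_simp
    rw [this]
    exact Real.sqrt_sq (by positivity)
  have hk0 : 0 < c1 / x := by positivity
  have e1 : Real.exp (1 / 100 * x) * Real.exp (-(x / 25)) = t0 R c1 := by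
    rw [t0, ← Real.exp_add, ← hx]
    congr 1
    ring
  have hR4 : R ^ 4 = x ^ 8 / c1 ^ 4 := by
    rw [hR2]
    field_simp
  refine ⟨by linarith, by rw [hk]; exact hk0, ?_, ?_, ?_, b1, ?_, ?_, ?_, ?_, ?_, ?_⟩
  · rw [hk, div_le_div_iff₀ hx0 (by norm_num)]
    linarith
  · rw [kS, Real.sq_sqrt (by positivity)]
  · rw [hk, ← hx, div_mul_eq_mul_div, ← hxx]
    field_simp
  · rw [← e1, hR4]
    have := mul_le_mul_of_nonneg_right b3 (Real.exp_pos (-(x / 25))).le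
    calc 2 * (Real.exp 1 * (x ^ 8 / c1 ^ 4) * Real.exp (-(x / 25)))
        = 2 * Real.exp 1 / c1 ^ 4 * x ^ 8 * Real.exp (-(x / 25)) := by ring
      _ ≤ _ := this
  · rw [hk]
    have h1 : Real.exp (-(R / 100)) ≤ Real.exp (-(1 / 100 * x)) :=
      Real.exp_le_exp.2 (by linarith)
    have h2 : Lam ^ 7 ≤ (c1 / x) ^ 7 * Real.exp (1 / 100 * x) := by
      have h3 := mul_le_mul_of_nonneg_left b4 (by positivity : 0 ≤ (c1 / x) ^ 7)
      have h4 : (c1 / x) ^ 7 * (Lam ^ 7 / c1 ^ 7 * x ^ 7) = Lam ^ 7 := by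
        field_simp
      rwa [h4] at h3
    calc Lam ^ 7 * Real.exp (-(R / 100)) ≤
          ((c1 / x) ^ 7 * Real.exp (1 / 100 * x)) * Real.exp (-(1 / 100 * x)) :=
          mul_le_mul h2 h1 (Real.exp_pos _).le (by positivity)
      _ = (c1 / x) ^ 7 := by
        rw [mul_assoc, ← Real.exp_add, add_neg_cancel, Real.exp_zero, mul_one]
  · rw [hk, hR4]
    have h3 := mul_le_mul_of_nonneg_left b5
      (by positivity : 0 ≤ (c1 / x) ^ 7 * Real.exp (-(x / 25)))
    have h4 : (c1 / x) ^ 7 * Real.exp (-(x / 25)) * (Real.exp 1 / c1 ^ 11 * x ^ 15) =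
        Real.exp 1 * (x ^ 8 / c1 ^ 4) * Real.exp (-(x / 25)) := by
      field_simp
    have h5 : (c1 / x) ^ 7 * Real.exp (-(x / 25)) * Real.exp (1 / 25 * x) = (c1 / x) ^ 7 := by
      rw [mul_assoc, ← Real.exp_add]
      have : -(x / 25) + 1 / 25 * x = 0 := by ring
      rw [this, Real.exp_zero, mul_one]
    rwa [h4, h5] at h3
  · rw [hk, hR4]
    have h1 : (c1 / x) ^ 2 * (x ^ 8 / c1 ^ 4 / 2) = x ^ 6 / (2 * c1 ^ 2) := by
      field_simp
    rw [h1, le_div_iff₀ (by positivity)]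
    have h2 : c1 ^ 2 ≤ 1 := pow_le_one₀ hc.le hc1
    have h3 : 0 < Lam ^ 2 := by positivity
    nlinarith
  · rw [hR4]
    have h1 : Real.exp (1 / 100 * x) ≤ Real.exp (R / 20) := Real.exp_le_exp.2 (by linarith)
    have h2 : 2 * (x ^ 8 / c1 ^ 4) ≤ 2 * Real.exp 1 / c1 ^ 4 * x ^ 8 := by
      have h3 : (1 : ℝ) ≤ Real.exp 1 := Real.one_le_exp (by norm_num)
      have h4 : 0 ≤ x ^ 8 / c1 ^ 4 := by positivity
      calc 2 * (x ^ 8 / c1 ^ 4) = 1 * (2 * (x ^ 8 / c1 ^ 4)) := by ring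
        _ ≤ Real.exp 1 * (2 * (x ^ 8 / c1 ^ 4)) :=
          mul_le_mul_of_nonneg_right h3 (by positivity)
        _ = _ := by ring
    exact h2.trans (b3.trans h1)
  · rw [t0, ← hx]
    have h1 : (2 : ℝ) ≤ Real.exp 1 := by
      have := Real.exp_one_gt_d9
      linarith
    calc 2 * Real.exp (1 - R / 10) ≤ Real.exp 1 * Real.exp (1 - R / 10) :=
          mul_le_mul_of_nonneg_right h1 (Real.exp_pos _).le
      _ = Real.exp (1 + (1 - R / 10)) := (Real.exp_add _ _).symm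
      _ ≤ _ := Real.exp_le_exp.2 (by linarith)

/-- The two parts. -/
structure Two (C0 : ℕ → ℝ) (A Lam c R c1 : ℝ) (L S : ℝ → ℝ) : Prop where
  g : Big Lam c1 R
  hL : 1 ≤ Lam
  hA : A = Real.exp (Lam * R / 20)
  hC : ∀ j, 0 ≤ C0 j
  p : IsTh0 C0 (A - R ^ 4) Lam c (c + 3 / 20 * R) L
  s : IsTh0 C0 (R ^ 4) (kS R c1) c (c + R / 25) S

namespace Two

variable {C0 : ℕ → ℝ} {A Lam c R c1 : ℝ} {L S : ℝ → ℝ} (h : Two C0 A Lam c R c1 L S)

/-- The small numbers. -/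
def tL (A Lam c R : ℝ) : ℝ := (A - R ^ 4) * Real.exp (Lam * (c + 1 - (c + 3 / 20 * R)))
def tS (c R c1 : ℝ) : ℝ := R ^ 4 * Real.exp (kS R c1 * (c + 1 - (c + R / 25)))

include h

theorem L0 : 0 < Lam := by linarith [h.hL]
theorem Rp : 0 < R := by linarith [h.g.R1]
theorem R4 : 0 < R ^ 4 := pow_pos h.Rp 4
theorem k1 : kS R c1 ≤ 1 := by linarith [h.g.k1]
theorem A0 : 0 < A := by rw [h.hA]; exact Real.exp_pos _

theorem A5 : 2 * R ^ 4 ≤ A := by
  rw [h.hA]
  have := h.Rp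
  have := h.hL
  exact h.g.a5.trans (Real.exp_le_exp.2 (by nlinarith))

theorem AL : 0 < A - R ^ 4 := by linarith [h.A5, h.R4]

theorem tL0 : 0 < tL A Lam c R := mul_pos h.AL (Real.exp_pos _)
theorem tS0 : 0 < tS c R c1 := mul_pos h.R4 (Real.exp_pos _)

theorem tL1 : 2 * tL A Lam c R ≤ t0 R c1 := by
  have h1 := h.R4
  have h2 := h.hL
  have h3 := h.g.R1
  refine le_trans (mul_le_mul_of_nonneg_left ?_ (by norm_num)) h.g.a6
  calc tL A Lam c R ≤ A * Real.exp (Lam * (c + 1 - (c + 3 / 20 * R))) :=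
        mul_le_mul_of_nonneg_right (by linarith) (Real.exp_pos _).le
    _ = Real.exp (Lam * (1 - R / 10)) := by
      rw [h.hA, ← Real.exp_add]
      congr 1
      ring
    _ ≤ Real.exp (1 - R / 10) := Real.exp_le_exp.2 (by nlinarith)

theorem tS2 : tS c R c1 ≤ Real.exp 1 * R ^ 4 * Real.exp (-(√(c1 * R) / 25)) := by
  have h1 : Real.exp (kS R c1 * (c + 1 - (c + R / 25))) ≤
      Real.exp 1 * Real.exp (-(√(c1 * R) / 25)) := by
    rw [← Real.exp_add]
    refine Real.exp_le_exp.2 ?_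
    have : kS R c1 * (c + 1 - (c + R / 25)) = kS R c1 - kS R c1 * R / 25 := by ring
    rw [this, h.g.kR]
    linarith [h.k1]
  have := mul_le_mul_of_nonneg_left h1 h.R4.le
  calc tS c R c1 ≤ R ^ 4 * (Real.exp 1 * Real.exp (-(√(c1 * R) / 25))) := this
    _ = _ := by ring

theorem tS1 : 2 * tS c R c1 ≤ t0 R c1 := (mul_le_mul_of_nonneg_left h.tS2 (by norm_num)).trans h.g.a1
theorem tS3 : tS c R c1 ≤ kS R c1 ^ 7 := h.tS2.trans h.g.a3

theorem t00 : 0 < t0 R c1 := Real.exp_pos _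
theorem t01 : t0 R c1 ≤ 1 := Real.exp_le_one_iff.2 (by
  have := Real.sqrt_nonneg (c1 * R)
  linarith)

theorem q0 (l : ℝ) : 0 ≤ deriv L l + deriv S l := add_nonneg (h.p.d0 l) (h.s.d0 l)

theorem de : deriv (fun l => L l + S l) = fun l => deriv L l + deriv S l :=
  funext fun l => ((h.p.sm.differentiable (by simp) l).hasDerivAt.add
    (h.s.sm.differentiable (by simp) l).hasDerivAt).deriv

theorem de2 : deriv (deriv (fun l => L l + S l)) = fun l => deriv (deriv L) l + deriv (deriv S) l := by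
  have pL1 : ContDiff ℝ ∞ (deriv L) := (contDiff_infty_iff_deriv.1 h.p.sm).2
  have pS1 : ContDiff ℝ ∞ (deriv S) := (contDiff_infty_iff_deriv.1 h.s.sm).2
  rw [h.de]
  funext l
  exact ((pL1.differentiable (by simp) l).hasDerivAt.add
    (pS1.differentiable (by simp) l).hasDerivAt).deriv

theorem it (j : ℕ) (l : ℝ) : iteratedDeriv j (fun l => L l + S l) l =
    iteratedDeriv j L l + iteratedDeriv j S l :=
  iteratedDeriv_fun_add (h.p.sm.contDiffAt.of_le (by exact_mod_cast le_top))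
    (h.s.sm.contDiffAt.of_le (by exact_mod_cast le_top))

theorem ll (j : ℕ) {l : ℝ} (hl : c + 1 ≤ l) : |iteratedDeriv (j + 2) (fun l => L l + S l) l| ≤
    C0 j * Lam ^ j * (deriv (deriv L) l + deriv (deriv S) l) := by
  rw [h.it]
  refine (abs_add_le _ _).trans ?_
  have h1 := h.p.ll j l hl
  have h2 := (h.s.ll j l hl).trans (mul_le_mul_of_nonneg_right (mul_le_mul_of_nonneg_left
    (pow_le_pow_left₀ h.g.k0.le (h.k1.trans h.hL) j) (h.hC j)) (h.s.cv l))
  linarith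

theorem up (l : ℝ) : deriv (deriv L) l + deriv (deriv S) l ≤
    Lam * (deriv L l + deriv S l + t0 R c1) := by
  have h1 : deriv (deriv L) l ≤ Lam * (deriv L l + tL A Lam c R) := h.p.up l
  have h2 : deriv (deriv S) l ≤ kS R c1 * (deriv S l + tS c R c1) := h.s.up l
  have h3 : kS R c1 * (deriv S l + tS c R c1) ≤ Lam * (deriv S l + tS c R c1) :=
    mul_le_mul_of_nonneg_right (h.k1.trans h.hL) (add_nonneg (h.s.d0 l) h.tS0.le)
  have h4 := h.tL1
  have h5 := h.tS1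
  have h6 : Lam * (tL A Lam c R + tS c R c1) ≤ Lam * t0 R c1 :=
    mul_le_mul_of_nonneg_left (by linarith) h.L0.le
  linarith

theorem topS {l : ℝ} (hl : c + 9 / 100 * R ≤ l) : R ^ 4 / 2 ≤ deriv S l := by
  have hR1 := h.g.R1
  have hx := h.g.x1
  have hk := h.k1
  refine h.s.top l ?_ ?_
  · have h1 : R / 20 ≤ l - (c + R / 25) := by linarith
    have h2 := mul_le_mul_of_nonneg_left h1 h.g.k0.le
    have h3 : kS R c1 * (R / 20) = √(c1 * R) / 20 := by rw [← h.g.kR]; ring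
    linarith
  · have h3 : kS R c1 * (c + R / 25 - (c + 1)) = √(c1 * R) / 25 - kS R c1 := by
      rw [← h.g.kR]; ring
    rw [h3]
    linarith

theorem top {l : ℝ} (hl : c + 3 / 10 * R ≤ l) : A / 2 ≤ deriv L l + deriv S l := by
  have hR1 := h.g.R1
  have hL := h.hL
  have h1 := h.topS (l := l) (by linarith)
  have h2 : (A - R ^ 4) / 2 ≤ deriv L l := by
    refine h.p.top l ?_ ?_
    · have : 15 ≤ l - (c + 3 / 20 * R) := by linarith
      nlinarith
    · have : 1 ≤ c + 3 / 20 * R - (c + 1) := by linarith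
      nlinarith
  linarith

/-- `Θ_L` is tiny for `l ≤ c + 9 R / 100`. -/
theorem xL {l : ℝ} (hl : l ≤ c + 9 / 100 * R) :
    Lam * ((A - R ^ 4) * Real.exp (Lam * (l - (c + 3 / 20 * R)))) ≤
      Lam * Real.exp (-(R / 100)) := by
  have hR := h.Rp
  have hL := h.hL
  refine mul_le_mul_of_nonneg_left ?_ h.L0.le
  calc (A - R ^ 4) * Real.exp (Lam * (l - (c + 3 / 20 * R)))
      ≤ A * Real.exp (Lam * (l - (c + 3 / 20 * R))) :=
        mul_le_mul_of_nonneg_right (by linarith [h.R4]) (Real.exp_pos _).le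
    _ ≤ A * Real.exp (Lam * (-(6 / 100 * R))) :=
        mul_le_mul_of_nonneg_left (Real.exp_le_exp.2
          (mul_le_mul_of_nonneg_left (by linarith) h.L0.le)) h.A0.le
    _ = Real.exp (-(Lam * (R / 100))) := by
        rw [h.hA, ← Real.exp_add]
        congr 1
        ring
    _ ≤ Real.exp (-(R / 100)) := Real.exp_le_exp.2 (by nlinarith)

theorem Lk {k : ℕ} (hk : k ≤ 6) : Lam ^ (k + 1) * Real.exp (-(R / 100)) ≤ kS R c1 ^ (k + 1) := by
  have h1 : Lam ^ (k + 1) ≤ Lam ^ 7 := pow_le_pow_right₀ h.hL (by omega)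
  have h2 : kS R c1 ^ 7 ≤ kS R c1 ^ (k + 1) := pow_le_pow_of_le_one h.g.k0.le h.k1 (by omega)
  exact (mul_le_mul_of_nonneg_right h1 (Real.exp_pos _).le).trans (h.g.a2.trans h2)

theorem esL {k : ℕ} (hk : k ≤ 6) {l : ℝ} (hl : l ≤ c + 9 / 100 * R) :
    |iteratedDeriv (k + 2) L l| ≤ C0 k * kS R c1 ^ (k + 1) := by
  have hC := h.hC k
  have h2 := h.p.s2 k l
  rw [max_eq_right h.hL] at h2
  refine h2.trans ?_
  have h3 := mul_le_mul_of_nonneg_left (h.xL hl) (mul_nonneg hC (pow_pos h.L0 k).le)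
  refine h3.trans ?_
  have h4 := mul_le_mul_of_nonneg_left (h.Lk hk) hC
  calc C0 k * Lam ^ k * (Lam * Real.exp (-(R / 100)))
      = C0 k * (Lam ^ (k + 1) * Real.exp (-(R / 100))) := by
        rw [pow_succ]
        ring
    _ ≤ _ := h4

theorem esS {k : ℕ} (hk : k ≤ 6) (l : ℝ) : |iteratedDeriv (k + 2) S l| ≤
    C0 k * kS R c1 ^ (k + 1) * (1 + (deriv L l + deriv S l)) := by
  have hC := h.hC k
  have k0 := h.g.k0
  have hy1 : 1 ≤ 1 + (deriv L l + deriv S l) := by linarith [h.q0 l]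
  rcases le_total (c + 1) l with h' | h'
  · refine (h.s.ll k l h').trans ?_
    have h6 := mul_le_mul_of_nonneg_left (h.s.up l) (mul_nonneg hC (pow_pos k0 k).le)
    refine h6.trans ?_
    have h7 : deriv S l + tS c R c1 ≤ 1 + (deriv L l + deriv S l) := by
      have := h.p.d0 l
      have := h.tS1
      have := h.t01
      have := h.tS0
      linarith
    calc C0 k * kS R c1 ^ k * (kS R c1 * (deriv S l + tS c R c1))
        = C0 k * kS R c1 ^ (k + 1) * (deriv S l + tS c R c1) := by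
          rw [pow_succ]
          ring
      _ ≤ _ := mul_le_mul_of_nonneg_left h7 (mul_nonneg hC (by positivity))
  · have h2 := h.s.s2 k l
    rw [max_eq_left h.k1, one_pow, mul_one] at h2
    refine h2.trans ?_
    have h3 : R ^ 4 * Real.exp (kS R c1 * (l - (c + R / 25))) ≤ tS c R c1 :=
      mul_le_mul_of_nonneg_left (Real.exp_le_exp.2
        (mul_le_mul_of_nonneg_left (by linarith) k0.le)) h.R4.le
    have h3' : 0 ≤ R ^ 4 * Real.exp (kS R c1 * (l - (c + R / 25))) :=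
      mul_nonneg h.R4.le (Real.exp_pos _).le
    have h4 : kS R c1 * (R ^ 4 * Real.exp (kS R c1 * (l - (c + R / 25)))) ≤ kS R c1 ^ 7 := by
      have h5 : kS R c1 * (R ^ 4 * Real.exp (kS R c1 * (l - (c + R / 25)))) ≤
          1 * (R ^ 4 * Real.exp (kS R c1 * (l - (c + R / 25)))) :=
        mul_le_mul_of_nonneg_right h.k1 h3'
      linarith [h.tS3]
    have h6 : kS R c1 ^ 7 ≤ kS R c1 ^ (k + 1) := pow_le_pow_of_le_one k0.le h.k1 (by omega)
    calc C0 k * (kS R c1 * (R ^ 4 * Real.exp (kS R c1 * (l - (c + R / 25)))))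
        ≤ C0 k * kS R c1 ^ (k + 1) := mul_le_mul_of_nonneg_left (h4.trans h6) hC
      _ ≤ _ := le_mul_of_one_le_right (mul_nonneg hC (by positivity)) hy1

theorem es {k : ℕ} (hk : k ≤ 6) (l : ℝ) : |iteratedDeriv (k + 2) (fun l => L l + S l) l| ≤
    2 * C0 k * (kS R c1 * √(1 + (deriv L l + deriv S l))) ^ (k + 1) *
      (1 + (deriv L l + deriv S l)) := by
  have hC := h.hC k
  have k0 := h.g.k0
  set y := 1 + (deriv L l + deriv S l) with hy
  have hy1 : 1 ≤ y := by linarith [h.q0 l]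
  have hy0 : 0 ≤ y := by linarith
  have hsy : 1 ≤ √y := Real.one_le_sqrt.2 hy1
  have hSS : kS R c1 ≤ kS R c1 * √y := le_mul_of_one_le_right k0.le hsy
  have hSk : kS R c1 ^ (k + 1) ≤ (kS R c1 * √y) ^ (k + 1) := pow_le_pow_left₀ k0.le hSS _
  have hP : 0 ≤ (kS R c1 * √y) ^ (k + 1) := by positivity
  rcases le_total l (c + 9 / 100 * R) with hl | hl
  · have h1 := h.esL hk hl
    have h5 := h.esS hk l
    rw [← hy] at h5
    rw [h.it]
    refine (abs_add_le _ _).trans ?_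
    have h8 : C0 k * kS R c1 ^ (k + 1) ≤ C0 k * kS R c1 ^ (k + 1) * y :=
      le_mul_of_one_le_right (mul_nonneg hC (by positivity)) hy1
    have h9 : C0 k * kS R c1 ^ (k + 1) * y ≤ C0 k * (kS R c1 * √y) ^ (k + 1) * y :=
      mul_le_mul_of_nonneg_right (mul_le_mul_of_nonneg_left hSk hC) hy0
    linarith
  · have hR1 := h.g.R1
    have h1 := h.ll k (l := l) (by linarith)
    have h2 := mul_le_mul_of_nonneg_left (h.up l) (mul_nonneg hC (pow_pos h.L0 k).le)
    have h3 : deriv L l + deriv S l + t0 R c1 ≤ y := by linarith [h.t01]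
    have h4 : Lam ≤ kS R c1 * √y := by
      refine le_of_sq_le_sq ?_ (by positivity)
      rw [mul_pow, Real.sq_sqrt hy0]
      refine h.g.a4.trans (mul_le_mul_of_nonneg_left ?_ (by positivity))
      have := h.topS hl
      have := h.p.d0 l
      linarith
    have h5 : Lam ^ (k + 1) ≤ (kS R c1 * √y) ^ (k + 1) := pow_le_pow_left₀ h.L0.le h4 _
    calc _ ≤ _ := h1
      _ ≤ _ := h2
      _ = C0 k * Lam ^ (k + 1) * (deriv L l + deriv S l + t0 R c1) := by
        rw [pow_succ]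
        ring
      _ ≤ C0 k * (kS R c1 * √y) ^ (k + 1) * y :=
        mul_le_mul (mul_le_mul_of_nonneg_left h5 hC) h3 (add_nonneg (h.q0 l) h.t00.le)
          (mul_nonneg hC hP)
      _ ≤ 2 * C0 k * (kS R c1 * √y) ^ (k + 1) * y := by
        have : 0 ≤ C0 k * (kS R c1 * √y) ^ (k + 1) * y := mul_nonneg (mul_nonneg hC hP) hy0
        linarith

theorem e2 (l : ℝ) : (deriv (deriv L) l + deriv (deriv S) l) ^ 2 ≤
    c1 / R * (1 + (deriv L l + deriv S l)) ^ 3 := by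
  set y := 1 + (deriv L l + deriv S l) with hy
  have hy1 : 1 ≤ y := by linarith [h.q0 l]
  have hy0 : 0 ≤ y := by linarith
  have k0 := h.g.k0
  have hcv : 0 ≤ deriv (deriv L) l + deriv (deriv S) l := add_nonneg (h.p.cv l) (h.s.cv l)
  rw [← h.g.kk]
  rcases le_total l (c + 9 / 100 * R) with hl | hl
  · have h1 : deriv (deriv L) l ≤ kS R c1 ^ 7 := by
      refine (h.p.xx l).trans ((h.xL hl).trans ?_)
      refine le_trans (mul_le_mul_of_nonneg_right ?_ (Real.exp_pos _).le) h.g.a2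
      exact le_self_pow₀ h.hL (by norm_num)
    have h2 : deriv (deriv S) l ≤ kS R c1 * (deriv S l + tS c R c1) := h.s.up l
    have h3 : kS R c1 ^ 7 ≤ kS R c1 * (1 / 2) := by
      have h4 : kS R c1 ^ 6 ≤ kS R c1 := by
        calc kS R c1 ^ 6 ≤ kS R c1 ^ 1 := pow_le_pow_of_le_one k0.le h.k1 (by norm_num)
          _ = kS R c1 := pow_one _
      calc kS R c1 ^ 7 = kS R c1 * kS R c1 ^ 6 := by ring
        _ ≤ kS R c1 * (1 / 2) :=
          mul_le_mul_of_nonneg_left (by linarith [h.g.k1]) k0.le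
    have h5 : tS c R c1 ≤ 1 / 2 := by linarith [h.tS1, h.t01]
    have h6 : deriv (deriv L) l + deriv (deriv S) l ≤ kS R c1 * y := by
      have h7 : kS R c1 * (deriv S l + tS c R c1) ≤ kS R c1 * (deriv S l + 1 / 2) :=
        mul_le_mul_of_nonneg_left (by linarith) k0.le
      have h8 := mul_nonneg k0.le (h.p.d0 l)
      rw [hy]
      linarith
    calc (deriv (deriv L) l + deriv (deriv S) l) ^ 2 ≤ (kS R c1 * y) ^ 2 :=
          pow_le_pow_left₀ hcv h6 2
      _ = kS R c1 ^ 2 * (y ^ 2 * 1) := by ring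
      _ ≤ kS R c1 ^ 2 * (y ^ 2 * y) :=
        mul_le_mul_of_nonneg_left (mul_le_mul_of_nonneg_left hy1 (by positivity))
          (by positivity)
      _ = kS R c1 ^ 2 * y ^ 3 := by ring
  · have h6 : deriv (deriv L) l + deriv (deriv S) l ≤ Lam * y := by
      refine (h.up l).trans (mul_le_mul_of_nonneg_left ?_ h.L0.le)
      rw [hy]
      linarith [h.t01]
    have h7 : Lam ^ 2 ≤ kS R c1 ^ 2 * y := by
      refine h.g.a4.trans (mul_le_mul_of_nonneg_left ?_ (by positivity))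
      have := h.topS hl
      have := h.p.d0 l
      rw [hy]
      linarith
    calc (deriv (deriv L) l + deriv (deriv S) l) ^ 2 ≤ (Lam * y) ^ 2 :=
          pow_le_pow_left₀ hcv h6 2
      _ = Lam ^ 2 * y ^ 2 := by ring
      _ ≤ kS R c1 ^ 2 * y * y ^ 2 := mul_le_mul_of_nonneg_right h7 (by positivity)
      _ = kS R c1 ^ 2 * y ^ 3 := by ring

theorem d1 (l : ℝ) : deriv L l + deriv S l ≤ A := by linarith [h.p.d1 l, h.s.d1 l]

/-- The constants. -/
theorem onA (j : ℕ) {l : ℝ} (hl : l ≤ c + 1) : |iteratedDeriv (j + 2) (fun l => L l + S l) l| ≤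
    C0 j * Lam ^ (j + 2) * t0 R c1 := by
  rw [h.it]
  refine (abs_add_le _ _).trans ?_
  have h3 := h.p.s2 j l
  have h4 := h.s.s2 j l
  rw [max_eq_right h.hL] at h3
  rw [max_eq_left h.k1, one_pow, mul_one] at h4
  have hj := h.hC j
  have k0 := h.g.k0
  have hL0 := h.L0
  have h5 : |iteratedDeriv (j + 2) L l| ≤ C0 j * Lam ^ (j + 2) * tL A Lam c R := by
    refine h3.trans ?_
    have e1 : C0 j * Lam ^ j * (Lam * ((A - R ^ 4) *
        Real.exp (Lam * (l - (c + 3 / 20 * R))))) = C0 j * Lam ^ (j + 1) * ((A - R ^ 4) *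
        Real.exp (Lam * (l - (c + 3 / 20 * R)))) := by
      rw [pow_succ]
      ring
    rw [e1]
    exact mul_le_mul (mul_le_mul_of_nonneg_left (pow_le_pow_right₀ h.hL (by omega)) hj)
      (mul_le_mul_of_nonneg_left (Real.exp_le_exp.2 (mul_le_mul_of_nonneg_left
        (by linarith) hL0.le)) h.AL.le) (mul_nonneg h.AL.le (Real.exp_pos _).le)
      (mul_nonneg hj (by positivity))
  have h6 : |iteratedDeriv (j + 2) S l| ≤ C0 j * Lam ^ (j + 2) * tS c R c1 := by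
    refine h4.trans ?_
    have h7 : kS R c1 * (R ^ 4 * Real.exp (kS R c1 * (l - (c + R / 25)))) ≤
        Lam ^ (j + 2) * tS c R c1 :=
      mul_le_mul (h.k1.trans (one_le_pow₀ h.hL)) (mul_le_mul_of_nonneg_left (Real.exp_le_exp.2
        (mul_le_mul_of_nonneg_left (by linarith) k0.le)) h.R4.le)
        (mul_nonneg h.R4.le (Real.exp_pos _).le) (by positivity)
    have := mul_le_mul_of_nonneg_left h7 hj
    linarith
  have h8 : C0 j * Lam ^ (j + 2) * (tL A Lam c R + tS c R c1) ≤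
      C0 j * Lam ^ (j + 2) * t0 R c1 :=
    mul_le_mul_of_nonneg_left (by linarith [h.tL1, h.tS1]) (mul_nonneg hj (by positivity))
  linarith

theorem on0 {l : ℝ} (hl : l ≤ c + 1) : |L l + S l| ≤ t0 R c1 ∧
    |deriv L l + deriv S l| ≤ t0 R c1 := by
  have h1 : deriv L l ≤ tL A Lam c R := (h.p.ex l).trans (mul_le_mul_of_nonneg_left
    (Real.exp_le_exp.2 (mul_le_mul_of_nonneg_left (by linarith) h.L0.le)) h.AL.le)
  have h2 : deriv S l ≤ tS c R c1 := (h.s.ex l).trans (mul_le_mul_of_nonneg_left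
    (Real.exp_le_exp.2 (mul_le_mul_of_nonneg_left (by linarith) h.g.k0.le)) h.R4.le)
  have h3 : deriv L l + deriv S l ≤ t0 R c1 := by linarith [h.tL1, h.tS1]
  refine ⟨?_, by rw [abs_of_nonneg (h.q0 l)]; exact h3⟩
  rw [abs_of_nonneg (add_nonneg (h.p.nn l) (h.s.nn l))]
  rcases le_total l c with h' | h'
  · rw [h.p.ze l h', h.s.ze l h', add_zero]
    exact h.t00.le
  · have h4 := h.p.h1 l h'
    have h5 := h.s.h1 l h'
    have h6 : (l - c) * deriv L l ≤ 1 * deriv L l :=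
      mul_le_mul_of_nonneg_right (by linarith) (h.p.d0 l)
    have h7 : (l - c) * deriv S l ≤ 1 * deriv S l :=
      mul_le_mul_of_nonneg_right (by linarith) (h.s.d0 l)
    linarith

theorem bdA (j : ℕ) (l : ℝ) : |iteratedDeriv (j + 2) (fun l => L l + S l) l| ≤
    C0 j * Lam ^ (j + 1) * A := by
  rw [h.it]
  refine (abs_add_le _ _).trans ?_
  have h3 := h.p.s3 j l
  have h4 := h.s.s3 j l
  rw [max_eq_right h.hL] at h3
  rw [max_eq_left h.k1, one_pow, mul_one] at h4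
  have hj := h.hC j
  have h5 : C0 j * Lam ^ j * (Lam * (A - R ^ 4)) = C0 j * Lam ^ (j + 1) * (A - R ^ 4) := by
    rw [pow_succ]
    ring
  have h6 : C0 j * (kS R c1 * R ^ 4) ≤ C0 j * Lam ^ (j + 1) * R ^ 4 := by
    have h7 : kS R c1 * R ^ 4 ≤ Lam ^ (j + 1) * R ^ 4 :=
      mul_le_mul_of_nonneg_right (h.k1.trans (one_le_pow₀ h.hL)) h.R4.le
    have := mul_le_mul_of_nonneg_left h7 hj
    linarith
  rw [h5] at h3
  linarith

theorem dn (l : ℝ) : deriv (deriv L) l + deriv (deriv S) l ≤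
    Lam * (A * Real.exp (-(Lam * (l - (c + 3 / 10 * R / 2))))) +
      R ^ 4 * Real.exp (-(kS R c1 * (l - (c + R / 25)))) := by
  have e1 : c + 3 / 10 * R / 2 = c + 3 / 20 * R := by ring
  rw [e1]
  have h1 := h.p.dn l
  have h2 := h.s.dn l
  have h3 : Lam * ((A - R ^ 4) * Real.exp (-(Lam * (l - (c + 3 / 20 * R))))) ≤
      Lam * (A * Real.exp (-(Lam * (l - (c + 3 / 20 * R))))) :=
    mul_le_mul_of_nonneg_left (mul_le_mul_of_nonneg_right (by linarith [h.R4])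
      (Real.exp_pos _).le) h.L0.le
  have h4 : kS R c1 * (R ^ 4 * Real.exp (-(kS R c1 * (l - (c + R / 25))))) ≤
      1 * (R ^ 4 * Real.exp (-(kS R c1 * (l - (c + R / 25))))) :=
    mul_le_mul_of_nonneg_right h.k1 (mul_nonneg h.R4.le (Real.exp_pos _).le)
  linarith

theorem lo (l : ℝ) : A / 2 * (l - (c + 3 / 10 * R)) ≤ L l + S l := by
  have hA0 := h.A0
  have hd : ∀ l, HasDerivAt (fun l => (L l + S l) - A / 2 * l)
      ((deriv L l + deriv S l) - A / 2 * 1) l := fun l =>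
    (((h.p.sm.differentiable (by simp) l).hasDerivAt).add
      ((h.s.sm.differentiable (by simp) l).hasDerivAt)).sub
      ((hasDerivAt_id l).const_mul (A / 2))
  rcases le_total l (c + 3 / 10 * R) with h' | h'
  · have := mul_nonneg (by linarith : 0 ≤ A / 2) (sub_nonneg.2 h')
    linarith [h.p.nn l, h.s.nn l]
  · have hm : MonotoneOn (fun l => (L l + S l) - A / 2 * l) (Ici (c + 3 / 10 * R)) := by
      refine monotoneOn_of_deriv_nonneg (convex_Ici _)
        (fun l _ => (hd l).continuousAt.continuousWithinAt)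
        (fun l _ => (hd l).differentiableAt.differentiableWithinAt) fun l hl => ?_
      rw [interior_Ici] at hl
      rw [(hd l).deriv]
      linarith [h.top (le_of_lt hl)]
    have h1 := hm self_mem_Ici h' h'
    simp only at h1
    linarith [h.p.nn (c + 3 / 10 * R), h.s.nn (c + 3 / 10 * R)]

theorem hi {l : ℝ} (hl : c ≤ l) : L l + S l ≤ A * (l - c) := by
  have h1 := h.p.h1 l hl
  have h2 := h.s.h1 l hl
  have h3 := mul_le_mul_of_nonneg_left (h.p.d1 l) (sub_nonneg.2 hl)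
  have h4 := mul_le_mul_of_nonneg_left (h.s.d1 l) (sub_nonneg.2 hl)
  linarith

/-- The constants of `IsThR`. -/
theorem isThR : IsThR (fun j => 2 + 2 * C0 j + C0 (j - 1) + C0 (j - 2)) A Lam c (3 / 10 * R) R c1
    (fun l => L l + S l) := by
  have hC := h.hC
  have hL1 : ∀ j : ℕ, 1 ≤ Lam ^ j := fun j => one_le_pow₀ h.hL
  have ht0 := h.t00
  have hA0 := h.A0
  have hL0 := h.L0
  have hCk : ∀ k, 2 * C0 k ≤ 2 + 2 * C0 k + C0 (k - 1) + C0 (k - 2) := fun k => by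
    have := hC (k - 1)
    have := hC (k - 2)
    linarith
  have hC1 : ∀ k, 1 ≤ 2 + 2 * C0 k + C0 (k - 1) + C0 (k - 2) := fun k => by
    have := hC k
    have := hC (k - 1)
    have := hC (k - 2)
    linarith
  have hes' : ∀ k, k ≤ 6 → ∀ l, |iteratedDeriv (k + 2) (fun l => L l + S l) l| ≤
      (2 + 2 * C0 k + C0 (k - 1) + C0 (k - 2)) *
        (kS R c1 * √(1 + (deriv L l + deriv S l))) ^ (k + 1) *
        (1 + (deriv L l + deriv S l)) := fun k hk l => by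
    have k0 := h.g.k0
    exact (h.es hk l).trans (mul_le_mul_of_nonneg_right (mul_le_mul_of_nonneg_right (hCk k)
      (by positivity)) (by linarith [h.q0 l]))
  have hmain : ∀ (j : ℕ) (z : ℝ), z ≤ t0 R c1 →
      z ≤ (2 + 2 * C0 j + C0 (j - 1) + C0 (j - 2)) * Lam ^ j * t0 R c1 := by
    intro j z hz
    refine hz.trans (le_mul_of_one_le_left ht0.le ?_)
    exact one_le_mul_of_one_le_of_one_le (hC1 j) (hL1 j)
  refine ⟨h.p.sm.add h.s.sm, fun l hl => ?_, fun l => add_nonneg (h.p.nn l) (h.s.nn l),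
    fun l => ?_, fun l => ?_, fun l => ?_, fun l hl => ?_, fun j l hl => ?_, fun j l hl => ?_,
    fun l => ?_, fun l hl => ?_, fun l => ?_, fun j l => ?_, h.lo, fun l hl => h.hi hl,
    fun k hk l => ?_, fun l => ?_, fun l => ?_, fun l => ?_⟩
  · show L l + S l = 0
    rw [h.p.ze l hl, h.s.ze l hl, add_zero]
  · rw [h.de]; exact h.q0 l
  · rw [h.de]; exact h.d1 l
  · rw [h.de2]; exact add_nonneg (h.p.cv l) (h.s.cv l)
  · rw [h.de2]; exact add_pos (h.p.cp l hl) (h.s.cp l hl)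
  · -- `on`
    rcases j with _ | _ | j
    · rw [iteratedDeriv_zero]
      exact hmain 0 _ (h.on0 hl).1
    · rw [zero_add, iteratedDeriv_one, h.de]
      exact hmain 1 _ (h.on0 hl).2
    · refine (h.onA j hl).trans (mul_le_mul_of_nonneg_right (mul_le_mul_of_nonneg_right ?_
        (by positivity)) ht0.le)
      show C0 j ≤ 2 + 2 * C0 (j + 2) + C0 (j + 2 - 1) + C0 (j + 2 - 2)
      have := hC (j + 2)
      have := hC (j + 2 - 1)
      have e : C0 (j + 2 - 2) = C0 j := by simp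
      rw [e]
      linarith
  · -- `ll`
    rw [h.de2]
    refine (h.ll j hl).trans (mul_le_mul_of_nonneg_right (mul_le_mul_of_nonneg_right ?_
      (by positivity)) (add_nonneg (h.p.cv l) (h.s.cv l)))
    have := hCk j
    have := hC j
    show C0 j ≤ 2 + 2 * C0 j + C0 (j - 1) + C0 (j - 2)
    linarith
  · rw [h.de2, h.de]; exact h.up l
  · rw [h.de]; exact h.top hl
  · rw [h.de2]; exact h.dn l
  · -- `bd`
    rcases j with _ | j
    · rw [zero_add, iteratedDeriv_one, h.de]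
      show |deriv L l + deriv S l| ≤ _
      rw [abs_of_nonneg (h.q0 l)]
      exact (h.d1 l).trans (le_mul_of_one_le_left hA0.le
        (one_le_mul_of_one_le_of_one_le (hC1 0) (hL1 0)))
    · refine (h.bdA j l).trans (mul_le_mul_of_nonneg_right (mul_le_mul_of_nonneg_right ?_
        (by positivity)) hA0.le)
      show C0 j ≤ 2 + 2 * C0 (j + 1) + C0 (j + 1 - 1) + C0 (j + 1 - 2)
      have := hC (j + 1)
      have := hC (j + 1 - 2)
      have e : C0 (j + 1 - 1) = C0 j := by simp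
      rw [e]
      linarith
  · rw [h.de]; exact hes' k hk l
  · rw [h.de2, h.de]; exact h.e2 l
  · -- `e3`
    rw [h.de]
    have h1 := hes' 1 (by norm_num) l
    have hy1 : 0 ≤ 1 + (deriv L l + deriv S l) := by linarith [h.q0 l]
    have e : (kS R c1 * √(1 + (deriv L l + deriv S l))) ^ (1 + 1) *
        (1 + (deriv L l + deriv S l)) = c1 / R * (1 + (deriv L l + deriv S l)) ^ 2 := by
      rw [mul_pow, Real.sq_sqrt hy1, h.g.kk]
      ring
    rw [mul_assoc, e, ← mul_assoc] at h1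
    exact h1
  · -- `e4`
    rw [h.de]
    have h1 := hes' 2 (by norm_num) l
    have hy0 : 0 < 1 + (deriv L l + deriv S l) := by linarith [h.q0 l]
    have hcR : 0 ≤ c1 / R := by rw [← h.g.kk]; positivity
    have e : (kS R c1 * √(1 + (deriv L l + deriv S l))) ^ (2 + 1) *
        (1 + (deriv L l + deriv S l)) =
        (c1 / R) ^ (3 / 2 : ℝ) * (1 + (deriv L l + deriv S l)) ^ (5 / 2 : ℝ) := by
      have e1 : kS R c1 ^ 3 = (c1 / R) ^ (3 / 2 : ℝ) := by
        rw [kS, Real.sqrt_eq_rpow, ← Real.rpow_natCast, ← Real.rpow_mul hcR]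
        norm_num
      have e2 : √(1 + (deriv L l + deriv S l)) ^ 3 =
          (1 + (deriv L l + deriv S l)) ^ (3 / 2 : ℝ) := by
        rw [Real.sqrt_eq_rpow, ← Real.rpow_natCast, ← Real.rpow_mul hy0.le]
        norm_num
      have e3 : (1 + (deriv L l + deriv S l)) ^ (5 / 2 : ℝ) =
          (1 + (deriv L l + deriv S l)) ^ (3 / 2 : ℝ) * (1 + (deriv L l + deriv S l)) := by
        have := Real.rpow_add hy0 (3 / 2 : ℝ) 1
        rw [Real.rpow_one] at this
        rw [← this]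
        norm_num
      rw [show (2 : ℕ) + 1 = 3 from rfl, mul_pow, e1, e2, e3, mul_assoc]
    rw [mul_assoc, e, ← mul_assoc] at h1
    exact h1

end Two

/-- **Existence of `Θ`.** -/
theorem exists_thR : ∃ Ck : ℕ → ℝ, (∀ j, 0 ≤ Ck j) ∧ ∀ Lam c1 : ℝ, 1 ≤ Lam → 0 < c1 → c1 ≤ 1 →
    ∃ R0 : ℝ, ∀ R, R0 ≤ R → ∀ c : ℝ, ∃ Th : ℝ → ℝ,
      IsThR Ck (Real.exp (Lam * R / 20)) Lam c (3 / 10 * R) R c1 Th := by
  obtain ⟨C0, hC0, H0⟩ := exists_th0
  refine ⟨fun j => 2 + 2 * C0 j + C0 (j - 1) + C0 (j - 2), fun j => by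
    have := hC0 j; have := hC0 (j - 1); have := hC0 (j - 2); positivity,
    fun Lam c1 hL hc hc1 => ?_⟩
  obtain ⟨R0, hR0⟩ := ex_big hL hc hc1
  refine ⟨R0, fun R hR c => ?_⟩
  have g := hR0 R hR
  have hRp : 0 < R := by linarith [g.R1]
  have hA5 : 2 * R ^ 4 ≤ Real.exp (Lam * R / 20) := g.a5.trans (Real.exp_le_exp.2 (by nlinarith))
  have hR4 : 0 < R ^ 4 := by positivity
  obtain ⟨L, p⟩ := H0 (Real.exp (Lam * R / 20) - R ^ 4) Lam c (c + 3 / 20 * R) (by linarith)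
    (by linarith)
  obtain ⟨S, s⟩ := H0 (R ^ 4) (kS R c1) c (c + R / 25) hR4 g.k0
  exact ⟨_, (Two.mk g hL rfl hC0 p s).isThR⟩

end Vale.Agent.P088.R2.H313.Th
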