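import Vale.Agent.P088.R2.H313.PhiE

/-!
# P088, stage 3, row PHI2: second and third growth of the slope (part A, the rate)
-/

open Set Filter Topology MeasureTheory
open scoped ContDiff

noncomputable section

namespace Vale.Agent.P088.R2.H313.Tp

open Vale.Agent.P088.R2.H313.Ph

/-- `1` for `x ≥ 0`, `e^x` for `x ≤ -1`. -/
def hl (x : ℝ) : ℝ := hh (-x)

theorem hl_bd : Bd (fun _ : Unit => hl) fun _ => hl := by
  refine ⟨fun _ => hh_smooth.comp contDiff_neg, fun k => ?_⟩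
  obtain ⟨C, hC, h⟩ := hh_bd.2 k
  refine ⟨C, hC, fun _ u => ?_⟩
  have e : iteratedDeriv k (fun x => hh (-x)) u = (-1 : ℝ) ^ k • iteratedDeriv k hh (-u) :=
    iteratedDeriv_comp_neg k hh u
  show |iteratedDeriv k (fun x => hh (-x)) u| ≤ C * hh (-u)
  rw [e, smul_eq_mul, abs_mul, abs_pow, abs_neg, abs_one, one_pow, one_mul]
  exact h () (-u)

theorem hl_pos (x : ℝ) : 0 < hl x := hh_pos _
theorem hl_le_one (x : ℝ) : hl x ≤ 1 := hh_le_one _
theorem hl_right {x : ℝ} (h : 0 ≤ x) : hl x = 1 := hh_left (by linarith)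
theorem hl_left {x : ℝ} (h : x ≤ -1) : hl x = Real.exp x := by
  rw [hl, hh_right (by linarith), neg_neg]

theorem hh_ge {x : ℝ} (h : 0 ≤ x) : Real.exp (-x) ≤ hh x := by
  have h1 : Real.exp (-x) ≤ 1 := Real.exp_le_one_iff.2 (by linarith)
  have h2 : hh x = Real.exp (-x) + (1 - st x) * (1 - Real.exp (-x)) := by unfold hh; ring
  rw [h2]
  have := mul_nonneg (sub_nonneg.2 (st_le_one x)) (sub_nonneg.2 h1)
  linarith

theorem hh_le (x : ℝ) : hh x ≤ Real.exp (1 - x) := by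
  rcases le_total x 1 with h | h
  · exact (hh_le_one x).trans (Real.one_le_exp (by linarith))
  · rw [hh_right h]
    exact Real.exp_le_exp.2 (by linarith)

theorem hl_le (x : ℝ) : hl x ≤ Real.exp (1 + x) := by
  have := hh_le (-x)
  rwa [sub_neg_eq_add] at this

theorem hl_ge {x : ℝ} (h : x ≤ 0) : Real.exp x ≤ hl x := by
  have := hh_ge (x := -x) (by linarith)
  rwa [neg_neg] at this

/-- The index: `m = M₀`, `t = u_th`, `a = u_a`, `b = u_b`. -/
structure Tx (p : Pr) (f2 : ℝ) where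
  m : ℝ
  t : ℝ
  a : ℝ
  b : ℝ
  hm : p.Lg m
  ht : 2 * (Real.log m + p.s2 + 2) ≤ t
  ht4 : 4 ≤ t
  ha : t + 1 ≤ a
  hb : a + 1 ≤ b
  hR1 : ∀ u, t - 1 ≤ u → p.RR m u ≤ f2 * Real.exp (t - u - 2)
  hR2 : ∀ u, t - 1 ≤ u → p.RR m u ≤ 1 / 20

section
variable {p : Pr} {f2 : ℝ} (L : ℝ)

def ra (i : Tx p f2) (u : ℝ) : ℝ := p.RR i.m u * (1 - st (u - (i.t - 1)))
def rb (i : Tx p f2) (u : ℝ) : ℝ := hl (u - i.t) * (f2 * (st (u - i.t / 2) * (1 - st (u - i.a))))
def rc (i : Tx p f2) (u : ℝ) : ℝ := hh (u - i.b) * (L * st (u - i.a))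
/-- The rate `K / N`. -/
def rt (i : Tx p f2) (u : ℝ) : ℝ := ra i u + rb i u + rc L i u

variable {L}

theorem ra_nonneg (i : Tx p f2) (u : ℝ) : 0 ≤ ra i u :=
  mul_nonneg (i.hm.R_pos u).le (sub_nonneg.2 (st_le_one _))

theorem rb_nonneg (hf : 0 < f2) (i : Tx p f2) (u : ℝ) : 0 ≤ rb i u :=
  mul_nonneg (hl_pos _).le (mul_nonneg hf.le (mul_nonneg (st_nonneg _)
    (sub_nonneg.2 (st_le_one _))))

theorem rc_nonneg (hL : 0 ≤ L) (i : Tx p f2) (u : ℝ) : 0 ≤ rc L i u :=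
  mul_nonneg (hh_pos _).le (mul_nonneg hL (st_nonneg _))

theorem ra_left {i : Tx p f2} {u : ℝ} (h : u ≤ i.t - 1) : ra i u = p.RR i.m u := by
  rw [ra, st_zero (by linarith)]
  ring

theorem ra_right {i : Tx p f2} {u : ℝ} (h : i.t ≤ u) : ra i u = 0 := by
  rw [ra, st_one (by linarith)]
  ring

theorem rb_left {i : Tx p f2} {u : ℝ} (h : u ≤ i.t / 2) : rb i u = 0 := by
  rw [rb, st_zero (by linarith)]
  ring

theorem rb_right {i : Tx p f2} {u : ℝ} (h : i.a + 1 ≤ u) : rb i u = 0 := by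
  rw [rb, st_one (x := u - i.a) (by linarith)]
  ring

theorem rb_mid {i : Tx p f2} {u : ℝ} (h : i.t / 2 + 1 ≤ u) (h' : u ≤ i.a) :
    rb i u = f2 * hl (u - i.t) := by
  rw [rb, st_one (x := u - i.t / 2) (by linarith), st_zero (by linarith)]
  ring

theorem rc_left {i : Tx p f2} {u : ℝ} (h : u ≤ i.a) : rc L i u = 0 := by
  rw [rc, st_zero (x := u - i.a) (by linarith)]
  ring

theorem rc_right {i : Tx p f2} {u : ℝ} (h : i.a + 1 ≤ u) : rc L i u = L * hh (u - i.b) := by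
  rw [rc, st_one (x := u - i.a) (by linarith)]
  ring

/-- The rate on `[t, a]`. -/
theorem rt_ta {i : Tx p f2} {u : ℝ} (h : i.t ≤ u) (h' : u ≤ i.a) : rt L i u = f2 := by
  rw [rt, ra_right h, rb_mid (by linarith [i.ht4]) h', rc_left h', hl_right (by linarith)]
  ring

theorem rt_aa {i : Tx p f2} {u : ℝ} (h : i.a ≤ u) (h' : u ≤ i.a + 1) :
    rt L i u = f2 + (L - f2) * st (u - i.a) := by
  have h1 := i.ha
  have h2 := i.hb
  have h3 := i.ht4
  rw [rt, ra_right (by linarith), rb, rc, hl_right (by linarith), hh_left (by linarith),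
    st_one (x := u - i.t / 2) (by linarith)]
  ring

theorem rt_ab {i : Tx p f2} {u : ℝ} (h : i.a + 1 ≤ u) (h' : u ≤ i.b) : rt L i u = L := by
  have h1 := i.ha
  rw [rt, ra_right (by linarith), rb_right h, rc_right h, hh_left (by linarith)]
  ring

theorem rt_b {i : Tx p f2} {u : ℝ} (h : i.b ≤ u) : rt L i u = L * hh (u - i.b) := by
  have h1 := i.ha
  have h2 := i.hb
  rw [rt, ra_right (by linarith), rb_right (by linarith), rc_right (by linarith)]
  ring

theorem rt_left {i : Tx p f2} {u : ℝ} (h : u ≤ i.t / 2) : rt L i u = p.RR i.m u := by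
  have h1 := i.ht4
  have h2 := i.ha
  rw [rt, ra_left (by linarith), rb_left h, rc_left (by linarith)]
  ring

/-- The tail of the base rate from below. -/
theorem RR_low {i : Tx p f2} {u : ℝ} (h : i.t / 2 ≤ u) :
    p.C2 * p.X * Real.exp (-u) ≤ p.RR i.m u := by
  have h1 := i.ht
  have h2 : p.s2 + 1 ≤ u - Real.log i.m := by linarith
  have h3 : p.RR i.m u = p.R0 (u - Real.log i.m) + p.Q i.m u := rfl
  rw [h3, p.R0_right h2]
  have h4 := i.hm.Q_nonneg u
  have h5 := i.hm.log_nonneg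
  have h6 : Real.exp (-u) ≤ Real.exp (-(u - Real.log i.m)) := Real.exp_le_exp.2 (by linarith)
  have h7 : 0 < p.C2 * p.X := mul_pos p.h2 p.X_pos
  have := mul_le_mul_of_nonneg_left h6 h7.le
  linarith

theorem rt_ge_f2 (hL : f2 ≤ L) {i : Tx p f2} {u : ℝ} (h : i.t ≤ u) (h' : u ≤ i.b) :
    f2 ≤ rt L i u := by
  rcases le_total u i.a with h1 | h1
  · rw [rt_ta h h1]
  · rcases le_total u (i.a + 1) with h2 | h2
    · rw [rt_aa h1 h2]
      have := mul_nonneg (sub_nonneg.2 hL) (st_nonneg (u - i.a))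
      linarith
    · rw [rt_ab h2 h']
      exact hL

theorem rt_pos (hf : 0 < f2) (hL : f2 ≤ L) (i : Tx p f2) (u : ℝ) : 0 < rt L i u := by
  have h0 := ra_nonneg i u
  have h1 := rb_nonneg hf i u
  have h2 := rc_nonneg (hf.le.trans hL) i u
  rcases le_total u (i.t - 1) with h | h
  · have := i.hm.R_pos u
    rw [rt, ra_left h]
    linarith
  · rcases le_total u i.t with h3 | h3
    · have h4 : 0 < rb i u := by
        rw [rb_mid (by linarith [i.ht4]) (by linarith [i.ha])]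
        exact mul_pos hf (hl_pos _)
      rw [rt]
      linarith
    · rcases le_total u i.b with h4 | h4
      · exact lt_of_lt_of_le hf (rt_ge_f2 hL h3 h4)
      · rw [rt_b h4]
        exact mul_pos (lt_of_lt_of_le hf hL) (hh_pos _)

end

end Vale.Agent.P088.R2.H313.Tp
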