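import Vale.Agent.P088.R2.H313.TopA

/-!
# P088, stage 3, row PHI2 (part B: relative derivative bounds of the rate, the slope)
-/

open Set Filter Topology MeasureTheory
open scoped ContDiff

noncomputable section

namespace Vale.Agent.P088.R2.H313.Tp

open Vale.Agent.P088.R2.H313.Ph

theorem zero_near {g : ℝ → ℝ} {u : ℝ} (h : ∀ᶠ v in 𝓝 u, g v = 0) (k : ℕ) :
    iteratedDeriv k g u = 0 := by
  have h1 : g =ᶠ[𝓝 u] fun _ => (0 : ℝ) := h
  rw [h1.iteratedDeriv_eq k, iteratedDeriv_const]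
  simp

/-- A family with `N' = N R`. -/
theorem iter_gen {Λ : Type*} {N R : Λ → ℝ → ℝ} (hR : Bd R R)
    (hR1 : Bd (fun (_ : Λ) (_ : ℝ) => (1 : ℝ)) R)
    (hN : ∀ a u, HasDerivAt (N a) (N a u * R a u) u) (j : ℕ) :
    ∃ f : Λ → ℝ → ℝ, Bd R f ∧ ∀ a u, iteratedDeriv (j + 1) (N a) u = N a u * f a u := by
  induction j with
  | zero =>
    refine ⟨R, hR, fun a u => ?_⟩
    rw [zero_add, iteratedDeriv_one]
    exact (hN a u).deriv
  | succ j ih =>
    obtain ⟨f, hf, he⟩ := ih
    refine ⟨fun a u => f a u * R a u + deriv (f a) u, (hf.mul hR1).add hf.deriv, fun a u => ?_⟩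
    have e : iteratedDeriv (j + 1 + 1) (N a) u = deriv (fun u => N a u * f a u) u := by
      rw [iteratedDeriv_succ]
      congr 1
      funext v
      exact he a v
    rw [e]
    have h2 : HasDerivAt (f a) (deriv (f a) u) u :=
      ((hf.1 a).differentiable (by simp) _).hasDerivAt
    have h4 := ((hN a u).mul h2).deriv
    refine h4.trans ?_
    ring

section
variable {p : Pr} {f2 : ℝ} {L : ℝ}

theorem RR_bd : Bd (fun (i : Tx p f2) u => p.RR i.m u) fun i u => p.RR i.m u := by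
  have h := p.bd_R
  refine ⟨fun i => h.1 ⟨i.m, i.hm⟩, fun k => ?_⟩
  obtain ⟨C, hC, h1⟩ := h.2 k
  exact ⟨C, hC, fun i u => h1 ⟨i.m, i.hm⟩ u⟩

theorem one_sub_st (c : Tx p f2 → ℝ) :
    Bd (fun (_ : Tx p f2) (_ : ℝ) => (1 : ℝ)) fun i u => 1 - st (u - c i) := by
  have h1 : Bd (fun (_ : Tx p f2) (_ : ℝ) => (1 : ℝ)) fun i u => st (u - c i) * (-1) :=
    (st_bd.shift c).mul (Bd.const (c := fun _ => (-1 : ℝ)) (C := 1) fun _ => by simp)
  have h2 : Bd (fun (_ : Tx p f2) (_ : ℝ) => (1 : ℝ)) fun i u => (1 : ℝ) + st (u - c i) * (-1) :=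
    (Bd.const (c := fun _ => (1 : ℝ)) (C := 1) fun _ => by simp).add h1
  have e : (fun (i : Tx p f2) u => 1 - st (u - c i)) =
      fun i u => (1 : ℝ) + st (u - c i) * (-1) := by
    funext i u
    ring
  rw [e]
  exact h2

theorem ra_bd (hf : 0 < f2) (hL : f2 ≤ L) : Bd (fun (i : Tx p f2) u => rt L i u) ra := by
  have h := (RR_bd (p := p) (f2 := f2)).mul (one_sub_st fun i => i.t - 1)
  refine ⟨h.1, fun k => ?_⟩
  obtain ⟨C, hC, h1⟩ := h.2 k
  have hc : 0 ≤ C * (1 + 2 * Real.exp 1 / f2) := by positivity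
  refine ⟨C * (1 + 2 * Real.exp 1 / f2), hc, fun i u => ?_⟩
  have hrt := rt_pos hf hL i u
  rcases lt_or_ge i.t u with hu | hu
  · rw [zero_near (g := ra i)]
    · rw [abs_zero]
      positivity
    · filter_upwards [lt_mem_nhds hu] with v hv
      exact ra_right hv.le
  · refine (h1 i u).trans ?_
    rw [mul_assoc]
    refine mul_le_mul_of_nonneg_left ?_ hC
    have b0 := ra_nonneg i u
    have b1 := rb_nonneg hf i u
    have b2 := rc_nonneg (hf.le.trans hL) i u
    show p.RR i.m u ≤ _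
    rcases le_total u (i.t - 1) with h2 | h2
    · have h3 : p.RR i.m u ≤ rt L i u := by
        rw [rt, ra_left h2]
        linarith
      refine h3.trans (le_mul_of_one_le_left hrt.le ?_)
      have : 0 ≤ 2 * Real.exp 1 / f2 := by positivity
      linarith
    · have h3 : f2 * Real.exp (-1) ≤ rt L i u := by
        have h4 : f2 * Real.exp (-1) ≤ rb i u := by
          rw [rb_mid (by linarith [i.ht4]) (by linarith [i.ha])]
          refine mul_le_mul_of_nonneg_left ?_ hf.le
          exact (Real.exp_le_exp.2 (by linarith)).trans (hl_ge (by linarith))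
        rw [rt]
        linarith
      have h5 : p.RR i.m u ≤ 2 := by linarith [i.hR2 u h2]
      have h6 : 2 * Real.exp 1 / f2 * (f2 * Real.exp (-1)) = 2 := by
        rw [Real.exp_neg]
        field_simp
      calc p.RR i.m u ≤ 2 * Real.exp 1 / f2 * (f2 * Real.exp (-1)) := by rw [h6]; exact h5
        _ ≤ 2 * Real.exp 1 / f2 * rt L i u := mul_le_mul_of_nonneg_left h3 (by positivity)
        _ ≤ (1 + 2 * Real.exp 1 / f2) * rt L i u := by linarith

theorem rb_bd (hf : 0 < f2) (hL : f2 ≤ L) : Bd (fun (i : Tx p f2) u => rt L i u) rb := by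
  have h0 : Bd (fun (_ : Tx p f2) (_ : ℝ) => (1 : ℝ)) fun i u =>
      f2 * (st (u - i.t / 2) * (1 - st (u - i.a))) := by
    have h1 := (st_bd.shift fun i : Tx p f2 => i.t / 2).mul (one_sub_st fun i => i.a)
    exact (Bd.const (c := fun _ : Tx p f2 => f2) (C := f2) fun _ => by
      rw [abs_of_pos hf]).mul h1
  have h := (hl_bd.shift fun i : Tx p f2 => i.t).mul h0
  refine ⟨h.1, fun k => ?_⟩
  obtain ⟨C, hC, h1⟩ := h.2 k
  have hcX : 0 < p.C2 * p.X := mul_pos p.h2 p.X_pos
  have hc : 0 ≤ C * (1 / f2 + Real.exp 3 / (p.C2 * p.X)) := by positivity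
  refine ⟨C * (1 / f2 + Real.exp 3 / (p.C2 * p.X)), hc, fun i u => ?_⟩
  have hrt := rt_pos hf hL i u
  rcases lt_or_ge u (i.t / 2) with hu | hu
  · rw [zero_near (g := rb i)]
    · rw [abs_zero]
      positivity
    · filter_upwards [gt_mem_nhds hu] with v hv
      exact rb_left hv.le
  · rcases lt_or_ge (i.a + 1) u with hu' | hu'
    · rw [zero_near (g := rb i)]
      · rw [abs_zero]
        positivity
      · filter_upwards [lt_mem_nhds hu'] with v hv
        exact rb_right hv.le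
    · refine (h1 i u).trans ?_
      rw [mul_assoc]
      refine mul_le_mul_of_nonneg_left ?_ hC
      have b0 := ra_nonneg i u
      have b1 := rb_nonneg hf i u
      have b2 := rc_nonneg (hf.le.trans hL) i u
      have i4 := i.ht4
      have ia := i.ha
      have ib := i.hb
      have q1 : 0 ≤ 1 / f2 * rt L i u := by positivity
      have q2 : 0 ≤ Real.exp 3 / (p.C2 * p.X) * rt L i u := by positivity
      show hl (u - i.t) ≤ _
      rcases le_total u (i.t / 2 + 1) with h2 | h2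
      · have h3 : p.RR i.m u ≤ rt L i u := by
          rw [rt, ra_left (by linarith)]
          linarith
        have h4 : hl (u - i.t) ≤ Real.exp 3 * Real.exp (-u) := by
          refine (hl_le _).trans ?_
          rw [← Real.exp_add]
          exact Real.exp_le_exp.2 (by linarith)
        have h5 := RR_low hu
        calc hl (u - i.t) ≤ Real.exp 3 * Real.exp (-u) := h4
          _ = Real.exp 3 / (p.C2 * p.X) * (p.C2 * p.X * Real.exp (-u)) := by
            rw [← mul_assoc, div_mul_cancel₀ _ hcX.ne']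
          _ ≤ Real.exp 3 / (p.C2 * p.X) * rt L i u :=
            mul_le_mul_of_nonneg_left (h5.trans h3) (by positivity)
          _ ≤ _ := by linarith
      · rcases le_total u i.a with h3 | h3
        · have h4 : f2 * hl (u - i.t) ≤ rt L i u := by
            rw [rt, rb_mid h2 h3]
            linarith
          calc hl (u - i.t) = 1 / f2 * (f2 * hl (u - i.t)) := by field_simp
            _ ≤ 1 / f2 * rt L i u := mul_le_mul_of_nonneg_left h4 (by positivity)
            _ ≤ _ := by linarith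
        · have h4 : f2 ≤ rt L i u := rt_ge_f2 hL (by linarith) (by linarith)
          calc hl (u - i.t) ≤ 1 := hl_le_one _
            _ = 1 / f2 * f2 := by field_simp
            _ ≤ 1 / f2 * rt L i u := mul_le_mul_of_nonneg_left h4 (by positivity)
            _ ≤ _ := by linarith

theorem rc_bd (hf : 0 < f2) (hL : f2 ≤ L) : Bd (fun (i : Tx p f2) u => rt L i u) (rc L) := by
  have hL0 : 0 < L := lt_of_lt_of_le hf hL
  have h0 : Bd (fun (_ : Tx p f2) (_ : ℝ) => (1 : ℝ)) fun i u => L * st (u - i.a) :=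
    (Bd.const (c := fun _ : Tx p f2 => L) (C := L) fun _ => by
      rw [abs_of_pos hL0]).mul (st_bd.shift fun i : Tx p f2 => i.a)
  have h := (hh_bd.shift fun i : Tx p f2 => i.b).mul h0
  refine ⟨h.1, fun k => ?_⟩
  obtain ⟨C, hC, h1⟩ := h.2 k
  have hc : 0 ≤ C * (1 / f2) := by positivity
  refine ⟨C * (1 / f2), hc, fun i u => ?_⟩
  have hrt := rt_pos hf hL i u
  rcases lt_or_ge u i.a with hu | hu
  · rw [zero_near (g := rc L i)]
    · rw [abs_zero]
      positivity
    · filter_upwards [gt_mem_nhds hu] with v hv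
      exact rc_left hv.le
  · refine (h1 i u).trans ?_
    rw [mul_assoc]
    refine mul_le_mul_of_nonneg_left ?_ hC
    have i4 := i.ht4
    have ia := i.ha
    have ib := i.hb
    show hh (u - i.b) ≤ _
    rcases le_total u i.b with h3 | h3
    · have h4 : f2 ≤ rt L i u := rt_ge_f2 hL (by linarith) h3
      calc hh (u - i.b) ≤ 1 := hh_le_one _
        _ = 1 / f2 * f2 := by field_simp
        _ ≤ 1 / f2 * rt L i u := mul_le_mul_of_nonneg_left h4 (by positivity)
    · show hh (u - i.b) ≤ 1 / f2 * rt L i u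
      rw [rt_b h3]
      have h5 := hh_pos (u - i.b)
      calc hh (u - i.b) = 1 / f2 * (f2 * hh (u - i.b)) := by field_simp
        _ ≤ 1 / f2 * (L * hh (u - i.b)) := by
          refine mul_le_mul_of_nonneg_left ?_ (by positivity)
          exact mul_le_mul_of_nonneg_right hL h5.le

theorem rt_bd (hf : 0 < f2) (hL : f2 ≤ L) :
    Bd (fun (i : Tx p f2) u => rt L i u) fun i u => rt L i u :=
  ((ra_bd hf hL).add (rb_bd hf hL)).add (rc_bd hf hL)

theorem ra_le_two (i : Tx p f2) (u : ℝ) : ra i u ≤ 2 := by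
  have h1 := i.hm.R_le u
  have h2 := p.hρ1
  calc ra i u ≤ p.RR i.m u * 1 :=
        mul_le_mul_of_nonneg_left (by linarith [st_nonneg (u - (i.t - 1))]) (i.hm.R_pos u).le
    _ ≤ 2 := by linarith

theorem rb_le (hf : 0 < f2) (i : Tx p f2) (u : ℝ) : rb i u ≤ f2 * hl (u - i.t) := by
  rw [rb, mul_comm f2 (hl _)]
  refine mul_le_mul_of_nonneg_left ?_ (hl_pos _).le
  refine mul_le_of_le_one_right hf.le ?_
  exact mul_le_one₀ (st_le_one _) (sub_nonneg.2 (st_le_one _)) (by linarith [st_nonneg (u - i.a)])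

theorem rc_le (hL : 0 ≤ L) (i : Tx p f2) (u : ℝ) : rc L i u ≤ L * hh (u - i.b) := by
  rw [rc, mul_comm L (hh _)]
  exact mul_le_mul_of_nonneg_left (mul_le_of_le_one_right hL (st_le_one _)) (hh_pos _).le

theorem rt_bd1 (hf : 0 < f2) (hL : f2 ≤ L) :
    Bd (fun (_ : Tx p f2) (_ : ℝ) => (1 : ℝ)) fun i u => rt L i u :=
  (rt_bd hf hL).mono (C := 2 + f2 + L) (by linarith [hf.le.trans hL]) fun i u => by
    have h1 := ra_le_two i u
    have h2 := (rb_le hf i u).trans (mul_le_of_le_one_right hf.le (hl_le_one _))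
    have h3 := (rc_le (hf.le.trans hL) i u).trans
      (mul_le_of_le_one_right (hf.le.trans hL) (hh_le_one _))
    rw [mul_one, rt]
    linarith

theorem rt_smooth (hf : 0 < f2) (hL : f2 ≤ L) (i : Tx p f2) : ContDiff ℝ ∞ (rt L i) :=
  (rt_bd hf hL).1 i

variable (L)
/-- The additional rate. -/
def dd (i : Tx p f2) (u : ℝ) : ℝ := rt L i u - p.RR i.m u
/-- Its integral. -/
def DI (i : Tx p f2) (u : ℝ) : ℝ := ∫ v in (i.t / 2)..u, dd L i v
/-- The new slope. -/
def N2 (i : Tx p f2) (u : ℝ) : ℝ := p.NN i.m u * Real.exp (DI L i u)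
/-- The new primitive. -/
def P2 (i : Tx p f2) (u : ℝ) : ℝ := ∫ v in (0 : ℝ)..u, N2 L i v
variable {L}

theorem dd_smooth (hf : 0 < f2) (hL : f2 ≤ L) (i : Tx p f2) : ContDiff ℝ ∞ (dd L i) :=
  (rt_smooth hf hL i).sub (RR_bd.1 i)

theorem DI_deriv (hf : 0 < f2) (hL : f2 ≤ L) (i : Tx p f2) (u : ℝ) :
    HasDerivAt (DI L i) (dd L i u) u :=
  intervalIntegral.integral_hasDerivAt_right
    ((dd_smooth hf hL i).continuous.intervalIntegrable _ u)
    ((dd_smooth hf hL i).continuous.stronglyMeasurableAtFilter _ _)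
    (dd_smooth hf hL i).continuous.continuousAt

theorem DI_smooth (hf : 0 < f2) (hL : f2 ≤ L) (i : Tx p f2) : ContDiff ℝ ∞ (DI L i) := by
  rw [contDiff_infty_iff_deriv]
  refine ⟨fun s => (DI_deriv hf hL i s).differentiableAt, ?_⟩
  have : deriv (DI L i) = dd L i := funext fun s => (DI_deriv hf hL i s).deriv
  rw [this]
  exact dd_smooth hf hL i

theorem N2_deriv (hf : 0 < f2) (hL : f2 ≤ L) (i : Tx p f2) (u : ℝ) :
    HasDerivAt (N2 L i) (N2 L i u * rt L i u) u := by
  have h1 := (i.hm.N_deriv u).mul ((DI_deriv hf hL i u).exp)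
  refine h1.congr_deriv ?_
  rw [N2, dd]
  ring

theorem N2_smooth (hf : 0 < f2) (hL : f2 ≤ L) (i : Tx p f2) : ContDiff ℝ ∞ (N2 L i) :=
  (Pr.N_smooth p i.m).mul (Real.contDiff_exp.comp (DI_smooth hf hL i))

theorem N2_pos (i : Tx p f2) (u : ℝ) : 0 < N2 L i u :=
  mul_pos (i.hm.N_pos u) (Real.exp_pos _)

theorem P2_deriv (hf : 0 < f2) (hL : f2 ≤ L) (i : Tx p f2) (u : ℝ) :
    HasDerivAt (P2 L i) (N2 L i u) u :=
  intervalIntegral.integral_hasDerivAt_right
    ((N2_smooth hf hL i).continuous.intervalIntegrable _ u)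
    ((N2_smooth hf hL i).continuous.stronglyMeasurableAtFilter _ _)
    (N2_smooth hf hL i).continuous.continuousAt

theorem P2_smooth (hf : 0 < f2) (hL : f2 ≤ L) (i : Tx p f2) : ContDiff ℝ ∞ (P2 L i) := by
  rw [contDiff_infty_iff_deriv]
  refine ⟨fun s => (P2_deriv hf hL i s).differentiableAt, ?_⟩
  have : deriv (P2 L i) = N2 L i := funext fun s => (P2_deriv hf hL i s).deriv
  rw [this]
  exact N2_smooth hf hL i

theorem P2_d1 (hf : 0 < f2) (hL : f2 ≤ L) (i : Tx p f2) : deriv (P2 L i) = N2 L i :=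
  funext fun s => (P2_deriv hf hL i s).deriv

theorem P2_d2 (hf : 0 < f2) (hL : f2 ≤ L) (i : Tx p f2) :
    deriv (deriv (P2 L i)) = fun u => N2 L i u * rt L i u := by
  rw [P2_d1 hf hL]
  exact funext fun s => (N2_deriv hf hL i s).deriv

theorem P2_bd (hf : 0 < f2) (hL : f2 ≤ L) (j : ℕ) : ∃ C : ℝ, 0 ≤ C ∧
    ∀ (i : Tx p f2) u, |iteratedDeriv (j + 2) (P2 L i) u| ≤ C * deriv (deriv (P2 L i)) u := by
  obtain ⟨f, hfb, he⟩ := iter_gen (N := fun (i : Tx p f2) u => N2 L i u) (rt_bd hf hL)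
    (rt_bd1 hf hL) (N2_deriv hf hL) j
  obtain ⟨C, hC, h1⟩ := hfb.2 0
  refine ⟨C, hC, fun i u => ?_⟩
  have h2 := h1 i u
  rw [iteratedDeriv_zero] at h2
  have hN := N2_pos (L := L) i u
  have e : iteratedDeriv (j + 2) (P2 L i) u = iteratedDeriv (j + 1) (N2 L i) u := by
    rw [iteratedDeriv_succ' (n := j + 1), P2_d1 hf hL]
  rw [e, he i u, P2_d2 hf hL, abs_mul, abs_of_pos hN]
  show N2 L i u * |f i u| ≤ C * (N2 L i u * rt L i u)
  calc N2 L i u * |f i u| ≤ N2 L i u * (C * rt L i u) := mul_le_mul_of_nonneg_left h2 hN.le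
    _ = C * (N2 L i u * rt L i u) := by ring

end

end Vale.Agent.P088.R2.H313.Tp
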