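import Vale.Agent.P088.R2.H313.TopB

/-!
# P088, stage 3, row PHI2: second and third growth of the slope
-/

open Set Filter Topology MeasureTheory
open scoped ContDiff

noncomputable section

namespace Vale.Agent.P088.R2.H313.Tp

open Vale.Agent.P088.R2.H313.Ph

theorem iter_Iic {f g : ℝ → ℝ} (hf : ContDiff ℝ ∞ f) (hg : ContDiff ℝ ∞ g) {c : ℝ}
    (h : ∀ s, s ≤ c → f s = g s) (k : ℕ) {s : ℝ} (hs : s ≤ c) :
    iteratedDeriv k f s = iteratedDeriv k g s := by
  have h1 : EqOn (iteratedDeriv k f) (iteratedDeriv k g) (Iio c) := by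
    intro t ht
    have h2 : f =ᶠ[𝓝 t] g := by
      filter_upwards [gt_mem_nhds ht] with u hu
      exact h u hu.le
    exact h2.iteratedDeriv_eq k
  have h2 : EqOn (iteratedDeriv k f) (iteratedDeriv k g) (Iic c) :=
    h1.of_subset_closure
      (hf.continuous_iteratedDeriv k (by exact_mod_cast le_top)).continuousOn
      (hg.continuous_iteratedDeriv k (by exact_mod_cast le_top)).continuousOn
      Iio_subset_Iic_self (by rw [closure_Iio])
  exact h2 hs

/-- Existence of the threshold. -/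
theorem ex_thr (p : Pr) {f2 : ℝ} (hf : 0 < f2) {m : ℝ} (hm : p.Lg m) : ∃ U : ℝ, ∀ t, U ≤ t →
    2 * (Real.log m + p.s2 + 2) ≤ t ∧ 4 ≤ t ∧
      (∀ u, t - 1 ≤ u → p.RR m u ≤ f2 * Real.exp (t - u - 2)) ∧
      (∀ u, t - 1 ≤ u → p.RR m u ≤ 1 / 20) := by
  set A : ℝ := p.C2 * p.X * m + Real.exp (1 + p.u3 m) with hA
  have hA0 : 0 < A := add_pos (mul_pos (mul_pos p.h2 p.X_pos) hm.pos) (Real.exp_pos _)
  have key : ∀ u, p.s2 + 1 ≤ u - Real.log m → p.RR m u ≤ A * Real.exp (-u) := by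
    intro u hu
    have h3 : p.RR m u = p.R0 (u - Real.log m) + p.Q m u := rfl
    rw [h3, p.R0_right hu]
    have h4 : Real.exp (-(u - Real.log m)) = m * Real.exp (-u) := by
      rw [show -(u - Real.log m) = Real.log m + -u by ring, Real.exp_add, Real.exp_log hm.pos]
    have h5 : p.Q m u ≤ Real.exp (1 + p.u3 m) * Real.exp (-u) := by
      calc p.Q m u ≤ p.cq m * hh (u - p.u3 m) := hm.Q_le_hh u
        _ ≤ 1 * hh (u - p.u3 m) :=
          mul_le_mul_of_nonneg_right (by linarith [hm.cq1]) (hh_pos _).le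
        _ ≤ Real.exp (1 - (u - p.u3 m)) := by rw [one_mul]; exact hh_le _
        _ = Real.exp (1 + p.u3 m) * Real.exp (-u) := by
          rw [← Real.exp_add]
          congr 1
          ring
    rw [h4, hA]
    linarith
  refine ⟨max (2 * (Real.log m + p.s2 + 2)) (max 4 (max (Real.log (A / f2) + 2)
    (Real.log (20 * A) + 1))), fun t ht => ?_⟩
  simp only [max_le_iff] at ht
  obtain ⟨t1, t2, t3, t4⟩ := ht
  refine ⟨t1, t2, fun u hu => ?_, fun u hu => ?_⟩
  · refine (key u (by linarith)).trans ?_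
    have h1 : A / f2 ≤ Real.exp (t - 2) := by
      rw [← Real.log_le_iff_le_exp (by positivity)]
      linarith
    rw [div_le_iff₀ hf] at h1
    calc A * Real.exp (-u) ≤ (Real.exp (t - 2) * f2) * Real.exp (-u) :=
          mul_le_mul_of_nonneg_right h1 (Real.exp_pos _).le
      _ = f2 * (Real.exp (t - 2) * Real.exp (-u)) := by ring
      _ = f2 * Real.exp (t - u - 2) := by
        rw [← Real.exp_add]
        congr 2
        ring
  · refine (key u (by linarith)).trans ?_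
    have h1 : 20 * A ≤ Real.exp (t - 1) := by
      rw [← Real.log_le_iff_le_exp (by positivity)]
      linarith
    have h2 : Real.exp (t - 1) * Real.exp (-u) ≤ 1 := by
      rw [← Real.exp_add]
      exact Real.exp_le_one_iff.2 (by linarith)
    have h3 := mul_le_mul_of_nonneg_right h1 (Real.exp_pos (-u)).le
    linarith

section
variable {p : Pr} {f2 L : ℝ}

theorem dd_nonneg (hf : 0 < f2) (hL : f2 ≤ L) (i : Tx p f2) (u : ℝ) : 0 ≤ dd L i u := by
  have b0 := ra_nonneg i u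
  have b1 := rb_nonneg hf i u
  have b2 := rc_nonneg (hf.le.trans hL) i u
  have i4 := i.ht4
  have ia := i.ha
  have ib := i.hb
  rw [dd, sub_nonneg]
  rcases le_total u (i.t - 1) with h | h
  · rw [rt, ra_left h]
    linarith
  · have h1 := i.hR1 u h
    rcases le_total u i.t with h2 | h2
    · refine h1.trans ?_
      have h3 : f2 * Real.exp (i.t - u - 2) ≤ rb i u := by
        rw [rb_mid (by linarith) (by linarith)]
        refine mul_le_mul_of_nonneg_left ?_ hf.le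
        exact (Real.exp_le_exp.2 (by linarith)).trans (hl_ge (by linarith))
      rw [rt]
      linarith
    · rcases le_total u i.b with h3 | h3
      · refine h1.trans (le_trans ?_ (rt_ge_f2 hL h2 h3))
        refine mul_le_of_le_one_right hf.le (Real.exp_le_one_iff.2 (by linarith))
      · rw [rt_b h3]
        refine h1.trans ?_
        have h4 : Real.exp (i.t - u - 2) ≤ hh (u - i.b) :=
          (Real.exp_le_exp.2 (by linarith)).trans (hh_ge (by linarith))
        exact mul_le_mul hL h4 (Real.exp_pos _).le (hf.le.trans hL)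

theorem DI_zero {i : Tx p f2} {u : ℝ} (h : u ≤ i.t / 2) : DI L i u = 0 := by
  rw [DI, intervalIntegral.integral_symm, neg_eq_zero]
  have : ∀ v ∈ uIcc u (i.t / 2), dd L i v = 0 := by
    intro v hv
    rw [uIcc_of_le h] at hv
    rw [dd, rt_left hv.2, sub_self]
  rw [intervalIntegral.integral_congr (g := fun _ => (0 : ℝ)) this]
  simp

theorem DI_mono (hf : 0 < f2) (hL : f2 ≤ L) (i : Tx p f2) : Monotone (DI L i) :=
  monotone_of_deriv_nonneg (fun u => (DI_deriv hf hL i u).differentiableAt) fun u => by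
    rw [(DI_deriv hf hL i u).deriv]
    exact dd_nonneg hf hL i u

theorem DI_nonneg (hf : 0 < f2) (hL : f2 ≤ L) (i : Tx p f2) (u : ℝ) : 0 ≤ DI L i u := by
  rcases le_total u (i.t / 2) with h | h
  · rw [DI_zero h]
  · rw [← DI_zero (L := L) (i := i) le_rfl]
    exact DI_mono hf hL i h

theorem dd_le (hf : 0 < f2) {i : Tx p f2} {u : ℝ} (h : u ≤ i.t) :
    dd L i u ≤ f2 * Real.exp (1 + (u - i.t)) := by
  have ia := i.ha
  have h1 : ra i u ≤ p.RR i.m u := mul_le_of_le_one_right (i.hm.R_pos u).le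
    (by linarith [st_nonneg (u - (i.t - 1))])
  have h2 := (rb_le hf i u).trans (mul_le_mul_of_nonneg_left (hl_le _) hf.le)
  rw [dd, rt, rc_left (by linarith)]
  linarith

theorem DI_le (hf : 0 < f2) (hL : f2 ≤ L) {i : Tx p f2} {u : ℝ} (h : u ≤ i.t) :
    DI L i u ≤ f2 * Real.exp (1 + (u - i.t)) := by
  rcases le_total u (i.t / 2) with h0 | h0
  · rw [DI_zero h0]
    positivity
  · have hd : ∀ v, HasDerivAt (fun v => f2 * Real.exp (1 + (v - i.t)) - DI L i v)
        (f2 * Real.exp (1 + (v - i.t)) - dd L i v) v := by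
      intro v
      have h1 : HasDerivAt (fun v : ℝ => 1 + (v - i.t)) 1 v := by
        simpa using ((hasDerivAt_id v).sub_const i.t).const_add 1
      have h2 := (h1.exp.const_mul f2).sub (DI_deriv hf hL i v)
      refine h2.congr_deriv ?_
      ring
    have hm : MonotoneOn (fun v => f2 * Real.exp (1 + (v - i.t)) - DI L i v)
        (Icc (i.t / 2) i.t) := by
      refine monotoneOn_of_deriv_nonneg (convex_Icc _ _)
        (fun v _ => (hd v).continuousAt.continuousWithinAt)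
        (fun v _ => (hd v).differentiableAt.differentiableWithinAt) fun v hv => ?_
      have hv' := interior_subset hv
      rw [(hd v).deriv]
      linarith [dd_le (L := L) hf hv'.2]
    have i4 := i.ht4
    have := hm ⟨le_rfl, by linarith⟩ ⟨h0, h⟩ h0
    simp only [DI_zero (L := L) (i := i) le_rfl] at this
    have : 0 < f2 * Real.exp (1 + (i.t / 2 - i.t)) := by positivity
    linarith

/-- The constant. -/
def CC (f2 : ℝ) : ℝ := f2 * Real.exp 1 * Real.exp (f2 * Real.exp 1)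

theorem CC_pos (hf : 0 < f2) : 0 < CC f2 := by
  rw [CC]
  positivity

theorem eDI_le (hf : 0 < f2) (hL : f2 ≤ L) {i : Tx p f2} {u : ℝ} (h : u ≤ i.t) :
    Real.exp (DI L i u) ≤ 1 + CC f2 * Real.exp (u - i.t) := by
  have h1 := DI_le hf hL h
  have h0 := DI_nonneg hf hL i u
  have h2 : Real.exp (1 + (u - i.t)) = Real.exp 1 * Real.exp (u - i.t) := Real.exp_add _ _
  have h3 : Real.exp (u - i.t) ≤ 1 := Real.exp_le_one_iff.2 (by linarith)
  have h4 : DI L i u ≤ f2 * Real.exp 1 := by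
    rw [h2] at h1
    refine h1.trans (mul_le_mul_of_nonneg_left ?_ hf.le)
    exact mul_le_of_le_one_right (Real.exp_pos _).le h3
  -- `e^D - 1 ≤ D e^D`
  have h5 : Real.exp (DI L i u) - 1 ≤ DI L i u * Real.exp (DI L i u) := by
    have := Real.add_one_le_exp (-(DI L i u))
    have h6 := mul_le_mul_of_nonneg_right this (Real.exp_pos (DI L i u)).le
    rw [← Real.exp_add, neg_add_cancel, Real.exp_zero] at h6
    linarith
  have h6 : DI L i u * Real.exp (DI L i u) ≤
      (f2 * (Real.exp 1 * Real.exp (u - i.t))) * Real.exp (f2 * Real.exp 1) := by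
    rw [h2] at h1
    exact mul_le_mul h1 (Real.exp_le_exp.2 h4) (Real.exp_pos _).le (by positivity)
  rw [CC]
  linarith

theorem N2_ge (hf : 0 < f2) (hL : f2 ≤ L) (i : Tx p f2) (u : ℝ) : p.NN i.m u ≤ N2 L i u := by
  rw [N2]
  exact le_mul_of_one_le_right (i.hm.N_pos u).le (Real.one_le_exp (DI_nonneg hf hL i u))

theorem N2_le (hf : 0 < f2) (hL : f2 ≤ L) {i : Tx p f2} {u : ℝ} (h : u ≤ i.t) :
    N2 L i u ≤ (1 + CC f2 * Real.exp (u - i.t)) * p.NN i.m u := by
  rw [N2, mul_comm]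
  exact mul_le_mul_of_nonneg_right (eDI_le hf hL h) (i.hm.N_pos u).le

theorem N2_eq {i : Tx p f2} {u : ℝ} (h : u ≤ i.t / 2) : N2 L i u = p.NN i.m u := by
  rw [N2, DI_zero h, Real.exp_zero, mul_one]

theorem P2_eq {i : Tx p f2} {u : ℝ} (h : u ≤ i.t / 2) : P2 L i u = p.PP i.m u := by
  have i4 := i.ht4
  show ∫ v in (0 : ℝ)..u, N2 L i v = ∫ v in (0 : ℝ)..u, p.NN i.m v
  refine intervalIntegral.integral_congr fun v hv => N2_eq ?_
  rcases le_total 0 u with h0 | h0
  · rw [uIcc_of_le h0] at hv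
    linarith [hv.2]
  · rw [uIcc_of_ge h0] at hv
    linarith [hv.2]

theorem rt_indep {i : Tx p f2} {u : ℝ} (h : u ≤ i.a) : rt L i u = rt f2 i u := by
  rw [rt, rt, rc_left h, rc_left h]

theorem DI_indep {i : Tx p f2} {u : ℝ} (h : u ≤ i.a) : DI L i u = DI f2 i u := by
  have i4 := i.ht4
  have ia := i.ha
  refine intervalIntegral.integral_congr fun v hv => ?_
  have hv' : v ≤ i.a := by
    rcases le_total (i.t / 2) u with h0 | h0
    · rw [uIcc_of_le h0] at hv
      linarith [hv.2]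
    · rw [uIcc_of_ge h0] at hv
      linarith [hv.2]
  show rt L i v - _ = rt f2 i v - _
  rw [rt_indep hv']

theorem P2_indep {i : Tx p f2} {u : ℝ} (h : u ≤ i.a) : P2 L i u = P2 f2 i u := by
  have i4 := i.ht4
  have ia := i.ha
  refine intervalIntegral.integral_congr fun v hv => ?_
  have hv' : v ≤ i.a := by
    rcases le_total 0 u with h0 | h0
    · rw [uIcc_of_le h0] at hv
      linarith [hv.2]
    · rw [uIcc_of_ge h0] at hv
      linarith [hv.2]
  show N2 L i v = N2 f2 i v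
  rw [N2, N2, DI_indep hv']

theorem rt_le_a (hf : 0 < f2) (hρ : p.ρ + 1 / 20 ≤ f2 / 2) {i : Tx p f2} {u : ℝ}
    (h : u ≤ i.a) : rt L i u ≤ f2 + 1 / 20 := by
  have b1 := rb_nonneg hf i u
  have i4 := i.ht4
  have ia := i.ha
  have hR := i.hm.R_le u
  have h1 : ra i u ≤ p.RR i.m u := mul_le_of_le_one_right (i.hm.R_pos u).le
    (by linarith [st_nonneg (u - (i.t - 1))])
  have h2 := rb_le hf i u
  rw [rt, rc_left h]
  rcases le_total u (i.t - 1) with h3 | h3
  · have h4 : hl (u - i.t) ≤ 1 / 2 := by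
      rw [hl_left (by linarith)]
      have h5 : Real.exp (u - i.t) ≤ Real.exp (-1) := Real.exp_le_exp.2 (by linarith)
      have h6 : Real.exp (-1) ≤ 1 / 2 := by
        rw [Real.exp_neg, inv_eq_one_div]
        exact one_div_le_one_div_of_le (by norm_num) (by
          have := Real.add_one_le_exp (1 : ℝ)
          linarith)
      linarith
    have h7 := mul_le_mul_of_nonneg_left h4 hf.le
    linarith
  · have h4 := i.hR2 u h3
    have h5 := mul_le_mul_of_nonneg_left (hl_le_one (u - i.t)) hf.le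
    linarith

theorem rt_le (hf : 0 < f2) (hL : f2 ≤ L) (hρ : p.ρ + 1 / 20 ≤ f2 / 2) (i : Tx p f2) (u : ℝ) :
    rt L i u ≤ L + 1 / 20 := by
  rcases le_total u i.a with h | h
  · have := rt_le_a (L := L) hf hρ h
    linarith
  · rcases le_total u (i.a + 1) with h1 | h1
    · rw [rt_aa h h1]
      have := mul_le_mul_of_nonneg_left (st_le_one (u - i.a)) (sub_nonneg.2 hL)
      linarith
    · rcases le_total u i.b with h2 | h2
      · rw [rt_ab h1 h2]
        linarith
      · rw [rt_b h2]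
        have := mul_le_mul_of_nonneg_left (hh_le_one (u - i.b)) (hf.le.trans hL)
        linarith

theorem N2_mono (hf : 0 < f2) (hL : f2 ≤ L) (i : Tx p f2) : Monotone (N2 L i) :=
  monotone_of_deriv_nonneg (fun u => (N2_deriv hf hL i u).differentiableAt) fun u => by
    rw [(N2_deriv hf hL i u).deriv]
    exact mul_nonneg (N2_pos i u).le (rt_pos hf hL i u).le

theorem N2_growth (hf : 0 < f2) (hL : f2 ≤ L) (i : Tx p f2) {c d r : ℝ}
    (h : ∀ u, c ≤ u → u ≤ d → rt L i u = r) {u : ℝ} (h1 : c ≤ u) (h2 : u ≤ d) :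
    N2 L i u = N2 L i c * Real.exp (r * (u - c)) := by
  have hd : ∀ v, HasDerivAt (fun v => N2 L i v * Real.exp (-(r * (v - c))))
      (N2 L i v * rt L i v * Real.exp (-(r * (v - c))) +
        N2 L i v * (Real.exp (-(r * (v - c))) * -r)) v := by
    intro v
    have h3 : HasDerivAt (fun v : ℝ => -(r * (v - c))) (-r) v := by
      have := ((hasDerivAt_id v).sub_const c).const_mul (-r)
      rw [mul_one] at this
      refine this.congr_of_eventuallyEq (Eventually.of_forall fun w => ?_)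
      show -(r * (w - c)) = -r * (w - c)
      ring
    exact (N2_deriv hf hL i v).mul h3.exp
  have := constant_of_has_deriv_right_zero (f := fun v => N2 L i v * Real.exp (-(r * (v - c))))
    (a := c) (b := d) (fun v _ => (hd v).continuousAt.continuousWithinAt) (fun v hv => by
      have h4 := (hd v).hasDerivWithinAt (s := Ici v)
      rw [h v hv.1 hv.2.le] at h4
      refine h4.congr_deriv ?_
      ring) u ⟨h1, h2⟩
  simp only [sub_self, mul_zero, neg_zero, Real.exp_zero, mul_one] at this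
  rw [← this, mul_assoc, ← Real.exp_add]
  simp

theorem N2_top (hf : 0 < f2) (hL : f2 ≤ L) (i : Tx p f2) (u : ℝ) :
    N2 L i u ≤ Real.exp (3 * L) * N2 L i i.b := by
  have hL0 : 0 < L := lt_of_lt_of_le hf hL
  rcases le_total u i.b with h | h
  · refine (N2_mono hf hL i h).trans (le_mul_of_one_le_left (N2_pos i _).le ?_)
    exact Real.one_le_exp (by positivity)
  · have hd : ∀ v, HasDerivAt (fun v => N2 L i v * Real.exp (L * Real.exp (1 - (v - i.b))))
        (N2 L i v * rt L i v * Real.exp (L * Real.exp (1 - (v - i.b))) + N2 L i v *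
          (Real.exp (L * Real.exp (1 - (v - i.b))) * (L * (Real.exp (1 - (v - i.b)) * -1)))) v := by
      intro v
      have h3 : HasDerivAt (fun v : ℝ => 1 - (v - i.b)) (-1) v := by
        simpa using ((hasDerivAt_id v).sub_const i.b).const_sub 1
      exact (N2_deriv hf hL i v).mul ((h3.exp.const_mul L).exp)
    have hm : AntitoneOn (fun v => N2 L i v * Real.exp (L * Real.exp (1 - (v - i.b))))
        (Ici i.b) := by
      refine antitoneOn_of_deriv_nonpos (convex_Ici _)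
        (fun v _ => (hd v).continuousAt.continuousWithinAt)
        (fun v _ => (hd v).differentiableAt.differentiableWithinAt) fun v hv => ?_
      have hv' : i.b ≤ v := interior_subset hv
      rw [(hd v).deriv, rt_b hv']
      have h4 := mul_le_mul_of_nonneg_left (hh_le (v - i.b)) hL0.le
      have h5 := mul_pos (N2_pos (L := L) i v) (Real.exp_pos (L * Real.exp (1 - (v - i.b))))
      have h6 := mul_le_mul_of_nonneg_left h4 h5.le
      linarith
    have h7 := hm self_mem_Ici h h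
    simp only [sub_self, sub_zero] at h7
    have h8 : N2 L i u ≤ N2 L i u * Real.exp (L * Real.exp (1 - (u - i.b))) :=
      le_mul_of_one_le_right (N2_pos i u).le (Real.one_le_exp (by positivity))
    refine h8.trans (h7.trans ?_)
    rw [mul_comm]
    refine mul_le_mul_of_nonneg_right (Real.exp_le_exp.2 ?_) (N2_pos i _).le
    have := Real.exp_one_lt_d9.le
    nlinarith

theorem P2_ge (hf : 0 < f2) (hL : f2 ≤ L) (i : Tx p f2) (u : ℝ) : p.PP i.m u ≤ P2 L i u := by
  have i4 := i.ht4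
  rcases le_total u (i.t / 2) with h | h
  · rw [P2_eq h]
  · have h0 : 0 ≤ u := by linarith
    exact intervalIntegral.integral_mono_on h0
      ((Pr.N_smooth p i.m).continuous.intervalIntegrable _ _)
      ((N2_smooth hf hL i).continuous.intervalIntegrable _ _) fun v _ => N2_ge hf hL i v

theorem P2_le (hf : 0 < f2) (hL : f2 ≤ L) {i : Tx p f2} {u : ℝ} (h : u ≤ i.t) :
    P2 L i u - p.PP i.m u ≤ p.X * CC f2 * i.m * Real.exp (u - i.t) := by
  have i4 := i.ht4
  have hX := p.X_pos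
  have hC := CC_pos hf
  have hm := i.hm.pos
  rcases le_total u (i.t / 2) with h0 | h0
  · rw [P2_eq h0, sub_self]
    positivity
  · have hd : ∀ v, HasDerivAt (fun v => p.X * CC f2 * i.m * Real.exp (v - i.t) -
        (P2 L i v - p.PP i.m v)) (p.X * CC f2 * i.m * Real.exp (v - i.t) -
        (N2 L i v - p.NN i.m v)) v := by
      intro v
      have h1 : HasDerivAt (fun v : ℝ => v - i.t) 1 v := (hasDerivAt_id v).sub_const i.t
      have h2 := (h1.exp.const_mul (p.X * CC f2 * i.m)).sub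
        ((P2_deriv hf hL i v).sub (p.PP_deriv i.m v))
      refine h2.congr_deriv ?_
      ring
    have hmo : MonotoneOn (fun v => p.X * CC f2 * i.m * Real.exp (v - i.t) -
        (P2 L i v - p.PP i.m v)) (Icc (i.t / 2) i.t) := by
      refine monotoneOn_of_deriv_nonneg (convex_Icc _ _)
        (fun v _ => (hd v).continuousAt.continuousWithinAt)
        (fun v _ => (hd v).differentiableAt.differentiableWithinAt) fun v hv => ?_
      have hv' := interior_subset hv
      rw [(hd v).deriv]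
      have h1 := N2_le (L := L) hf hL hv'.2
      have h2 := i.hm.N_le v
      have h3 : CC f2 * Real.exp (v - i.t) * p.NN i.m v ≤
          CC f2 * Real.exp (v - i.t) * (p.X * i.m) :=
        mul_le_mul_of_nonneg_left h2 (by positivity)
      linarith
    have := hmo ⟨le_rfl, by linarith⟩ ⟨h0, h⟩ h0
    simp only [P2_eq (L := L) (i := i) le_rfl, sub_self] at this
    have : 0 < p.X * CC f2 * i.m * Real.exp (i.t / 2 - i.t) := by positivity
    linarith

end

/-- The slope `Ψ` with second growth (rate `f2` on `[t, a]`), third growth (rate `L` on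
`[a + 1, b]`) and bounded slope; `Φ` is the slope of `IsPhiU`. -/
structure IsTop (f2 L t a b C : ℝ) (Cd CL : ℕ → ℝ) (M0 : ℝ) (Φ Ψ : ℝ → ℝ) : Prop where
  sm : ContDiff ℝ ∞ Ψ
  eq : ∀ u ≤ t / 2, Ψ u = Φ u
  e1 : ∀ u ≤ t / 2, deriv Ψ u = deriv Φ u
  e2 : ∀ u ≤ t / 2, deriv (deriv Ψ) u = deriv (deriv Φ) u
  l0 : ∀ u, Φ u ≤ Ψ u
  l1 : ∀ u, deriv Φ u ≤ deriv Ψ u
  c0 : ∀ u ≤ t, Ψ u - Φ u ≤ C * M0 * Real.exp (u - t)
  c1 : ∀ u ≤ t, deriv Ψ u ≤ (1 + C * Real.exp (u - t)) * deriv Φ u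
  c2 : ∀ u ≤ t, deriv (deriv Ψ) u ≤
    (deriv (deriv Φ) u / deriv Φ u + C * Real.exp (u - t)) * deriv Ψ u
  k0 : ∀ u, 0 < deriv (deriv Ψ) u
  kr : ∀ u, deriv (deriv Φ) u / deriv Φ u * deriv Ψ u ≤ deriv (deriv Ψ) u
  k1 : ∀ u ≤ a, deriv (deriv Ψ) u ≤ (f2 + 1 / 20) * deriv Ψ u
  k2 : ∀ u, deriv (deriv Ψ) u ≤ (L + 1 / 20) * deriv Ψ u
  x1 : ∀ u, t ≤ u → u ≤ a → deriv (deriv Ψ) u = f2 * deriv Ψ u
  y1 : ∀ u, t ≤ u → u ≤ a → deriv Ψ u = deriv Ψ t * Real.exp (f2 * (u - t))
  x2 : ∀ u, a ≤ u → u ≤ a + 1 →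
    f2 * deriv Ψ u ≤ deriv (deriv Ψ) u ∧ deriv (deriv Ψ) u ≤ L * deriv Ψ u
  x3 : ∀ u, a + 1 ≤ u → u ≤ b → deriv (deriv Ψ) u = L * deriv Ψ u
  y3 : ∀ u, a + 1 ≤ u → u ≤ b → deriv Ψ u = deriv Ψ (a + 1) * Real.exp (L * (u - (a + 1)))
  x4 : ∀ u, b ≤ u → L * Real.exp (-(u - b)) * deriv Ψ u ≤ deriv (deriv Ψ) u ∧
    deriv (deriv Ψ) u ≤ L * Real.exp (1 - (u - b)) * deriv Ψ u
  x5 : ∀ u, b + 1 ≤ u → deriv (deriv Ψ) u = L * Real.exp (-(u - b)) * deriv Ψ u
  nb : ∀ u, deriv Ψ u ≤ Real.exp (3 * L) * deriv Ψ b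
  kd : ∀ j, ∀ u ≤ a, |iteratedDeriv (j + 2) Ψ u| ≤ Cd j * deriv (deriv Ψ) u
  kL : ∀ j u, |iteratedDeriv (j + 2) Ψ u| ≤ CL j * deriv (deriv Ψ) u

/-- **Row PHI2**, for the explicit family. -/
theorem top_aux (p : Pr) {f2 : ℝ} (hf2 : p.ρ + 1 / 20 ≤ f2 / 2) :
    ∃ (C : ℝ) (Ct : ℕ → ℝ), 0 < C ∧
      (∀ j, 0 ≤ Ct j) ∧ ∀ L, f2 ≤ L → ∃ CL : ℕ → ℝ, (∀ j, 0 ≤ CL j) ∧
      ∀ M0, p.Lg M0 → ∃ (U : ℝ), 4 ≤ U ∧
        ∀ t a b, U ≤ t → t + 1 ≤ a → a + 1 ≤ b →
          ∃ Ψ : ℝ → ℝ, IsTop f2 L t a b C Ct CL M0 (p.PP M0) Ψ := by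
  have hf : 0 < f2 := by linarith [p.hρ]
  obtain ⟨Cb, hX⟩ : ∃ Cb, p.X ≤ Cb := ⟨_, le_rfl⟩
  have hCb : 0 < Cb := lt_of_lt_of_le p.X_pos hX
  choose Ct hCt Ht using fun j => P2_bd (p := p) (f2 := f2) (L := f2) hf le_rfl j
  have hCC := CC_pos hf
  refine ⟨(Cb + 1) * CC f2 + f2 * Real.exp 1, Ct, by positivity, hCt,
    fun L hL => ?_⟩
  choose CL hCL HL using fun j => P2_bd (p := p) (f2 := f2) (L := L) hf hL j
  refine ⟨CL, hCL, fun M0 hm => ?_⟩
  obtain ⟨U, hU⟩ := ex_thr p hf hm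
  have hL0 : 0 < L := lt_of_lt_of_le hf hL
  refine ⟨max U 4, le_max_right _ _, fun t a b ht ha hb => ?_⟩
  obtain ⟨u1, u2, u3, u4⟩ := hU t ((le_max_left _ _).trans ht)
  let i : Tx p f2 := ⟨M0, t, a, b, hm, u1, u2, ha, hb, u3, u4⟩
  have d1 : deriv (P2 L i) = N2 L i := P2_d1 hf hL i
  have d2 : deriv (deriv (P2 L i)) = fun u => N2 L i u * rt L i u := P2_d2 hf hL i
  have e1 : deriv (p.PP M0) = p.NN M0 := funext fun u => (p.PP_deriv M0 u).deriv
  have e2 : deriv (deriv (p.PP M0)) = fun u => p.NN M0 u * p.RR M0 u := by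
    rw [e1]
    exact funext fun u => (hm.N_deriv u).deriv
  have hq : ∀ u, deriv (deriv (p.PP M0)) u / deriv (p.PP M0) u = p.RR M0 u := by
    intro u
    rw [e2, e1]
    have := (hm.N_pos u).ne'
    show p.NN M0 u * p.RR M0 u / p.NN M0 u = _
    field_simp
  have hiter : ∀ k, ∀ u ≤ t / 2, iteratedDeriv k (P2 L i) u = iteratedDeriv k (p.PP M0) u :=
    fun k u hu => iter_Iic (P2_smooth hf hL i) (p.PP_smooth M0) (c := t / 2)
      (fun s hs => P2_eq (i := i) hs) k hu
  have hM0p : 0 < M0 := hm.pos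
  have hC1 : p.X * CC f2 ≤ (Cb + 1) * CC f2 + f2 * Real.exp 1 := by
    have := mul_le_mul_of_nonneg_right hX hCC.le
    have h5 : 0 < f2 * Real.exp 1 := by positivity
    linarith
  have hC2 : CC f2 ≤ (Cb + 1) * CC f2 + f2 * Real.exp 1 := by
    have h5 : 0 < f2 * Real.exp 1 := by positivity
    have h6 : 0 < Cb * CC f2 := by positivity
    linarith
  have hC3 : f2 * Real.exp 1 ≤ (Cb + 1) * CC f2 + f2 * Real.exp 1 := by
    have h6 : 0 < (Cb + 1) * CC f2 := by positivity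
    linarith
  have hpf : p.ρ + 1 / 20 ≤ f2 / 2 := hf2
  refine ⟨P2 L i, P2_smooth hf hL i, fun u hu => P2_eq (i := i) hu, fun u hu => ?_,
    fun u hu => ?_, fun u => P2_ge hf hL i u, fun u => ?_, fun u hu => ?_, fun u hu => ?_,
    fun u hu => ?_, fun u => ?_, fun u => ?_, fun u hu => ?_, fun u => ?_, fun u hu hu' => ?_,
    fun u hu hu' => ?_, fun u hu hu' => ?_, fun u hu hu' => ?_, fun u hu hu' => ?_,
    fun u hu => ?_, fun u hu => ?_, fun u => ?_, fun j u hu => ?_, fun j u => HL j i u⟩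
  · have := hiter 1 u hu
    rwa [iteratedDeriv_one, iteratedDeriv_one] at this
  · have := hiter 2 u hu
    rwa [iteratedDeriv_succ', iteratedDeriv_one, iteratedDeriv_succ', iteratedDeriv_one] at this
  · rw [d1, e1]
    exact N2_ge hf hL i u
  · refine (P2_le (i := i) hf hL hu).trans ?_
    have h5 : 0 < M0 * Real.exp (u - t) := by positivity
    have h6 := mul_le_mul_of_nonneg_right hC1 h5.le
    show p.X * CC f2 * M0 * Real.exp (u - t) ≤ _
    linarith
  · rw [d1, e1]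
    refine (N2_le (i := i) hf hL hu).trans ?_
    refine mul_le_mul_of_nonneg_right ?_ (hm.N_pos u).le
    have h6 := mul_le_mul_of_nonneg_right hC2 (Real.exp_pos (u - t)).le
    show 1 + CC f2 * Real.exp (u - t) ≤ _
    linarith
  · rw [hq, d2, d1]
    show N2 L i u * rt L i u ≤ _
    rw [mul_comm]
    refine mul_le_mul_of_nonneg_right ?_ (N2_pos i u).le
    have h5 := dd_le (L := L) (i := i) hf hu
    rw [dd, Real.exp_add] at h5
    have h6 := mul_le_mul_of_nonneg_right hC3 (Real.exp_pos (u - t)).le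
    have h7 : f2 * (Real.exp 1 * Real.exp (u - i.t)) = f2 * Real.exp 1 * Real.exp (u - t) := by
      ring
    rw [h7] at h5
    have h8 : p.RR i.m u = p.RR M0 u := rfl
    linarith
  · rw [d2]
    exact mul_pos (N2_pos i u) (rt_pos hf hL i u)
  · rw [hq, d2, d1]
    show _ ≤ N2 L i u * rt L i u
    rw [mul_comm]
    refine mul_le_mul_of_nonneg_left ?_ (N2_pos i u).le
    have := dd_nonneg hf hL i u
    rw [dd] at this
    have h8 : p.RR i.m u = p.RR M0 u := rfl
    linarith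
  · rw [d2, d1]
    show N2 L i u * rt L i u ≤ _
    rw [mul_comm]
    exact mul_le_mul_of_nonneg_right (rt_le_a hf hpf (i := i) hu) (N2_pos i u).le
  · rw [d2, d1]
    show N2 L i u * rt L i u ≤ _
    rw [mul_comm]
    exact mul_le_mul_of_nonneg_right (rt_le hf hL hpf i u) (N2_pos i u).le
  · rw [d2, d1]
    show N2 L i u * rt L i u = _
    rw [rt_ta (i := i) hu hu', mul_comm]
  · rw [d1]
    exact N2_growth hf hL i (c := t) (d := a) (fun v hv hv' => rt_ta (i := i) hv hv') hu hu'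
  · rw [d2, d1]
    show f2 * N2 L i u ≤ N2 L i u * rt L i u ∧ N2 L i u * rt L i u ≤ L * N2 L i u
    have h5 := N2_pos (L := L) i u
    rw [rt_aa (i := i) hu hu']
    have h6 := mul_nonneg (sub_nonneg.2 hL) (st_nonneg (u - i.a))
    have h7 := mul_le_mul_of_nonneg_left (st_le_one (u - i.a)) (sub_nonneg.2 hL)
    constructor
    · rw [mul_comm]
      exact mul_le_mul_of_nonneg_left (by linarith) h5.le
    · rw [mul_comm]
      exact mul_le_mul_of_nonneg_right (by linarith) h5.le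
  · rw [d2, d1]
    show N2 L i u * rt L i u = _
    rw [rt_ab (i := i) hu hu', mul_comm]
  · rw [d1]
    exact N2_growth hf hL i (c := a + 1) (d := b) (fun v hv hv' => rt_ab (i := i) hv hv') hu hu'
  · rw [d2, d1]
    show L * Real.exp (-(u - b)) * N2 L i u ≤ N2 L i u * rt L i u ∧ N2 L i u * rt L i u ≤ _
    rw [rt_b (i := i) hu, mul_comm (N2 L i u)]
    have h5 := N2_pos (L := L) i u
    exact ⟨mul_le_mul_of_nonneg_right (mul_le_mul_of_nonneg_left
      (hh_ge (x := u - b) (by linarith)) hL0.le) h5.le,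
      mul_le_mul_of_nonneg_right (mul_le_mul_of_nonneg_left (hh_le (u - b)) hL0.le) h5.le⟩
  · rw [d2, d1]
    show N2 L i u * rt L i u = _
    have hb' : b ≤ u := by linarith
    rw [rt_b (i := i) hb', mul_comm (N2 L i u)]
    show L * hh (u - b) * N2 L i u = _
    rw [hh_right (by linarith)]
  · rw [d1]
    exact N2_top hf hL i u
  · have h5 : ∀ k, iteratedDeriv k (P2 L i) u = iteratedDeriv k (P2 f2 i) u := fun k =>
      iter_Iic (P2_smooth hf hL i) (P2_smooth hf le_rfl i) (c := a)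
        (fun s hs => P2_indep (i := i) hs) k hu
    have h6 := h5 2
    rw [iteratedDeriv_succ', iteratedDeriv_one, iteratedDeriv_succ', iteratedDeriv_one] at h6
    rw [h5, h6]
    exact Ht j i u

/-- **Row PHI2.** -/
theorem exists_top {ρ κ nm ν C1 C2 C3 al be f2 : ℝ} (hρ : 0 < ρ) (hρ1 : ρ < 1) (hκ : 0 < κ)
    (hnm : 0 < nm) (hν : 0 < ν) (h1 : 0 < C1) (h2 : 0 < C2) (h3 : 0 < C3)
    (hκn : κ ≤ ρ * nm) (hνn : ν ≤ nm) (hc : C2 * ν ≤ ρ / 40) (hal : 0 < al) (hal1 : al < 1)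
    (hbe : 0 < be) (hf2 : ρ + 1 / 20 ≤ f2 / 2) :
    ∃ (Ms Cb C : ℝ) (Cd Ct : ℕ → ℝ), 1 ≤ Ms ∧ 0 < Cb ∧ 0 < C ∧ (∀ j, 0 ≤ Cd j) ∧
      (∀ j, 0 ≤ Ct j) ∧ ∀ L, f2 ≤ L → ∃ CL : ℕ → ℝ, (∀ j, 0 ≤ CL j) ∧
      ∀ M0, Ms ≤ M0 → ∃ (U : ℝ) (Φ : ℝ → ℝ), 4 ≤ U ∧
        IsPhiU ρ κ nm ν C1 C2 C3 al be Cb Cd M0 Φ ∧
        ∀ t a b, U ≤ t → t + 1 ≤ a → a + 1 ≤ b →
          ∃ Ψ : ℝ → ℝ, IsTop f2 L t a b C Ct CL M0 Φ Ψ := by
  obtain ⟨p, Ms, Cb, Cd, hpρ, hMs, hCb, hCd, hX, H⟩ := exists_phiU_aux hρ hρ1 hκ hnm hν h1 h2 h3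
    hκn hνn hc hal hal1 hbe
  obtain ⟨C, Ct, hC, hCt, HT⟩ := top_aux p (f2 := f2) (by rw [hpρ]; exact hf2)
  refine ⟨Ms, Cb, C, Cd, Ct, hMs, hCb, hC, hCd, hCt, fun L hL => ?_⟩
  obtain ⟨CL, hCL, H2⟩ := HT L hL
  refine ⟨CL, hCL, fun M0 hM0 => ?_⟩
  obtain ⟨hm, hΦ⟩ := H M0 hM0
  obtain ⟨U, hU, H3⟩ := H2 M0 hm
  exact ⟨U, p.PP M0, hU, hΦ, H3⟩

end Vale.Agent.P088.R2.H313.Tp
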