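import Vale.Agent.P088.R2.H313.TopC
import Vale.Agent.P088.R2.H313.MuD

/-!
# P088, stage 3, row PHI2 (part D): `k3` below the threshold, the function `Th`
-/

open Set Filter Topology MeasureTheory
open scoped ContDiff

noncomputable section

namespace Vale.Agent.P088.R2.H313.Tp

open Vale.Agent.P088.R2.H313.Ph

theorem IsTop.k3 {ρ κ nm ν C1 C2 C3 al be Cb f2 L t a b C M0 : ℝ} {Cd Ct CL : ℕ → ℝ}
    {Φ Ψ : ℝ → ℝ} (hΦ : IsPhiU ρ κ nm ν C1 C2 C3 al be Cb Cd M0 Φ)
    (h : IsTop f2 L t a b C Ct CL M0 Φ Ψ) (hC : 0 ≤ C) (hCb : 0 < Cb) (hal : 0 < al)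
    (hal1 : al < 1) (hM : 0 < M0) {u : ℝ} (hu : u ≤ t)
    (hs : C * Real.exp (u - t) ≤ ((1 + C) * (Cb * M0)) ^ (al - 1)) :
    deriv (deriv Ψ) u ≤
      (Cb * (1 + C) + 1) * (deriv Ψ u ^ 2 / Real.exp u + deriv Ψ u ^ al) := by
  have hE := Real.exp_pos u
  have hN : 0 < deriv Φ u := lt_of_lt_of_le hM (hΦ.n1 u)
  have hN2 : 0 < deriv Ψ u := lt_of_lt_of_le hN (h.l1 u)
  have hNN := h.l1 u
  have h1 := h.c2 u hu
  have h2 : deriv Ψ u ≤ (1 + C) * deriv Φ u := by
    refine (h.c1 u hu).trans (mul_le_mul_of_nonneg_right ?_ hN.le)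
    have : Real.exp (u - t) ≤ 1 := Real.exp_le_one_iff.2 (by linarith)
    have := mul_le_mul_of_nonneg_left this hC
    linarith
  -- `K / N ≤ Cb (N / E + N ^ (al - 1))`
  have h3 : deriv (deriv Φ) u / deriv Φ u ≤
      Cb * (deriv Φ u / Real.exp u + deriv Φ u ^ (al - 1)) := by
    rw [div_le_iff₀ hN]
    refine (hΦ.k3 u).trans (le_of_eq ?_)
    have : deriv Φ u ^ al = deriv Φ u ^ (al - 1) * deriv Φ u := by
      have := Real.rpow_add hN (al - 1) 1
      rw [Real.rpow_one] at this
      rw [← this]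
      congr 1
      ring
    rw [this]
    ring
  have h4 : deriv Φ u ^ (al - 1) ≤ (1 + C) * deriv Ψ u ^ (al - 1) := by
    have e1 : deriv Ψ u / (1 + C) ≤ deriv Φ u := by
      rw [div_le_iff₀ (by linarith)]
      linarith
    have e2 := Real.rpow_le_rpow_of_nonpos (div_pos hN2 (by linarith : (0 : ℝ) < 1 + C)) e1
      (by linarith : al - 1 ≤ 0)
    refine e2.trans ?_
    rw [Real.div_rpow hN2.le (by linarith), div_eq_mul_inv, mul_comm]
    refine mul_le_mul_of_nonneg_right ?_ (Real.rpow_nonneg hN2.le _)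
    rw [← Real.rpow_neg (by linarith)]
    calc (1 + C) ^ (-(al - 1)) ≤ (1 + C) ^ (1 : ℝ) :=
          Real.rpow_le_rpow_of_exponent_le (by linarith) (by linarith)
      _ = 1 + C := Real.rpow_one _
  have h5 : C * Real.exp (u - t) ≤ deriv Ψ u ^ (al - 1) := by
    refine hs.trans ?_
    refine Real.rpow_le_rpow_of_nonpos hN2 ?_ (by linarith)
    refine h2.trans (mul_le_mul_of_nonneg_left (hΦ.n2 u) (by linarith))
  have h6 : deriv Ψ u ^ al = deriv Ψ u ^ (al - 1) * deriv Ψ u := by
    have := Real.rpow_add hN2 (al - 1) 1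
    rw [Real.rpow_one] at this
    rw [← this]
    congr 1
    ring
  have hp : 0 < deriv Ψ u ^ (al - 1) := Real.rpow_pos_of_pos hN2 _
  have h7 : deriv (deriv Φ) u / deriv Φ u + C * Real.exp (u - t) ≤
      Cb * (deriv Ψ u / Real.exp u + (1 + C) * deriv Ψ u ^ (al - 1)) + deriv Ψ u ^ (al - 1) := by
    have e1 : deriv Φ u / Real.exp u ≤ deriv Ψ u / Real.exp u :=
      div_le_div_of_nonneg_right hNN hE.le
    have e2 := mul_le_mul_of_nonneg_left (add_le_add e1 h4) hCb.le
    linarith
  refine h1.trans ((mul_le_mul_of_nonneg_right h7 hN2.le).trans ?_)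
  rw [h6]
  have e3 : deriv Ψ u ^ 2 / Real.exp u = deriv Ψ u / Real.exp u * deriv Ψ u := by ring
  rw [e3]
  have q1 : 0 < deriv Ψ u / Real.exp u * deriv Ψ u := by positivity
  have q2 : 0 < deriv Ψ u ^ (al - 1) * deriv Ψ u := by positivity
  have q3 : 0 ≤ Cb * C * (deriv Ψ u / Real.exp u * deriv Ψ u) := by positivity
  nlinarith

/-- The convex function `Th`: `0` left of `c`, slope `A` right of `c + w`. -/
structure IsTh (Ck : ℕ → ℝ) (A c w : ℝ) (Th : ℝ → ℝ) : Prop where
  sm : ContDiff ℝ ∞ Th
  ze : ∀ l ≤ c, Th l = 0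
  d0 : ∀ l, 0 ≤ deriv Th l
  d1 : ∀ l, deriv Th l ≤ A
  rt : ∀ l, c + w ≤ l → deriv Th l = A
  cv : ∀ l, 0 ≤ deriv (deriv Th) l
  lo : ∀ l, A * (l - (c + w)) ≤ Th l
  up : ∀ l, c ≤ l → Th l ≤ A * (l - c)
  nn : ∀ l, 0 ≤ Th l
  bd : ∀ j l, |iteratedDeriv (j + 1) Th l| ≤ Ck j * A / w ^ j
  s2 : ∀ l, deriv (deriv Th) l ^ 2 ≤ Ck 2 * (A / w ^ 2) * deriv Th l
  s3 : ∀ l, iteratedDeriv 3 Th l ^ 2 ≤ Ck 3 * (A / w ^ 3) * deriv (deriv Th) l

theorem st_mono : Monotone st := Real.smoothTransition.monotone

theorem exists_th : ∃ Ck : ℕ → ℝ, (∀ j, 0 ≤ Ck j) ∧ ∀ A c w : ℝ, 0 < A → 0 < w →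
    ∃ Th : ℝ → ℝ, IsTh Ck A c w Th := by
  choose C0 hC0 H0 using st_bd.2
  refine ⟨fun j => C0 j + 2 * C0 2 + 2 * C0 3, fun j => by
    have := hC0 j; have := hC0 2; have := hC0 3; positivity, fun A c w hA hw => ?_⟩
  let g : ℝ → ℝ := fun l => A * st ((1 / w) * (l - c))
  have hin : ∀ l, HasDerivAt (fun l : ℝ => (1 / w) * (l - c)) (1 / w) l := fun l => by
    simpa using ((hasDerivAt_id l).sub_const c).const_mul (1 / w)
  have hgs : ContDiff ℝ ∞ g :=
    contDiff_const.mul (st_smooth.comp (contDiff_const.mul (contDiff_id.sub contDiff_const)))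
  let Th : ℝ → ℝ := fun l => ∫ v in c..l, g v
  have hd : ∀ l, HasDerivAt Th (g l) l := fun l =>
    intervalIntegral.integral_hasDerivAt_right (hgs.continuous.intervalIntegrable _ l)
      (hgs.continuous.stronglyMeasurableAtFilter _ _) hgs.continuous.continuousAt
  have hde : deriv Th = g := funext fun l => (hd l).deriv
  have hTs : ContDiff ℝ ∞ Th := by
    rw [contDiff_infty_iff_deriv]
    refine ⟨fun l => (hd l).differentiableAt, ?_⟩
    rw [hde]
    exact hgs
  -- iterated derivatives of `g`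
  have hgi : ∀ j l, iteratedDeriv j g l = A * ((1 / w) ^ j * iteratedDeriv j st ((1 / w) * (l - c))) := by
    intro j l
    have e1 : g = fun l => A * (fun x => st ((1 / w) * (x - c))) l := rfl
    have hs0 : ContDiff ℝ ∞ fun y => st ((1 / w) * y) :=
      st_smooth.comp (contDiff_const.mul contDiff_id)
    rw [e1, iteratedDeriv_const_mul_field]
    congr 1
    have e2 : iteratedDeriv j (fun x => st ((1 / w) * (x - c))) l =
        iteratedDeriv j (fun y => st ((1 / w) * y)) (l - c) :=
      iteratedDeriv_shift j (fun y => st ((1 / w) * y)) c l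
    rw [e2]
    exact congrFun (iteratedDeriv_comp_const_mul (contDiff_infty.1 st_smooth j) (1 / w : ℝ)) (l - c)
  have hg0 : ∀ l, 0 ≤ g l := fun l => mul_nonneg hA.le (st_nonneg _)
  have hg1 : ∀ l, g l ≤ A := fun l => mul_le_of_le_one_right hA.le (st_le_one _)
  have hst1 : ∀ x, 0 ≤ deriv st x := fun x => st_mono.deriv_nonneg
  have hdg : ∀ l, deriv g l = A * ((1 / w) * deriv st ((1 / w) * (l - c))) := by
    intro l
    have := hgi 1 l
    rwa [iteratedDeriv_one, iteratedDeriv_one, pow_one] at this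
  have hw1 : 0 < 1 / w := by positivity
  have hmono : Monotone Th := monotone_of_deriv_nonneg (fun l => (hd l).differentiableAt)
    fun l => by rw [(hd l).deriv]; exact hg0 l
  have hze : ∀ l ≤ c, Th l = 0 := by
    intro l hl
    have h1 : ∀ v ∈ uIcc c l, g v = 0 := by
      intro v hv
      rw [uIcc_of_ge hl] at hv
      show A * st ((1 / w) * (v - c)) = 0
      rw [st_zero, mul_zero]
      exact mul_nonpos_of_nonneg_of_nonpos hw1.le (by linarith [hv.2])
    show ∫ v in c..l, g v = 0
    rw [intervalIntegral.integral_congr (g := fun _ => (0 : ℝ)) h1]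
    simp
  refine ⟨Th, hTs, hze, fun l => ?_, fun l => ?_, fun l hl => ?_, fun l => ?_, fun l => ?_,
    fun l hl => ?_, fun l => ?_, fun j l => ?_, fun l => ?_, fun l => ?_⟩
  · rw [hde]; exact hg0 l
  · rw [hde]; exact hg1 l
  · rw [hde]
    show A * st ((1 / w) * (l - c)) = A
    rw [st_one, mul_one]
    rw [one_div, ← div_eq_inv_mul, le_div_iff₀ hw]
    linarith
  · rw [hde, hdg]
    have := hst1 ((1 / w) * (l - c))
    positivity
  · -- lower bound
    have hm : Antitone fun l => Th l - A * (l - (c + w)) := by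
      refine antitone_of_deriv_nonpos (fun l => ?_) fun l => ?_
      · exact ((hd l).sub ((((hasDerivAt_id l).sub_const (c + w))).const_mul A)).differentiableAt
      · have := ((hd l).sub ((((hasDerivAt_id l).sub_const (c + w))).const_mul A)).deriv
        have e : (fun l => Th l - A * (l - (c + w))) = fun l => Th l - A * (id l - (c + w)) := rfl
        rw [e]
        refine this.trans_le ?_
        have := hg1 l
        linarith
    rcases le_total l (c + w) with h | h
    · have h1 : 0 ≤ Th l := by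
        rcases le_total l c with h2 | h2
        · rw [hze l h2]
        · rw [← hze c le_rfl]
          exact hmono h2
      have := mul_nonneg hA.le (sub_nonneg.2 h)
      linarith
    · -- constant slope on the right
      have hm2 : MonotoneOn (fun l => Th l - A * (l - (c + w))) (Ici (c + w)) := by
        refine monotoneOn_of_deriv_nonneg (convex_Ici _) ?_ ?_ ?_
        · exact fun l _ => ((hd l).sub ((((hasDerivAt_id l).sub_const
            (c + w))).const_mul A)).continuousAt.continuousWithinAt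
        · exact fun l _ => ((hd l).sub ((((hasDerivAt_id l).sub_const
            (c + w))).const_mul A)).differentiableAt.differentiableWithinAt
        · intro l hl
          have hl' : c + w ≤ l := interior_subset hl
          have := ((hd l).sub ((((hasDerivAt_id l).sub_const (c + w))).const_mul A)).deriv
          have e : (fun l => Th l - A * (l - (c + w))) = fun l => Th l - A * (id l - (c + w)) := rfl
          rw [e]
          refine le_of_le_of_eq ?_ this.symm
          have h5 : g l = A := by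
            show A * st ((1 / w) * (l - c)) = A
            rw [st_one, mul_one]
            rw [one_div, ← div_eq_inv_mul, le_div_iff₀ hw]
            linarith
          rw [h5]
          linarith
      have := hm2 self_mem_Ici h h
      simp only [sub_self, mul_zero, sub_zero] at this
      have h6 : 0 ≤ Th (c + w) := by
        rw [← hze c le_rfl]
        exact hmono (by linarith)
      linarith
  · have hm : Monotone fun l => A * (l - c) - Th l := by
      refine monotone_of_deriv_nonneg (fun l => ?_) fun l => ?_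
      · exact ((((hasDerivAt_id l).sub_const c).const_mul A).sub (hd l)).differentiableAt
      · have := ((((hasDerivAt_id l).sub_const c).const_mul A).sub (hd l)).deriv
        have e : (fun l => A * (l - c) - Th l) = fun l => A * (id l - c) - Th l := rfl
        rw [e]
        refine le_of_le_of_eq ?_ this.symm
        have := hg1 l
        linarith
    have := hm hl
    simp only [sub_self, mul_zero, hze c le_rfl] at this
    linarith
  · rcases le_total l c with h2 | h2
    · rw [hze l h2]
    · rw [← hze c le_rfl]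
      exact hmono h2
  · rw [iteratedDeriv_succ', hde, hgi, abs_mul, abs_mul, abs_of_pos hA, abs_of_pos (pow_pos hw1 j)]
    have h1 := H0 j () ((1 / w) * (l - c))
    rw [mul_one] at h1
    have h2 := hC0 2
    have h3 := hC0 3
    have h4 : 0 < A * (1 / w) ^ j := by positivity
    have e : (C0 j + 2 * C0 2 + 2 * C0 3) * A / w ^ j =
        A * (1 / w) ^ j * (C0 j + 2 * C0 2 + 2 * C0 3) := by
      rw [div_pow, one_pow]
      field_simp
    show A * ((1 / w) ^ j * |iteratedDeriv j st ((1 / w) * (l - c))|) ≤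
      (C0 j + 2 * C0 2 + 2 * C0 3) * A / w ^ j
    rw [e, ← mul_assoc]
    exact mul_le_mul_of_nonneg_left (by linarith) h4.le
  · rw [hde, hdg]
    show (A * ((1 / w) * deriv st ((1 / w) * (l - c)))) ^ 2 ≤
      (C0 2 + 2 * C0 2 + 2 * C0 3) * (A / w ^ 2) * (A * st ((1 / w) * (l - c)))
    have h1 := Mu.sq_deriv_le (f := st) (contDiff_infty.1 st_smooth 2) st_nonneg (hC0 2)
      (fun x => by
        have := H0 2 () x
        rw [mul_one, iteratedDeriv_succ', iteratedDeriv_one] at this
        exact (le_abs_self _).trans this) ((1 / w) * (l - c))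
    have h2 := hC0 2
    have h3 := hC0 3
    have h4 := st_nonneg ((1 / w) * (l - c))
    have e : (A * ((1 / w) * deriv st ((1 / w) * (l - c)))) ^ 2 =
        A ^ 2 / w ^ 2 * deriv st ((1 / w) * (l - c)) ^ 2 := by
      field_simp
    have e2 : (C0 2 + 2 * C0 2 + 2 * C0 3) * (A / w ^ 2) * (A * st ((1 / w) * (l - c))) =
        A ^ 2 / w ^ 2 * ((C0 2 + 2 * C0 2 + 2 * C0 3) * st ((1 / w) * (l - c))) := by
      field_simp
    rw [e, e2]
    refine mul_le_mul_of_nonneg_left (h1.trans ?_) (by positivity)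
    refine mul_le_mul_of_nonneg_right (by linarith) h4
  · have e0 : iteratedDeriv 3 Th l = iteratedDeriv 2 g l := by
      rw [iteratedDeriv_succ', hde]
    rw [e0, hgi, hde, hdg]
    show _ ≤ (C0 3 + 2 * C0 2 + 2 * C0 3) * (A / w ^ 3) * _
    have hst2 : ContDiff ℝ ∞ (deriv st) := (contDiff_infty_iff_deriv.1 st_smooth).2
    have h1 := Mu.sq_deriv_le (f := deriv st) (contDiff_infty.1 hst2 2) hst1 (hC0 3)
      (fun x => by
        have := H0 3 () x
        rw [mul_one, iteratedDeriv_succ', iteratedDeriv_succ', iteratedDeriv_one] at this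
        exact (le_abs_self _).trans this) ((1 / w) * (l - c))
    have h2 := hC0 2
    have h3 := hC0 3
    have h4 := hst1 ((1 / w) * (l - c))
    have e3 : iteratedDeriv 2 st ((1 / w) * (l - c)) =
        deriv (deriv st) ((1 / w) * (l - c)) := by
      rw [iteratedDeriv_succ', iteratedDeriv_one]
    rw [e3]
    have e : (A * ((1 / w) ^ 2 * deriv (deriv st) ((1 / w) * (l - c)))) ^ 2 =
        A ^ 2 / w ^ 4 * deriv (deriv st) ((1 / w) * (l - c)) ^ 2 := by
      field_simp
    have e2 : (C0 3 + 2 * C0 2 + 2 * C0 3) * (A / w ^ 3) *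
        (A * ((1 / w) * deriv st ((1 / w) * (l - c)))) =
        A ^ 2 / w ^ 4 * ((C0 3 + 2 * C0 2 + 2 * C0 3) * deriv st ((1 / w) * (l - c))) := by
      field_simp
    rw [e, e2]
    refine mul_le_mul_of_nonneg_left (h1.trans ?_) (by positivity)
    refine mul_le_mul_of_nonneg_right (by linarith) h4

end Vale.Agent.P088.R2.H313.Tp
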